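import Vale.Agent.P299.H531.Fib

/-! P299, step (5.2) (helper531): cutoff functions supported on one sheet. -/

set_option linter.all false

open MeasureTheory Filter Topology Metric
open scoped ENNReal NNReal ComplexConjugate ContDiff

namespace Vale.Agent.P299.H531

open Vale.Agent.P300.L2 Vale.Agent.P300.L2.Sheets

variable {k N' : ℕ} {T : Sheets k N'}

open Classical in
/-- The function `g` on the sheet `σ` over `W`, extended by zero. -/
noncomputable def sheetFun (W : Set (Fin k → ℂ)) (σ : (Fin k → ℂ) → ℕ) (g : (Fin k → ℂ) → ℂ)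
    (y : (Fin k → ℂ) × ℕ) : ℂ := if y.1 ∈ W ∧ y.2 = σ y.1 then g y.1 else 0

theorem sheetFun_of {W : Set (Fin k → ℂ)} {σ : (Fin k → ℂ) → ℕ} {g : (Fin k → ℂ) → ℂ}
    {y : (Fin k → ℂ) × ℕ} (h : y.1 ∈ W ∧ y.2 = σ y.1) : sheetFun W σ g y = g y.1 := if_pos h

theorem sheetFun_not {W : Set (Fin k → ℂ)} {σ : (Fin k → ℂ) → ℕ} {g : (Fin k → ℂ) → ℂ}
    {y : (Fin k → ℂ) × ℕ} (h : ¬(y.1 ∈ W ∧ y.2 = σ y.1)) : sheetFun W σ g y = 0 := if_neg h

theorem sheetFun_germ {W : Set (Fin k → ℂ)} {σ : (Fin k → ℂ) → ℕ} (hσ : T.IsSection W σ)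
    {g : (Fin k → ℂ) → ℂ} {K : Set (Fin k → ℂ)} (hK : IsClosed K) (hKW : K ⊆ W)
    (hg : ∀ z, z ∉ K → g z = 0) {W' : Set (Fin k → ℂ)} {s : (Fin k → ℂ) → ℕ}
    (hs : T.IsSection W' s) {z : Fin k → ℂ} (hz : z ∈ W') :
    ((z ∈ W ∧ s z = σ z) → (fun z => sheetFun W σ g (z, s z)) =ᶠ[𝓝 z] g) ∧
    (¬(z ∈ W ∧ s z = σ z) → (fun z => sheetFun W σ g (z, s z)) =ᶠ[𝓝 z] fun _ => 0) := by
  refine ⟨fun h => ?_, fun h => ?_⟩
  · filter_upwards [hσ.isOpen.mem_nhds h.1, hs.germ hσ hz h.1 h.2] with ζ h1 h2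
    exact sheetFun_of ⟨h1, h2⟩
  · by_cases hzW : z ∈ W
    · have h3 : s z ≠ σ z := fun e => h ⟨hzW, e⟩
      filter_upwards [hs.germ_ne hσ hz hzW h3] with ζ h4
      exact sheetFun_not fun h5 => h4 h5.2
    · have h3 : z ∉ K := fun h4 => hzW (hKW h4)
      filter_upwards [hK.isOpen_compl.mem_nhds h3] with ζ h4
      by_cases h5 : ζ ∈ W ∧ s ζ = σ ζ
      · show sheetFun W σ g (ζ, s ζ) = 0
        rw [sheetFun_of (y := (ζ, s ζ)) h5]
        exact hg ζ h4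
      · exact sheetFun_not h5

theorem sheetFun_CD {W : Set (Fin k → ℂ)} {σ : (Fin k → ℂ) → ℕ} (hσ : T.IsSection W σ)
    {g : (Fin k → ℂ) → ℂ} {K : Set (Fin k → ℂ)} (hK : IsClosed K) (hKW : K ⊆ W)
    (hg : ∀ z, z ∉ K → g z = 0) {m : ℕ} (hgm : ContDiff ℝ m g) :
    T.CD m (sheetFun W σ g) := by
  intro W' s hs z hz
  obtain ⟨h1, h2⟩ := sheetFun_germ hσ hK hKW hg hs hz
  by_cases h : z ∈ W ∧ s z = σ z
  · exact (hgm.contDiffAt.congr_of_eventuallyEq (h1 h)).contDiffWithinAt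
  · exact (contDiffAt_const.congr_of_eventuallyEq (h2 h)).contDiffWithinAt

theorem sheetFun_Db {W : Set (Fin k → ℂ)} {σ : (Fin k → ℂ) → ℕ} (hσ : T.IsSection W σ)
    {g : (Fin k → ℂ) → ℂ} {K : Set (Fin k → ℂ)} (hK : IsClosed K) (hKW : K ⊆ W)
    (hg : ∀ z, z ∉ K → g z = 0) {y : (Fin k → ℂ) × ℕ} (hy : y ∈ T.M) (i : Fin k) :
    T.Db i (sheetFun W σ g) y = sheetFun W σ (dzb i g) y := by
  obtain ⟨s, W', hs, z, hz, rfl⟩ := exists_section' hy
  obtain ⟨h1, h2⟩ := sheetFun_germ hσ hK hKW hg hs hz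
  rw [Db_apply hs hz]
  by_cases h : z ∈ W ∧ s z = σ z
  · rw [dzb_congr (h1 h), sheetFun_of (y := (z, s z)) h]
  · rw [dzb_congr (h2 h), sheetFun_not (y := (z, s z)) h, dzb_const]

theorem sheetFun_supp {W : Set (Fin k → ℂ)} {σ : (Fin k → ℂ) → ℕ} 
    {g : (Fin k → ℂ) → ℂ} {K : Set (Fin k → ℂ)} (hK : IsCompact K) (hKV : K ⊆ T.V)
    (hg : ∀ z, z ∉ K → g z = 0) : T.Supp (sheetFun W σ g) := by
  refine ⟨K, hK, hKV, fun y hy => ?_⟩
  by_cases h : y.1 ∈ W ∧ y.2 = σ y.1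
  · rw [sheetFun_of h, hg _ hy]
  · exact sheetFun_not h

/-! ### A translated bump function -/

/-- A bump function: `1` on the ball of radius `r/3`, `0` outside of the ball of radius `r`. -/
noncomputable def bmp (k : ℕ) {r : ℝ} (hr : 0 < r) : ContDiffBump (0 : Fin k → ℂ) where
  rIn := r / 3
  rOut := r
  rIn_pos := by positivity
  rIn_lt_rOut := by linarith

/-- The bump function around `a`. -/
noncomputable def bm {r : ℝ} (hr : 0 < r) (a z : Fin k → ℂ) : ℂ := ((bmp k hr (z - a) : ℝ) : ℂ)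

variable {r : ℝ} (hr : 0 < r)

theorem bm_contDiff (a : Fin k → ℂ) (m : ℕ) : ContDiff ℝ m (bm hr a) := by
  have h1 : ContDiff ℝ m (fun z : Fin k → ℂ => bmp k hr (z - a)) :=
    (bmp k hr).contDiff.comp (contDiff_id.sub contDiff_const)
  exact Complex.ofRealCLM.contDiff.comp h1

theorem bm_one {a z : Fin k → ℂ} (h : ‖z - a‖ ≤ r / 3) : bm hr a z = 1 := by
  have : bmp k hr (z - a) = 1 := (bmp k hr).one_of_mem_closedBall
    (by rw [mem_closedBall_zero_iff]; exact h)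
  rw [bm, this, Complex.ofReal_one]

theorem bm_zero {a z : Fin k → ℂ} (h : r ≤ ‖z - a‖) : bm hr a z = 0 := by
  have : bmp k hr (z - a) = 0 := (bmp k hr).zero_of_le_dist
    (by rw [dist_zero_right]; exact h)
  rw [bm, this, Complex.ofReal_zero]

theorem bm_norm_le (a z : Fin k → ℂ) : ‖bm hr a z‖ ≤ 1 := by
  rw [bm, Complex.norm_real, Real.norm_eq_abs, abs_of_nonneg (bmp k hr).nonneg]
  exact (bmp k hr).le_one

theorem bm_translate (a z : Fin k → ℂ) (i : Fin k) : dzb i (bm hr a) z = dzb i (bm hr 0) (z - a) := by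
  have h1 : bm hr a = fun z => bm hr 0 (z - a) := by
    funext z; simp [bm]
  have h2 : ∀ v, fderiv ℝ (fun z => bm hr 0 (z - a)) z v = fderiv ℝ (bm hr 0) (z - a) v := by
    intro v
    rw [fderiv_comp_sub]
  rw [h1]
  simp only [dzb, h2]

theorem dzb_bm_zero {a z : Fin k → ℂ} (i : Fin k) (h : ‖z - a‖ < r / 3 ∨ r < ‖z - a‖) :
    dzb i (bm hr a) z = 0 := by
  have hc : Continuous fun z : Fin k → ℂ => ‖z - a‖ := by fun_prop
  rcases h with h | h
  · have : bm hr a =ᶠ[𝓝 z] fun _ => 1 := by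
      filter_upwards [hc.continuousAt.eventually (gt_mem_nhds h)] with ζ h1
      exact bm_one hr (le_of_lt h1)
    rw [dzb_congr this, dzb_const]
  · have : bm hr a =ᶠ[𝓝 z] fun _ => 0 := by
      filter_upwards [hc.continuousAt.eventually (lt_mem_nhds h)] with ζ h1
      exact bm_zero hr (le_of_lt h1)
    rw [dzb_congr this, dzb_const]

/-- The gradient of the bump function is bounded independently of the centre. -/
theorem exists_bm_bound : ∃ C : ℝ, 0 ≤ C ∧ ∀ a z : Fin k → ℂ, ∑ i, ‖dzb i (bm hr a) z‖ ^ 2 ≤ C := by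
  have h1 : ∀ i : Fin k, ContDiff ℝ 0 (dzb i (bm hr (0 : Fin k → ℂ))) := by
    intro i
    have := contDiffOn_dzb (j := i) (m := 0) isOpen_univ (f := bm hr (0 : Fin k → ℂ))
      ((bm_contDiff hr 0 1).contDiffOn)
    exact_mod_cast contDiffOn_univ.1 this
  have h2 : Continuous fun z : Fin k → ℂ => ∑ i, ‖dzb i (bm hr (0 : Fin k → ℂ)) z‖ ^ 2 :=
    continuous_finsetSum _ fun i _ => ((h1 i).continuous.norm).pow 2
  obtain ⟨C, hC⟩ := (isCompact_closedBall (0 : Fin k → ℂ) r).exists_bound_of_continuousOn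
    h2.continuousOn
  refine ⟨max C 0, le_max_right _ _, fun a z => ?_⟩
  simp only [bm_translate hr a z]
  by_cases h : z - a ∈ closedBall (0 : Fin k → ℂ) r
  · have h3 := hC _ h
    rw [Real.norm_eq_abs, abs_of_nonneg (by positivity)] at h3
    exact h3.trans (le_max_left _ _)
  · rw [mem_closedBall_zero_iff, not_le] at h
    have h4 : ∀ i : Fin k, dzb i (bm hr (0 : Fin k → ℂ)) (z - a) = 0 := fun i =>
      dzb_bm_zero hr i (Or.inr (by rwa [sub_zero]))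
    simp [h4]

end Vale.Agent.P299.H531
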