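import Vale.Agent.P299.H531.Fib

/-! P299, step (5.2) (helper531): `‖z' - a‖ ^ (-2 k)` is not integrable. -/

set_option linter.all false

open MeasureTheory Filter Topology Metric
open scoped ENNReal NNReal ComplexConjugate

namespace Vale.Agent.P299.H531

variable {n k : ℕ}

/-- The square distance in the base. -/
noncomputable def sq (ι : Fin k ↪ Fin n) (z₀ z : Fin n → ℂ) : ℝ := ∑ i, ‖z (ι i) - z₀ (ι i)‖ ^ 2

theorem sq_nonneg' (ι : Fin k ↪ Fin n) (z₀ z : Fin n → ℂ) : 0 ≤ sq ι z₀ z := by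
  unfold sq; positivity

/-- The box with side `δ` in the coordinates of the base and `ε` in the others. -/
noncomputable def box (ι : Fin k ↪ Fin n) (z₀ : Fin n → ℂ) (ε δ : ℝ) : Set (Fin n → ℂ) :=
  Set.pi Set.univ fun l => ball (z₀ l) (if l ∈ Finset.univ.map ι then δ else ε)

theorem box_subset (ι : Fin k ↪ Fin n) (z₀ : Fin n → ℂ) {ε δ : ℝ} (hε : 0 < ε) (hδ : δ ≤ ε) :
    box ι z₀ ε δ ⊆ ball z₀ ε := by
  rw [ball_pi _ hε]
  refine Set.pi_mono fun l _ => ball_subset_ball ?_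
  split_ifs
  · exact hδ
  · exact le_rfl

theorem volume_box (ι : Fin k ↪ Fin n) (z₀ : Fin n → ℂ) (ε δ : ℝ) :
    volume (box ι z₀ ε δ) = (ENNReal.ofReal δ ^ 2 * NNReal.pi) ^ k *
      (ENNReal.ofReal ε ^ 2 * NNReal.pi) ^ (Finset.univ.filter fun l => l ∉ Finset.univ.map ι).card := by
  rw [box, volume_pi_pi]
  have h1 : ∀ l, volume (ball (z₀ l) (if l ∈ Finset.univ.map ι then δ else ε)) =
      if l ∈ Finset.univ.map ι then ENNReal.ofReal δ ^ 2 * NNReal.pi
      else ENNReal.ofReal ε ^ 2 * NNReal.pi := by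
    intro l
    rw [Complex.volume_ball]
    split_ifs <;> rfl
  rw [Finset.prod_congr rfl fun l _ => h1 l, Finset.prod_ite, Finset.prod_const, Finset.prod_const]
  congr 2
  have : (Finset.univ.filter fun l => l ∈ Finset.univ.map ι) = Finset.univ.map ι := by
    ext l; simp
  rw [this, Finset.card_map, Finset.card_univ, Fintype.card_fin]

theorem lintegral_sq_eq_top (hk : 0 < k) (ι : Fin k ↪ Fin n) (z₀ : Fin n → ℂ) {ε : ℝ}
    (hε : 0 < ε) :
    ∫⁻ z in ball z₀ ε, (ENNReal.ofReal (sq ι z₀ z) ^ k)⁻¹ = ⊤ := by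
  by_contra hne
  set δ : ℕ → ℝ := fun i => ε / (i + 1) with hδ
  have hδ0 : ∀ i, 0 < δ i := fun i => by positivity
  have hδε : ∀ i, δ i ≤ ε := fun i => by
    rw [hδ]
    simp only
    rw [div_le_iff₀ (by positivity)]
    nlinarith [Nat.cast_nonneg (α := ℝ) i]
  set c : ℝ≥0∞ := (ENNReal.ofReal ε ^ 2 * NNReal.pi) ^
    (Finset.univ.filter fun l => l ∉ Finset.univ.map ι).card with hc
  have hpi0 : (NNReal.pi : ℝ≥0∞) ≠ 0 := by
    exact_mod_cast NNReal.pi_ne_zero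
  have hc0 : c ≠ 0 := by
    refine pow_ne_zero _ (mul_ne_zero (pow_ne_zero _ ?_) hpi0)
    simpa using hε
  have hct : c ≠ ⊤ := by
    refine ENNReal.pow_ne_top (ENNReal.mul_ne_top (ENNReal.pow_ne_top ENNReal.ofReal_ne_top) ?_)
    exact ENNReal.coe_ne_top
  -- the measures of the boxes tend to zero
  have h1 : Tendsto (fun i => (volume.restrict (ball z₀ ε)) (box ι z₀ ε (δ i))) atTop (𝓝 0) := by
    have h2 : Tendsto (fun i : ℕ => δ i) atTop (𝓝 0) := by
      have h3 := (tendsto_one_div_add_atTop_nhds_zero_nat (𝕜 := ℝ)).const_mul ε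
      rw [mul_zero] at h3
      refine h3.congr fun i => ?_
      rw [hδ]; ring
    have h4 : Tendsto (fun i : ℕ => (ENNReal.ofReal (δ i) ^ 2 * NNReal.pi) ^ k * c) atTop
        (𝓝 ((ENNReal.ofReal 0 ^ 2 * NNReal.pi) ^ k * c)) := by
      refine ENNReal.Tendsto.mul_const (ENNReal.Tendsto.pow (ENNReal.Tendsto.mul_const
        (ENNReal.Tendsto.pow (ENNReal.tendsto_ofReal h2)) (Or.inr ENNReal.coe_ne_top))) (Or.inr hct)
    have h5 : (ENNReal.ofReal 0 ^ 2 * NNReal.pi) ^ k * c = 0 := by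
      simp [hk.ne']
    rw [h5] at h4
    refine tendsto_of_tendsto_of_tendsto_of_le_of_le tendsto_const_nhds h4
      (fun i => zero_le) fun i => ?_
    rw [← volume_box]
    exact Measure.restrict_apply_le _ _
  have h2 := tendsto_setLIntegral_zero hne h1
  -- lower bound
  have h3 : ∀ i, (ENNReal.ofReal k ^ k)⁻¹ * (NNReal.pi : ℝ≥0∞) ^ k * c ≤
      ∫⁻ z in box ι z₀ ε (δ i), (ENNReal.ofReal (sq ι z₀ z) ^ k)⁻¹
        ∂(volume.restrict (ball z₀ ε)) := by
    intro i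
    have hb : MeasurableSet (box ι z₀ ε (δ i)) :=
      (isOpen_set_pi Set.finite_univ fun _ _ => isOpen_ball).measurableSet
    rw [Measure.restrict_restrict hb, Set.inter_eq_left.2 (box_subset ι z₀ hε (hδε i))]
    have h4 : ∀ z ∈ box ι z₀ ε (δ i), (ENNReal.ofReal (k * δ i ^ 2) ^ k)⁻¹ ≤
        (ENNReal.ofReal (sq ι z₀ z) ^ k)⁻¹ := by
      intro z hz
      refine ENNReal.inv_le_inv.2 (pow_le_pow_left' (ENNReal.ofReal_le_ofReal ?_) k)
      unfold sq
      calc ∑ i', ‖z (ι i') - z₀ (ι i')‖ ^ 2 ≤ ∑ i' : Fin k, δ i ^ 2 := by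
            refine Finset.sum_le_sum fun i' _ => ?_
            have h5 := hz (ι i') (Set.mem_univ _)
            simp only [Finset.mem_map', Finset.mem_univ, if_true, mem_ball, dist_eq_norm] at h5
            gcongr
        _ = k * δ i ^ 2 := by simp
    calc (ENNReal.ofReal k ^ k)⁻¹ * (NNReal.pi : ℝ≥0∞) ^ k * c
        = (ENNReal.ofReal (k * δ i ^ 2) ^ k)⁻¹ * volume (box ι z₀ ε (δ i)) := by
          rw [volume_box, ← hc]
          have e0 : ENNReal.ofReal (δ i) ^ 2 ≠ 0 := pow_ne_zero _ (by simpa using hδ0 i)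
          have et : ENNReal.ofReal (δ i) ^ 2 ≠ ⊤ := ENNReal.pow_ne_top ENNReal.ofReal_ne_top
          rw [ENNReal.ofReal_mul (by positivity), ENNReal.ofReal_pow (hδ0 i).le, mul_pow, mul_pow,
            ENNReal.mul_inv (Or.inr (ENNReal.pow_ne_top et)) (Or.inr (pow_ne_zero _ e0))]
          have e1 : ((ENNReal.ofReal (δ i) ^ 2) ^ k)⁻¹ * (ENNReal.ofReal (δ i) ^ 2) ^ k = 1 :=
            ENNReal.inv_mul_cancel (pow_ne_zero _ e0) (ENNReal.pow_ne_top et)
          calc (ENNReal.ofReal k ^ k)⁻¹ * (NNReal.pi : ℝ≥0∞) ^ k * c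
              = (ENNReal.ofReal k ^ k)⁻¹ * ((((ENNReal.ofReal (δ i) ^ 2) ^ k)⁻¹ *
                (ENNReal.ofReal (δ i) ^ 2) ^ k) * (NNReal.pi : ℝ≥0∞) ^ k * c) := by
                rw [e1, one_mul, mul_assoc]
            _ = _ := by ring
      _ = ∫⁻ z in box ι z₀ ε (δ i), (ENNReal.ofReal (k * δ i ^ 2) ^ k)⁻¹ := by
          rw [setLIntegral_const]
      _ ≤ _ := setLIntegral_mono' hb h4
  have h4 : (ENNReal.ofReal k ^ k)⁻¹ * (NNReal.pi : ℝ≥0∞) ^ k * c ≤ 0 :=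
    ge_of_tendsto' h2 h3
  have h5 : (ENNReal.ofReal k ^ k)⁻¹ * (NNReal.pi : ℝ≥0∞) ^ k * c ≠ 0 := by
    refine mul_ne_zero (mul_ne_zero ?_ (pow_ne_zero _ hpi0)) hc0
    exact ENNReal.inv_ne_zero.2 (ENNReal.pow_ne_top ENNReal.ofReal_ne_top)
  exact h5 (le_antisymm h4 zero_le)

/-- The regularised functions `(|z' - a|² + 1/(m+1)) ^ (-k)` have no common bound for their
integrals. -/
theorem not_bounded_sq (hk : 0 < k) (ι : Fin k ↪ Fin n) (z₀ : Fin n → ℂ) {ε : ℝ} (hε : 0 < ε)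
    {B : ℝ≥0∞} (hB : B ≠ ⊤)
    (h : ∀ m : ℕ, ∫⁻ z in ball z₀ ε, ENNReal.ofReal (((sq ι z₀ z + 1 / (m + 1)) ^ k)⁻¹) ≤ B) :
    False := by
  have h1 : ∀ z, Tendsto (fun m : ℕ => ENNReal.ofReal (((sq ι z₀ z + 1 / (m + 1)) ^ k)⁻¹)) atTop
      (𝓝 ((ENNReal.ofReal (sq ι z₀ z) ^ k)⁻¹)) := by
    intro z
    have h2 : Tendsto (fun m : ℕ => sq ι z₀ z + 1 / ((m : ℝ) + 1)) atTop (𝓝 (sq ι z₀ z)) := by
      simpa using (tendsto_one_div_add_atTop_nhds_zero_nat (𝕜 := ℝ)).const_add (sq ι z₀ z)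
    have h3 := (continuous_inv.tendsto _).comp
      (ENNReal.Tendsto.pow (n := k) (ENNReal.tendsto_ofReal h2))
    refine h3.congr fun m => ?_
    rw [Function.comp_apply]
    have h4 : 0 < sq ι z₀ z + 1 / ((m : ℝ) + 1) := by
      have := sq_nonneg' ι z₀ z
      positivity
    rw [ENNReal.ofReal_inv_of_pos (by positivity), ENNReal.ofReal_pow h4.le]
  have hcont : Continuous (sq ι z₀) := by
    unfold sq; fun_prop
  have h2 : ∫⁻ z in ball z₀ ε, (ENNReal.ofReal (sq ι z₀ z) ^ k)⁻¹ ≤ B := by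
    calc ∫⁻ z in ball z₀ ε, (ENNReal.ofReal (sq ι z₀ z) ^ k)⁻¹
        = ∫⁻ z in ball z₀ ε, liminf (fun m : ℕ =>
            ENNReal.ofReal (((sq ι z₀ z + 1 / (m + 1)) ^ k)⁻¹)) atTop := by
          refine lintegral_congr fun z => ?_
          rw [(h1 z).liminf_eq]
      _ ≤ liminf (fun m : ℕ => ∫⁻ z in ball z₀ ε,
            ENNReal.ofReal (((sq ι z₀ z + 1 / (m + 1)) ^ k)⁻¹)) atTop := by
          refine lintegral_liminf_le fun m => ?_
          have : Measurable (sq ι z₀) := hcont.measurable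
          fun_prop
      _ ≤ B := by
          refine liminf_le_of_le (by isBoundedDefault) fun b hb => ?_
          obtain ⟨m, hm⟩ := hb.exists
          exact hm.trans (h m)
  rw [lintegral_sq_eq_top hk ι z₀ hε] at h2
  exact hB (top_le_iff.1 h2)

end Vale.Agent.P299.H531
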