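import Vale.Agent.P299.H531.Cut
import Vale.Agent.P299.H531.NonInt

/-! P299, step (5.2) (helper531): extension of `s ^ j` from a fibre, with estimates. -/

set_option linter.all false

open MeasureTheory Filter Topology Metric
open scoped ENNReal NNReal ComplexConjugate ContDiff

namespace Vale.Agent.P299.H531

open Vale.Agent.P300.L2 Vale.Agent.P300.L2.Sheets

variable {n N k N' : ℕ} {S : Sheets n N} {T : Sheets k N'} {ι : Fin k ↪ Fin n}
  {Φ : (Fin n → ℂ) × ℕ → (Fin k → ℂ) × ℕ} {p : (Fin n → ℂ) → ℝ}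
  {φ : (Fin n → ℂ) × ℕ → ℝ} {s : (Fin n → ℂ) × ℕ → ℂ}

/-- Hoermander + Weyl with decreasing weights of polynomial growth. -/
def HoloSing (S : Sheets n N) (p : (Fin n → ℂ) → ℝ) : Prop :=
  ∀ (Φ : ℕ → (Fin n → ℂ) × ℕ → ℝ) (_ : ∀ m, S.CD 2 (fun q => (Φ m q : ℂ)))
    (_ : ∀ m, ∀ q ∈ S.M, Φ (m + 1) q ≤ Φ m q)
    (_ : ∀ m, ∃ (c : ℝ) (r : ℕ), ∀ q ∈ S.M, Real.exp (-Φ m q) ≤ c * (1 + p q.1) ^ r)
    (_ : ∀ m, ∀ q ∈ S.M, ∀ β : Fin n → ℂ, 0 ≤ S.levi (Φ m) β q)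
    (s : (Fin n → ℂ) × ℕ → ℂ) (_ : S.CD 2 s)
    (_ : ∃ (c : ℝ) (r : ℕ), ∀ q ∈ S.M, ∀ j, ‖S.Db j s q‖ ≤ c * (1 + p q.1) ^ r)
    (a : ℕ → (Fin n → ℂ) × ℕ → ℝ) (_ : ∀ m q, 0 ≤ a m q) (_ : ∀ m, AEMeasurable (a m) S.μ)
    (_ : ∀ m, ∀ q ∈ S.M, ∀ β : Fin n → ℂ,
      ‖∑ j, S.Db j s q * conj (β j)‖ ^ 2 ≤ a m q * S.levi (Φ m) β q)
    (A : ℝ) (_ : 0 ≤ A)
    (_ : ∀ m, ∫⁻ q, ENNReal.ofReal (a m q * Real.exp (-Φ m q)) ∂S.μ ≤ ENNReal.ofReal A),
    ∃ F : (Fin n → ℂ) × ℕ → ℂ, S.Holo F ∧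
      ∀ m, ∫⁻ q, ENNReal.ofReal (‖F q - s q‖ ^ 2 * Real.exp (-Φ m q)) ∂S.μ ≤
        ENNReal.ofReal (2 * A)

/-- The data of step (5.2). -/
structure Data (S : Sheets n N) (T : Sheets k N') (ι : Fin k ↪ Fin n)
    (Φ : (Fin n → ℂ) × ℕ → (Fin k → ℂ) × ℕ) (p : (Fin n → ℂ) → ℝ)
    (φ : (Fin n → ℂ) × ℕ → ℝ) (s : (Fin n → ℂ) × ℕ → ℂ) : Prop where
  fib : Fib S T ι Φ
  p_nonneg : ∀ z ∈ S.V, 0 ≤ p z
  φ_CD : S.CD 2 (fun q => (φ q : ℂ))
  φ_levi : ∀ q ∈ S.M, ∀ β : Fin n → ℂ, 0 ≤ S.levi φ β q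
  φ_growth : ∃ (c : ℝ) (r : ℕ), ∀ q ∈ S.M, Real.exp (-φ q) ≤ c * (1 + p q.1) ^ r
  s_holo : S.Holo s
  s_growth : ∃ (c : ℝ) (r : ℕ), ∀ q ∈ S.M, ‖s q‖ ≤ c * (1 + p q.1) ^ r

/-- `1 + |z'|²`. -/
noncomputable def N1 (ι : Fin k ↪ Fin n) (z : Fin n → ℂ) : ℝ := 1 + ∑ i, ‖z (ι i)‖ ^ 2

theorem one_le_N1 (z : Fin n → ℂ) : 1 ≤ N1 ι z := by
  unfold N1
  have : 0 ≤ ∑ i, ‖z (ι i)‖ ^ 2 := by positivity
  linarith

theorem N1_pos (z : Fin n → ℂ) : 0 < N1 ι z := lt_of_lt_of_le one_pos (one_le_N1 z)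

/-- `ε + |z' - a|²`. -/
noncomputable def Na (ι : Fin k ↪ Fin n) (a : Fin k → ℂ) (ε : ℝ) (z : Fin n → ℂ) : ℝ :=
  ε + ∑ i, ‖z (ι i) - a i‖ ^ 2

theorem Na_pos {a : Fin k → ℂ} {ε : ℝ} (hε : 0 < ε) (z : Fin n → ℂ) : 0 < Na ι a ε z := by
  unfold Na; positivity

/-- The weights. -/
noncomputable def wgt (ι : Fin k ↪ Fin n) (φ : (Fin n → ℂ) × ℕ → ℝ) (l : ℕ) (a : Fin k → ℂ)
    (m : ℕ) (q : (Fin n → ℂ) × ℕ) : ℝ :=
  (l : ℝ) * φ q + 1 * ((k : ℝ) * Real.log (Na ι a (1 / (m + 1)) q.1) + 1 * Real.log (N1 ι q.1))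

theorem exp_wgt (l : ℕ) (a : Fin k → ℂ) (m : ℕ) (q : (Fin n → ℂ) × ℕ) :
    Real.exp (-wgt ι φ l a m q) =
      Real.exp (-φ q) ^ l * (Na ι a (1 / (m + 1)) q.1 ^ k)⁻¹ * (N1 ι q.1)⁻¹ := by
  have h1 : 0 < Na ι a (1 / ((m : ℝ) + 1)) q.1 := Na_pos (by positivity) _
  have h2 : 0 < N1 ι q.1 := N1_pos _
  have e : -wgt ι φ l a m q = (l : ℝ) * (-φ q) +
      -((k : ℝ) * Real.log (Na ι a (1 / (m + 1)) q.1)) + -Real.log (N1 ι q.1) := by
    unfold wgt; ring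
  rw [e, Real.exp_add, Real.exp_add, Real.exp_nat_mul,
    Real.exp_neg ((k : ℝ) * Real.log (Na ι a (1 / (m + 1)) q.1)), Real.exp_nat_mul,
    Real.exp_log h1, Real.exp_neg (Real.log (N1 ι q.1)), Real.exp_log h2]

theorem holo_coord (a : Fin k → ℂ) (i : Fin k) :
    S.Holo (fun q => q.1 (ι i) - a i) :=
  Holo.fst (S := S) (f := fun z => z (ι i) - a i) (by fun_prop)

theorem CD_logNa {a : Fin k → ℂ} {ε : ℝ} (hε : 0 < ε) :
    S.CD 2 (fun q => ((Real.log (Na ι a ε q.1) : ℝ) : ℂ)) :=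
  CD.log_normSq_sum (S := S) (F := fun (i : Fin k) q => q.1 (ι i) - a i) (fun i => holo_coord a i) 2 hε

theorem N1_eq (z : Fin n → ℂ) : N1 ι z = Na ι 0 1 z := by
  simp [N1, Na]

theorem CD_logN1 : S.CD 2 (fun q => ((Real.log (N1 ι q.1) : ℝ) : ℂ)) := by
  simp only [N1_eq]
  exact CD_logNa one_pos

theorem CD_lin {A B : (Fin n → ℂ) × ℕ → ℝ} (hA : S.CD 2 (fun q => (A q : ℂ)))
    (hB : S.CD 2 (fun q => (B q : ℂ))) (a b : ℝ) :
    S.CD 2 (fun q => ((a * A q + b * B q : ℝ) : ℂ)) := by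
  have := ((CD.const (S := S) (a : ℂ)).mul hA).add ((CD.const (S := S) (b : ℂ)).mul hB)
  refine this.congr fun q _ => ?_
  push_cast
  ring

theorem CD_wgt (hφ : S.CD 2 (fun q => (φ q : ℂ))) (l : ℕ) (a : Fin k → ℂ) (m : ℕ) :
    S.CD 2 (fun q => (wgt ι φ l a m q : ℂ)) := by
  unfold wgt
  exact CD_lin hφ (CD_lin (CD_logNa (by positivity)) CD_logN1 _ _) _ _

theorem levi_logNa {a : Fin k → ℂ} {ε : ℝ} (hε : 0 < ε) {q : (Fin n → ℂ) × ℕ} (hq : q ∈ S.M)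
    (β : Fin n → ℂ) :
    ε * (∑ i, ‖β (ι i)‖ ^ 2) / (Na ι a ε q.1) ^ 2 ≤
      S.levi (fun q => Real.log (Na ι a ε q.1)) β q := by
  have h := levi_log_ge (S := S) (F := fun (i : Fin k) q => q.1 (ι i) - a i)
    (fun i => holo_coord a i) hε hq β
  have h1 : ∀ i : Fin k, ∑ l, S.D l (fun q => q.1 (ι i) - a i) q * β l = β (ι i) := by
    intro i
    have h2 : ∀ l, S.D l (fun q => q.1 (ι i) - a i) q = if l = ι i then 1 else 0 := by
      intro l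
      rw [D_fst (S := S) (f := fun z => z (ι i) - a i)]
      have h3 : DifferentiableAt ℂ (fun z : Fin n → ℂ => z (ι i) - a i) q.1 := by fun_prop
      rw [dz_holo h3]
      have h4 : HasFDerivAt (fun z : Fin n → ℂ => z (ι i) - a i)
          (ContinuousLinearMap.proj (R := ℂ) (φ := fun _ : Fin n => ℂ) (ι i)) q.1 :=
        (ContinuousLinearMap.proj (R := ℂ) (φ := fun _ : Fin n => ℂ) (ι i)).hasFDerivAt.sub_const _
      rw [h4.fderiv, ContinuousLinearMap.proj_apply]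
      by_cases h5 : l = ι i
      · rw [if_pos h5, h5, Pi.single_eq_same]
      · rw [if_neg h5, Pi.single_eq_of_ne (Ne.symm h5)]
    simp [h2]
  simp only [h1] at h
  exact h

theorem levi_wgt (hφ : S.CD 2 (fun q => (φ q : ℂ)))
    (hφl : ∀ q ∈ S.M, ∀ β : Fin n → ℂ, 0 ≤ S.levi φ β q) (l : ℕ) (a : Fin k → ℂ) (m : ℕ)
    {q : (Fin n → ℂ) × ℕ} (hq : q ∈ S.M) (β : Fin n → ℂ) :
    (∑ i, ‖β (ι i)‖ ^ 2) / (N1 ι q.1) ^ 2 ≤ S.levi (wgt ι φ l a m) β q := by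
  have h0 : (0 : ℝ) < 1 / ((m : ℝ) + 1) := by positivity
  have e1 := levi_lin (S := S) (Φ := φ) (Ψ := fun q => (k : ℝ) *
    Real.log (Na ι a (1 / (m + 1)) q.1) + 1 * Real.log (N1 ι q.1)) hφ
    (CD_lin (CD_logNa h0) CD_logN1 _ _) (l : ℝ) 1 hq β
  have e2 := levi_lin (S := S) (Φ := fun q => Real.log (Na ι a (1 / (m + 1)) q.1))
    (Ψ := fun q => Real.log (N1 ι q.1)) (CD_logNa h0) CD_logN1 (k : ℝ) 1 hq β
  have e3 : S.levi (wgt ι φ l a m) β q = (l : ℝ) * S.levi φ β q + 1 * ((k : ℝ) *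
      S.levi (fun q => Real.log (Na ι a (1 / (m + 1)) q.1)) β q +
      1 * S.levi (fun q => Real.log (N1 ι q.1)) β q) := by
    rw [← e2, ← e1]
    rfl
  rw [e3]
  have h1 : 0 ≤ S.levi φ β q := hφl q hq β
  have h2 : 0 ≤ S.levi (fun q => Real.log (Na ι a (1 / (m + 1)) q.1)) β q := by
    refine le_trans ?_ (levi_logNa h0 hq β)
    have := Na_pos (ι := ι) (a := a) h0 q.1
    positivity
  have h3 : (∑ i, ‖β (ι i)‖ ^ 2) / (N1 ι q.1) ^ 2 ≤
      S.levi (fun q => Real.log (N1 ι q.1)) β q := by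
    have h4 := levi_logNa (S := S) (ι := ι) (a := 0) one_pos hq β
    simp only [← N1_eq, one_mul] at h4
    exact h4
  have h5 : 0 ≤ (l : ℝ) * S.levi φ β q := by positivity
  have h6 : 0 ≤ (k : ℝ) * S.levi (fun q => Real.log (Na ι a (1 / (m + 1)) q.1)) β q := by
    positivity
  linarith

/-- The cut off power of `s`. -/
noncomputable def cutS (Φ : (Fin n → ℂ) × ℕ → (Fin k → ℂ) × ℕ) (s : (Fin n → ℂ) × ℕ → ℂ)
    (W : Set (Fin k → ℂ)) (σ : (Fin k → ℂ) → ℕ) {r : ℝ} (hr : 0 < r) (a : Fin k → ℂ) (j : ℕ)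
    (q : (Fin n → ℂ) × ℕ) : ℂ := sheetFun W σ (bm hr a) (Φ q) * s q ^ j

theorem Holo.pow' {X : (Fin n → ℂ) × ℕ → ℂ} (hX : S.Holo X) (j : ℕ) :
    S.Holo (fun q => X q ^ j) := fun W s hs => (hX W s hs).pow j

/-- The size of the gradient of the cutoff function. -/
noncomputable def grd (W : Set (Fin k → ℂ)) (σ : (Fin k → ℂ) → ℕ) {r : ℝ} (hr : 0 < r)
    (a : Fin k → ℂ) (y : (Fin k → ℂ) × ℕ) : ℝ := ∑ i, ‖sheetFun W σ (dzb i (bm hr a)) y‖ ^ 2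

/-- A lintegral over one sheet is at most the lintegral over the total space. -/
theorem section_le {Ψ : (Fin n → ℂ) × ℕ → ℝ≥0∞} (hΨ : AEMeasurable Ψ S.μ)
    {W₀ : Set (Fin n → ℂ)} {s₀ : (Fin n → ℂ) → ℕ} (hs : S.IsSection W₀ s₀)
    {B : Set (Fin n → ℂ)} (hB : MeasurableSet B) (hBW : B ⊆ W₀) :
    ∫⁻ z in B, Ψ (z, s₀ z) ≤ ∫⁻ q, Ψ q ∂S.μ := by
  rw [lintegral_μ' hΨ]
  calc ∫⁻ z in B, Ψ (z, s₀ z) ≤ ∫⁻ z in B, ∑ w ∈ S.fib z, Ψ (z, w) := by
        refine setLIntegral_mono' hB fun z hz => ?_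
        exact Finset.single_le_sum (f := fun w => Ψ (z, w)) (fun _ _ => zero_le)
          (hs.mem z (hBW hz))
    _ ≤ ∫⁻ z in S.V, ∑ w ∈ S.fib z, Ψ (z, w) :=
        lintegral_mono_set (hBW.trans hs.subset)

theorem norm_sq_le_sum {k : ℕ} (x : Fin k → ℂ) : ‖x‖ ^ 2 ≤ ∑ i, ‖x i‖ ^ 2 := by
  have h1 : ‖x‖ ≤ Real.sqrt (∑ i, ‖x i‖ ^ 2) := by
    refine (pi_norm_le_iff_of_nonneg (Real.sqrt_nonneg _)).2 fun i => ?_
    refine Real.le_sqrt_of_sq_le ?_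
    exact Finset.single_le_sum (f := fun i => ‖x i‖ ^ 2) (fun _ _ => by positivity)
      (Finset.mem_univ i)
  calc ‖x‖ ^ 2 ≤ Real.sqrt (∑ i, ‖x i‖ ^ 2) ^ 2 := by gcongr
    _ = ∑ i, ‖x i‖ ^ 2 := Real.sq_sqrt (by positivity)

theorem N1_le {z : Fin n → ℂ} {R : ℝ} (hR : ‖pr ι z‖ ≤ R) : N1 ι z ≤ 1 + k * R ^ 2 := by
  unfold N1
  have h0 : 0 ≤ R := (norm_nonneg _).trans hR
  have : ∑ i, ‖z (ι i)‖ ^ 2 ≤ ∑ i : Fin k, R ^ 2 := by
    refine Finset.sum_le_sum fun i _ => ?_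
    have h1 : ‖z (ι i)‖ ≤ R := (norm_le_pi_norm (pr ι z) i).trans hR
    gcongr
  simp only [Finset.sum_const, Finset.card_univ, Fintype.card_fin, nsmul_eq_mul] at this
  linarith

theorem Na_le {z : Fin n → ℂ} {a : Fin k → ℂ} {R : ℝ} (hR : ‖a‖ ≤ R) :
    Na ι a 1 z ≤ (2 + 2 * k * R ^ 2) * N1 ι z := by
  have h0 : 0 ≤ R := (norm_nonneg _).trans hR
  unfold Na N1
  have h1 : ∑ i, ‖z (ι i) - a i‖ ^ 2 ≤ 2 * ∑ i, ‖z (ι i)‖ ^ 2 + 2 * (k * R ^ 2) := by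
    calc ∑ i, ‖z (ι i) - a i‖ ^ 2 ≤ ∑ i : Fin k, (2 * ‖z (ι i)‖ ^ 2 + 2 * R ^ 2) := by
          refine Finset.sum_le_sum fun i _ => ?_
          have h2 := norm_sub_le (z (ι i)) (a i)
          have h3 : ‖a i‖ ≤ R := (norm_le_pi_norm a i).trans hR
          have h4 : ‖z (ι i) - a i‖ ≤ ‖z (ι i)‖ + R := by linarith
          calc ‖z (ι i) - a i‖ ^ 2 ≤ (‖z (ι i)‖ + R) ^ 2 := by gcongr
            _ ≤ _ := by nlinarith [sq_nonneg (‖z (ι i)‖ - R)]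
      _ = _ := by
          rw [Finset.sum_add_distrib, ← Finset.mul_sum]
          simp
          ring
  have h5 : 0 ≤ ∑ i, ‖z (ι i)‖ ^ 2 := by positivity
  have h6 : 0 ≤ (k : ℝ) * R ^ 2 := by positivity
  nlinarith [mul_nonneg h5 h6]

theorem aesm_s (D : Data S T ι Φ p φ s) (j : ℕ) : AEStronglyMeasurable (fun q => s q ^ j) S.μ :=
  aestronglyMeasurable_of_CD ((Holo.pow' D.s_holo j).CD 0)

theorem aemeas_φ (hφ : S.CD 2 (fun q => (φ q : ℂ))) : AEMeasurable φ S.μ := by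
  have h1 := (aestronglyMeasurable_of_CD (hφ.mono (Nat.zero_le 2))).aemeasurable
  have h2 := Complex.measurable_re.comp_aemeasurable h1
  refine h2.congr (Eventually.of_forall fun q => ?_)
  simp

theorem extend (D : Data S T ι Φ p φ s) (hH : HoloSing S p) (hk : 0 < k) {r R : ℝ} (hr : 0 < r) :
    ∃ C₀ : ℝ, 0 < C₀ ∧ ∀ (a : Fin k → ℂ) (_ : ‖a‖ ≤ R) (W : Set (Fin k → ℂ))
      (σ : (Fin k → ℂ) → ℕ) (_ : T.IsSection W σ) (_ : closedBall a r ⊆ W) (b : ℕ) (Q I : ℝ)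
      (_ : 0 < Q) (_ : 0 < I) (_ : ∀ q ∈ S.M, (Φ q).1 ∈ closedBall a r → (Φ q).2 = σ (Φ q).1 →
        ‖s q‖ ^ 2 * Real.exp (-φ q) ^ b ≤ Q)
      (_ : ∫⁻ q, ENNReal.ofReal (Real.exp (-φ q)) ∂S.μ ≤ ENNReal.ofReal I) (j : ℕ),
      ∃ F : (Fin n → ℂ) × ℕ → ℂ, S.Holo F ∧
        (∀ q ∈ S.M, Φ q = (a, σ a) → F q = s q ^ j) ∧
        ∫⁻ q, ENNReal.ofReal (‖F q‖ ^ 2 * (Real.exp (-φ q) ^ (j * b + 1) *
          (N1 ι q.1 ^ (k + 1))⁻¹)) ∂S.μ ≤ ENNReal.ofReal (C₀ * Q ^ j * I) := by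
  obtain ⟨Cχ, hCχ0, hCχ⟩ := exists_bm_bound (k := k) hr
  set A₀ : ℝ := Cχ * (1 + k * (|R| + r) ^ 2) * (((r / 3) ^ 2) ^ k)⁻¹ with hA₀
  set CR : ℝ := (2 + 2 * k * |R| ^ 2) ^ k with hCR
  have hA₀0 : 0 ≤ A₀ := by positivity
  have hCR0 : 0 ≤ CR := by positivity
  refine ⟨4 * CR * A₀ + 2, by positivity, ?_⟩
  intro a ha W σ hσ hbW b Q I hQ0 hI0 hQ hI j
  have ha' : ‖a‖ ≤ |R| := ha.trans (le_abs_self R)
  have hF := D.fib
  have hK : IsClosed (closedBall a r) := isClosed_closedBall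
  have hKc : IsCompact (closedBall a r) := isCompact_closedBall a r
  have hg : ∀ z, z ∉ closedBall a r → bm hr a z = 0 := by
    intro z hz
    rw [mem_closedBall, dist_eq_norm, not_le] at hz
    exact bm_zero hr hz.le
  have hX2 : T.CD 2 (sheetFun W σ (bm hr a)) := sheetFun_CD hσ hK hbW hg (bm_contDiff hr a 2)
  have hX1 : T.CD 1 (sheetFun W σ (bm hr a)) := hX2.mono (by norm_num)
  have hsj : S.Holo (fun q => s q ^ j) := Holo.pow' D.s_holo j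
  have hst : S.CD 2 (cutS Φ s W σ hr a j) := (hF.CD hX2).mul (hsj.CD 2)
  -- the gradient of the cut off function
  have hsum : ∀ q ∈ S.M, ∀ β : Fin n → ℂ, ∑ l, S.Db l (cutS Φ s W σ hr a j) q * conj (β l) =
      (∑ i, sheetFun W σ (dzb i (bm hr a)) (Φ q) * conj (β (ι i))) * s q ^ j := by
    intro q hq β
    have h1 : ∀ l, S.Db l (cutS Φ s W σ hr a j) q =
        S.Db l (fun q => sheetFun W σ (bm hr a) (Φ q)) q * s q ^ j := by
      intro l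
      have h2 := Db_mul (j := l) (hF.CD hX1) (hsj.CD 1) hq
      rw [hsj.Db hq, mul_zero, add_zero] at h2
      exact h2
    have h3 : ∑ l, S.Db l (cutS Φ s W σ hr a j) q * conj (β l) =
        (∑ l, S.Db l (fun q => sheetFun W σ (bm hr a) (Φ q)) q * conj (β l)) * s q ^ j := by
      rw [Finset.sum_mul]
      refine Finset.sum_congr rfl fun l _ => ?_
      rw [h1 l]; ring
    rw [h3, hF.sum_Db hX1 hq (fun l => conj (β l))]
    congr 1
    refine Finset.sum_congr rfl fun i _ => ?_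
    rw [sheetFun_Db hσ hK hbW hg (hF.maps q hq)]
  have hsq : ∀ q ∈ S.M, ∀ β : Fin n → ℂ,
      ‖∑ l, S.Db l (cutS Φ s W σ hr a j) q * conj (β l)‖ ^ 2 ≤
        grd W σ hr a (Φ q) * (‖s q‖ ^ 2) ^ j * ∑ i, ‖β (ι i)‖ ^ 2 := by
    intro q hq β
    rw [hsum q hq β, norm_mul, mul_pow, norm_pow, ← pow_mul, mul_comm j 2, pow_mul]
    have h1 : ‖∑ i, sheetFun W σ (dzb i (bm hr a)) (Φ q) * conj (β (ι i))‖ ^ 2 ≤
        grd W σ hr a (Φ q) * ∑ i, ‖β (ι i)‖ ^ 2 := by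
      have h2 : ‖∑ i, sheetFun W σ (dzb i (bm hr a)) (Φ q) * conj (β (ι i))‖ ≤
          ∑ i, ‖sheetFun W σ (dzb i (bm hr a)) (Φ q)‖ * ‖β (ι i)‖ := by
        refine (norm_sum_le _ _).trans (le_of_eq ?_)
        refine Finset.sum_congr rfl fun i _ => ?_
        rw [norm_mul, RCLike.norm_conj]
      calc _ ≤ (∑ i, ‖sheetFun W σ (dzb i (bm hr a)) (Φ q)‖ * ‖β (ι i)‖) ^ 2 := by gcongr
        _ ≤ _ := Finset.sum_mul_sq_le_sq_mul_sq _ _ _
    calc _ ≤ (grd W σ hr a (Φ q) * ∑ i, ‖β (ι i)‖ ^ 2) * (‖s q‖ ^ 2) ^ j := by gcongr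
      _ = _ := by ring
  have hgrd0 : ∀ y, 0 ≤ grd W σ hr a y := fun y => by unfold grd; positivity
  have hgrdC : ∀ y, grd W σ hr a y ≤ Cχ := by
    intro y
    unfold grd
    by_cases h : y.1 ∈ W ∧ y.2 = σ y.1
    · simp only [sheetFun_of h]
      exact hCχ a y.1
    · simp only [sheetFun_not h, norm_zero]
      simpa using hCχ0
  -- the support of the gradient
  have hgrds : ∀ y, grd W σ hr a y ≠ 0 → y.2 = σ y.1 ∧ r / 3 ≤ ‖y.1 - a‖ ∧ ‖y.1 - a‖ ≤ r := by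
    intro y hy
    by_cases h : y.1 ∈ W ∧ y.2 = σ y.1
    · refine ⟨h.2, ?_⟩
      by_contra hcon
      rw [not_and_or, not_le, not_le] at hcon
      apply hy
      unfold grd
      refine Finset.sum_eq_zero fun i _ => ?_
      rw [sheetFun_of h, dzb_bm_zero hr i hcon]
      simp
    · exfalso
      apply hy
      unfold grd
      refine Finset.sum_eq_zero fun i _ => ?_
      rw [sheetFun_not h]
      simp
  obtain ⟨cs, rs, hcs⟩ := D.s_growth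
  obtain ⟨cφ, rφ, hcφ⟩ := D.φ_growth
  -- polynomial growth of the gradient
  have hDb : ∃ (c : ℝ) (r : ℕ), ∀ q ∈ S.M, ∀ l, ‖S.Db l (cutS Φ s W σ hr a j) q‖ ≤
      c * (1 + p q.1) ^ r := by
    refine ⟨(1 + Cχ * k) * cs ^ j, rs * j, fun q hq l => ?_⟩
    have h1 := hsq q hq (Pi.single l 1)
    have h2 : ∑ l', S.Db l' (cutS Φ s W σ hr a j) q * conj ((Pi.single l 1 : Fin n → ℂ) l') =
        S.Db l (cutS Φ s W σ hr a j) q := by
      rw [Finset.sum_eq_single l]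
      · simp
      · intro l' _ hl'
        rw [Pi.single_eq_of_ne hl']
        simp
      · intro h; exact absurd (Finset.mem_univ l) h
    rw [h2] at h1
    have h3 : ∑ i : Fin k, ‖(Pi.single l 1 : Fin n → ℂ) (ι i)‖ ^ 2 ≤ k := by
      calc _ ≤ ∑ i : Fin k, (1 : ℝ) := by
            refine Finset.sum_le_sum fun i _ => ?_
            by_cases h : ι i = l
            · rw [h, Pi.single_eq_same]; simp
            · rw [Pi.single_eq_of_ne h]; simp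
        _ = k := by simp
    have h4 : ‖S.Db l (cutS Φ s W σ hr a j) q‖ ^ 2 ≤ ((1 + Cχ * k) * ‖s q‖ ^ j) ^ 2 := by
      calc _ ≤ Cχ * (‖s q‖ ^ 2) ^ j * k := by
            refine h1.trans ?_
            gcongr
            exact hgrdC _
        _ = (Cχ * k) * (‖s q‖ ^ j) ^ 2 := by ring
        _ ≤ (1 + Cχ * k) ^ 2 * (‖s q‖ ^ j) ^ 2 := by
            gcongr
            nlinarith [show 0 ≤ Cχ * k by positivity]
        _ = _ := by ring
    have h5 : ‖S.Db l (cutS Φ s W σ hr a j) q‖ ≤ (1 + Cχ * k) * ‖s q‖ ^ j :=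
      (sq_le_sq₀ (norm_nonneg _) (by positivity)).1 h4
    refine h5.trans ?_
    rw [mul_assoc]
    gcongr
    calc ‖s q‖ ^ j ≤ (cs * (1 + p q.1) ^ rs) ^ j := pow_le_pow_left₀ (norm_nonneg _) (hcs q hq) j
      _ = _ := by rw [mul_pow, pow_mul]
  have hgrow : ∀ m, ∃ (c : ℝ) (r : ℕ), ∀ q ∈ S.M,
      Real.exp (-wgt ι φ (j * b + 1) a m q) ≤ c * (1 + p q.1) ^ r := by
    intro m
    refine ⟨cφ ^ (j * b + 1) * ((m : ℝ) + 1) ^ k, rφ * (j * b + 1), fun q hq => ?_⟩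
    rw [exp_wgt]
    have h0 : (0 : ℝ) < 1 / ((m : ℝ) + 1) := by positivity
    have h1 : 0 < Na ι a (1 / ((m : ℝ) + 1)) q.1 := Na_pos h0 _
    have h2 : (Na ι a (1 / ((m : ℝ) + 1)) q.1 ^ k)⁻¹ ≤ ((m : ℝ) + 1) ^ k := by
      rw [← inv_pow]
      refine pow_le_pow_left₀ (by positivity) ?_ k
      rw [inv_le_comm₀ h1 (by positivity)]
      unfold Na
      have : 0 ≤ ∑ i, ‖q.1 (ι i) - a i‖ ^ 2 := by positivity
      rw [← one_div]
      linarith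
    have h3 : (N1 ι q.1)⁻¹ ≤ 1 := inv_le_one_of_one_le₀ (one_le_N1 _)
    have h4 : Real.exp (-φ q) ^ (j * b + 1) ≤ cφ ^ (j * b + 1) *
        (1 + p q.1) ^ (rφ * (j * b + 1)) := by
      calc _ ≤ (cφ * (1 + p q.1) ^ rφ) ^ (j * b + 1) :=
            pow_le_pow_left₀ (Real.exp_pos _).le (hcφ q hq) _
        _ = _ := by rw [mul_pow, pow_mul]
    have h5 : 0 ≤ cφ ^ (j * b + 1) * (1 + p q.1) ^ (rφ * (j * b + 1)) :=
      le_trans (by positivity) h4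
    have h6 : 0 < N1 ι q.1 := N1_pos _
    calc _ ≤ cφ ^ (j * b + 1) * (1 + p q.1) ^ (rφ * (j * b + 1)) * ((m : ℝ) + 1) ^ k * 1 := by
          gcongr
      _ = _ := by ring
  -- the estimate of the right hand side
  set aq : (Fin n → ℂ) × ℕ → ℝ := fun q => grd W σ hr a (Φ q) * (‖s q‖ ^ 2) ^ j * N1 ι q.1 ^ 2
    with haq
  have haq0 : ∀ q, 0 ≤ aq q := fun q => by
    have := hgrd0 (Φ q)
    have := N1_pos (ι := ι) q.1
    simp only [haq]
    positivity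
  have haqm : AEMeasurable aq S.μ := by
    have h1 : ∀ i, AEMeasurable (fun q => ‖sheetFun W σ (dzb i (bm hr a)) (Φ q)‖ ^ 2) S.μ := by
      intro i
      have h2 : T.CD 0 (sheetFun W σ (dzb i (bm hr a))) := by
        refine sheetFun_CD hσ hK hbW ?_ ?_
        · intro z hz
          rw [mem_closedBall, dist_eq_norm, not_le] at hz
          exact dzb_bm_zero hr i (Or.inr hz)
        · have := contDiffOn_dzb (j := i) (m := 0) isOpen_univ (f := bm hr a)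
            ((bm_contDiff hr a 1).contDiffOn)
          exact_mod_cast contDiffOn_univ.1 this
      exact ((aestronglyMeasurable_of_CD (hF.CD h2)).norm.pow 2).aemeasurable
    have h3 : AEMeasurable (fun q => (‖s q‖ ^ 2) ^ j) S.μ := by
      have := ((aestronglyMeasurable_of_CD (D.s_holo.CD 0)).norm.pow 2).pow j
      exact this.aemeasurable
    have h4 : AEMeasurable (fun q : (Fin n → ℂ) × ℕ => N1 ι q.1 ^ 2) S.μ := by
      have : Continuous fun q : (Fin n → ℂ) × ℕ => N1 ι q.1 ^ 2 := by unfold N1; fun_prop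
      exact this.measurable.aemeasurable
    have h5 : AEMeasurable (fun q => grd W σ hr a (Φ q)) S.μ := by
      unfold grd
      exact Finset.aemeasurable_fun_sum _ fun i _ => h1 i
    exact (h5.mul h3).mul h4
  have hab : ∀ m : ℕ, ∀ q ∈ S.M, ∀ β : Fin n → ℂ,
      ‖∑ l, S.Db l (cutS Φ s W σ hr a j) q * conj (β l)‖ ^ 2 ≤
        aq q * S.levi (wgt ι φ (j * b + 1) a m) β q := by
    intro m q hq β
    refine (hsq q hq β).trans ?_
    have h1 := levi_wgt (ι := ι) D.φ_CD D.φ_levi (j * b + 1) a m hq β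
    have h2 : 0 < N1 ι q.1 := N1_pos _
    calc grd W σ hr a (Φ q) * (‖s q‖ ^ 2) ^ j * ∑ i, ‖β (ι i)‖ ^ 2
        = aq q * ((∑ i, ‖β (ι i)‖ ^ 2) / N1 ι q.1 ^ 2) := by
          simp only [haq]
          field_simp
      _ ≤ _ := mul_le_mul_of_nonneg_left h1 (haq0 q)
  have hpt : ∀ m : ℕ, ∀ q ∈ S.M, aq q * Real.exp (-wgt ι φ (j * b + 1) a m q) ≤
      A₀ * Q ^ j * Real.exp (-φ q) := by
    intro m q hq
    by_cases h0 : grd W σ hr a (Φ q) = 0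
    · simp only [haq, h0, zero_mul]
      positivity
    · obtain ⟨h1, h2, h3⟩ := hgrds _ h0
      have h4 : (Φ q).1 ∈ closedBall a r := by
        rw [mem_closedBall, dist_eq_norm]; exact h3
      have h5 := hQ q hq h4 h1
      have h6 : (Φ q).1 = pr ι q.1 := hF.fst q hq
      rw [exp_wgt]
      have hε : (0 : ℝ) < 1 / ((m : ℝ) + 1) := by positivity
      have h7 : 0 < Na ι a (1 / ((m : ℝ) + 1)) q.1 := Na_pos hε _
      have h8 : (r / 3) ^ 2 ≤ Na ι a (1 / ((m : ℝ) + 1)) q.1 := by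
        have h9 : ‖pr ι q.1 - a‖ ^ 2 ≤ ∑ i, ‖q.1 (ι i) - a i‖ ^ 2 := norm_sq_le_sum _
        have h10 : (r / 3) ^ 2 ≤ ‖pr ι q.1 - a‖ ^ 2 := by
          rw [h6] at h2; gcongr
        unfold Na
        linarith
      have h11 : (Na ι a (1 / ((m : ℝ) + 1)) q.1 ^ k)⁻¹ ≤ (((r / 3) ^ 2) ^ k)⁻¹ := by
        gcongr
      have h12 : N1 ι q.1 ≤ 1 + k * (|R| + r) ^ 2 := by
        refine N1_le ?_
        rw [← h6]
        calc ‖(Φ q).1‖ = ‖a + ((Φ q).1 - a)‖ := by congr 1; abel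
          _ ≤ ‖a‖ + ‖(Φ q).1 - a‖ := norm_add_le _ _
          _ ≤ |R| + r := add_le_add ha' h3
      have h13 : 0 < N1 ι q.1 := N1_pos _
      have h14 : (‖s q‖ ^ 2 * Real.exp (-φ q) ^ b) ^ j ≤ Q ^ j :=
        pow_le_pow_left₀ (by positivity) h5 j
      have hE := Real.exp_pos (-φ q)
      have hg0 := hgrd0 (Φ q)
      calc aq q * (Real.exp (-φ q) ^ (j * b + 1) * (Na ι a (1 / ((m : ℝ) + 1)) q.1 ^ k)⁻¹ *
            (N1 ι q.1)⁻¹)
          = grd W σ hr a (Φ q) * (N1 ι q.1 * (N1 ι q.1 * (N1 ι q.1)⁻¹)) *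
            (Na ι a (1 / ((m : ℝ) + 1)) q.1 ^ k)⁻¹ *
            (‖s q‖ ^ 2 * Real.exp (-φ q) ^ b) ^ j * Real.exp (-φ q) := by
            have e1 : Real.exp (-φ q) ^ (j * b + 1) =
                (Real.exp (-φ q) ^ b) ^ j * Real.exp (-φ q) := by
              rw [pow_succ, mul_comm j b, pow_mul]
            rw [e1]
            simp only [haq]
            ring
        _ = grd W σ hr a (Φ q) * N1 ι q.1 * (Na ι a (1 / ((m : ℝ) + 1)) q.1 ^ k)⁻¹ *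
            (‖s q‖ ^ 2 * Real.exp (-φ q) ^ b) ^ j * Real.exp (-φ q) := by
            rw [mul_inv_cancel₀ h13.ne', mul_one]
        _ ≤ Cχ * (1 + k * (|R| + r) ^ 2) * (((r / 3) ^ 2) ^ k)⁻¹ * Q ^ j * Real.exp (-φ q) := by
            gcongr
            exact hgrdC _
        _ = _ := by rw [hA₀]
  have hexpm : AEMeasurable (fun q => ENNReal.ofReal (Real.exp (-φ q))) S.μ :=
    (Real.measurable_exp.comp_aemeasurable (aemeas_φ D.φ_CD).neg).ennreal_ofReal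
  have hA : ∀ m : ℕ, ∫⁻ q, ENNReal.ofReal (aq q * Real.exp (-wgt ι φ (j * b + 1) a m q)) ∂S.μ ≤
      ENNReal.ofReal (A₀ * Q ^ j * I) := by
    intro m
    calc _ ≤ ∫⁻ q, ENNReal.ofReal (A₀ * Q ^ j) * ENNReal.ofReal (Real.exp (-φ q)) ∂S.μ := by
          refine lintegral_mono_ae ?_
          filter_upwards [ae_mem_M (S := S)] with q hq
          rw [← ENNReal.ofReal_mul (by positivity)]
          exact ENNReal.ofReal_le_ofReal (hpt m q hq)
      _ = ENNReal.ofReal (A₀ * Q ^ j) * ∫⁻ q, ENNReal.ofReal (Real.exp (-φ q)) ∂S.μ :=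
          lintegral_const_mul' _ _ ENNReal.ofReal_ne_top
      _ ≤ ENNReal.ofReal (A₀ * Q ^ j) * ENNReal.ofReal I := by gcongr
      _ = _ := by rw [← ENNReal.ofReal_mul (by positivity)]
  obtain ⟨F, hFh, hFe⟩ := hH (fun m => wgt ι φ (j * b + 1) a m)
    (fun m => CD_wgt D.φ_CD _ a m) (fun m q hq => by
      unfold wgt
      have h1 : Real.log (Na ι a (1 / (((m + 1 : ℕ) : ℝ) + 1)) q.1) ≤
          Real.log (Na ι a (1 / ((m : ℝ) + 1)) q.1) := by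
        refine Real.log_le_log (Na_pos (by positivity) _) ?_
        unfold Na
        have : 1 / (((m + 1 : ℕ) : ℝ) + 1) ≤ 1 / ((m : ℝ) + 1) := by
          refine one_div_le_one_div_of_le (by positivity) ?_
          push_cast; linarith
        linarith
      gcongr) hgrow
    (fun m q hq β => le_trans (by
      have := N1_pos (ι := ι) q.1
      positivity) (levi_wgt (ι := ι) D.φ_CD D.φ_levi (j * b + 1) a m hq β))
    (cutS Φ s W σ hr a j) hst hDb (fun _ => aq) (fun _ => haq0) (fun _ => haqm) hab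
    (A₀ * Q ^ j * I) (by positivity) hA
  have hdiffm : ∀ m : ℕ, AEMeasurable (fun q => ENNReal.ofReal
      (‖F q - cutS Φ s W σ hr a j q‖ ^ 2 * Real.exp (-wgt ι φ (j * b + 1) a m q))) S.μ := by
    intro m
    have h1 : AEMeasurable (fun q => ‖F q - cutS Φ s W σ hr a j q‖ ^ 2) S.μ :=
      (((aestronglyMeasurable_of_CD (hFh.CD 0)).sub
        (aestronglyMeasurable_of_CD (hst.mono (Nat.zero_le 2)))).norm.pow 2).aemeasurable
    exact (h1.mul (Real.measurable_exp.comp_aemeasurable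
      (aemeas_φ (CD_wgt D.φ_CD _ a m)).neg)).ennreal_ofReal
  refine ⟨F, hFh, ?_, ?_⟩
  · intro q₀ hq₀ hΦ₀
    by_contra hne
    obtain ⟨s₀, W₀, hs₀, z₀, hz₀, rfl⟩ := exists_section' hq₀
    have ha₀ : pr ι z₀ = a := by rw [← hF.fst _ hq₀, hΦ₀]
    have haW : a ∈ W := hbW (mem_closedBall_self hr.le)
    have hloc := hF.local_eq' hs₀ hz₀ hσ (by rw [ha₀]; exact haW) (by rw [hΦ₀, ha₀])
    have hu : ContinuousAt (fun z => F (z, s₀ z) - s (z, s₀ z) ^ j) z₀ :=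
      ((hFh W₀ s₀ hs₀).continuousOn.sub (hsj W₀ s₀ hs₀).continuousOn).continuousAt
        (hs₀.isOpen.mem_nhds hz₀)
    have hφc : ContinuousAt (fun z => φ (z, s₀ z)) z₀ :=
      (CD.re_section D.φ_CD hs₀).continuousOn.continuousAt (hs₀.isOpen.mem_nhds hz₀)
    set c₁ : ℝ := ‖F (z₀, s₀ z₀) - s (z₀, s₀ z₀) ^ j‖ with hc₁
    have hc₁0 : 0 < c₁ := norm_pos_iff.2 (sub_ne_zero.2 hne)
    have e1 : ∀ᶠ z in 𝓝 z₀, c₁ / 2 < ‖F (z, s₀ z) - s (z, s₀ z) ^ j‖ :=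
      hu.norm.eventually (lt_mem_nhds (by simp only; rw [← hc₁]; linarith))
    have e2 : ∀ᶠ z in 𝓝 z₀, φ (z, s₀ z) < φ (z₀, s₀ z₀) + 1 :=
      hφc.eventually (gt_mem_nhds (by simp))
    have hN1c : Continuous (N1 ι) := by unfold N1; fun_prop
    have e3 : ∀ᶠ z in 𝓝 z₀, N1 ι z < N1 ι z₀ + 1 :=
      hN1c.continuousAt.eventually (gt_mem_nhds (by linarith))
    have e4 : ∀ᶠ z in 𝓝 z₀, ‖pr ι z - a‖ < r / 3 := by
      have hc : Continuous fun z : Fin n → ℂ => ‖pr ι z - a‖ :=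
        (continuous_pr.sub continuous_const).norm
      refine hc.continuousAt.eventually (gt_mem_nhds ?_)
      show ‖pr ι z₀ - a‖ < r / 3
      rw [ha₀, sub_self, norm_zero]
      positivity
    obtain ⟨ε, hε, hball⟩ := Metric.eventually_nhds_iff_ball.1
      (hloc.and (e1.and (e2.and (e3.and e4))))
    set c₂ : ℝ := (c₁ / 2) ^ 2 * (Real.exp (-(φ (z₀, s₀ z₀) + 1)) ^ (j * b + 1) *
      (N1 ι z₀ + 1)⁻¹) with hc₂
    have hN0 : 0 < N1 ι z₀ := N1_pos _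
    have hc₂0 : 0 < c₂ := by positivity
    have hlow : ∀ m : ℕ, ∫⁻ z in ball z₀ ε, ENNReal.ofReal (((sq ι z₀ z + 1 / (m + 1)) ^ k)⁻¹) ≤
        (ENNReal.ofReal c₂)⁻¹ * ENNReal.ofReal (2 * (A₀ * Q ^ j * I)) := by
      intro m
      have h1 := section_le (hdiffm m) hs₀ (B := ball z₀ ε) measurableSet_ball
        (fun z hz => (hball z hz).1.1)
      have h2 := h1.trans (hFe m)
      have h3 : ∫⁻ z in ball z₀ ε, ENNReal.ofReal c₂ *
          ENNReal.ofReal (((sq ι z₀ z + 1 / (m + 1)) ^ k)⁻¹) ≤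
          ENNReal.ofReal (2 * (A₀ * Q ^ j * I)) := by
        refine le_trans (setLIntegral_mono' measurableSet_ball fun z hz => ?_) h2
        obtain ⟨h4, h5, h6, h7, h8⟩ := hball z hz
        have h9 : cutS Φ s W σ hr a j (z, s₀ z) = s (z, s₀ z) ^ j := by
          unfold cutS
          rw [h4.2.2, sheetFun_of (y := (pr ι z, σ (pr ι z))) ⟨h4.2.1, rfl⟩,
            bm_one hr h8.le, one_mul]
        have h10 : Na ι a (1 / ((m : ℝ) + 1)) z = sq ι z₀ z + 1 / ((m : ℝ) + 1) := by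
          unfold Na sq
          rw [← ha₀, add_comm]
          rfl
        rw [← ENNReal.ofReal_mul hc₂0.le]
        refine ENNReal.ofReal_le_ofReal ?_
        rw [exp_wgt, h9]
        simp only [h10]
        have h11 : 0 < sq ι z₀ z + 1 / ((m : ℝ) + 1) := by
          have := sq_nonneg' ι z₀ z
          positivity
        have h12 : 0 < N1 ι z := N1_pos _
        calc c₂ * ((sq ι z₀ z + 1 / ((m : ℝ) + 1)) ^ k)⁻¹
            = (c₁ / 2) ^ 2 * (Real.exp (-(φ (z₀, s₀ z₀) + 1)) ^ (j * b + 1) *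
              ((sq ι z₀ z + 1 / ((m : ℝ) + 1)) ^ k)⁻¹ * (N1 ι z₀ + 1)⁻¹) := by
              rw [hc₂]; ring
          _ ≤ _ := by
              gcongr
      rw [lintegral_const_mul' _ _ ENNReal.ofReal_ne_top] at h3
      have h4 : ENNReal.ofReal c₂ ≠ 0 := by simpa using hc₂0
      calc ∫⁻ z in ball z₀ ε, ENNReal.ofReal (((sq ι z₀ z + 1 / (m + 1)) ^ k)⁻¹)
          = (ENNReal.ofReal c₂)⁻¹ * (ENNReal.ofReal c₂ *
            ∫⁻ z in ball z₀ ε, ENNReal.ofReal (((sq ι z₀ z + 1 / (m + 1)) ^ k)⁻¹)) := by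
            rw [← mul_assoc, ENNReal.inv_mul_cancel h4 ENNReal.ofReal_ne_top, one_mul]
        _ ≤ _ := by gcongr
    refine not_bounded_sq hk ι z₀ hε (ENNReal.mul_ne_top ?_ ENNReal.ofReal_ne_top) hlow
    exact ENNReal.inv_ne_top.2 (by simpa using hc₂0)
  · have hpt2 : ∀ q ∈ S.M, ‖F q‖ ^ 2 * (Real.exp (-φ q) ^ (j * b + 1) *
        (N1 ι q.1 ^ (k + 1))⁻¹) ≤ (2 * CR) * (‖F q - cutS Φ s W σ hr a j q‖ ^ 2 *
          Real.exp (-wgt ι φ (j * b + 1) a 0 q)) + (2 * Q ^ j) * Real.exp (-φ q) := by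
      intro q hq
      have h1 : 0 < N1 ι q.1 := N1_pos _
      have h2 : 0 < Na ι a 1 q.1 := Na_pos one_pos _
      have hE := Real.exp_pos (-φ q)
      have h3 : ‖F q‖ ^ 2 ≤ 2 * ‖F q - cutS Φ s W σ hr a j q‖ ^ 2 +
          2 * ‖cutS Φ s W σ hr a j q‖ ^ 2 := by
        have h4 : ‖F q‖ ≤ ‖F q - cutS Φ s W σ hr a j q‖ + ‖cutS Φ s W σ hr a j q‖ := by
          have := norm_add_le (F q - cutS Φ s W σ hr a j q) (cutS Φ s W σ hr a j q)
          rwa [sub_add_cancel] at this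
        nlinarith [norm_nonneg (F q), norm_nonneg (F q - cutS Φ s W σ hr a j q),
          norm_nonneg (cutS Φ s W σ hr a j q),
          sq_nonneg (‖F q - cutS Φ s W σ hr a j q‖ - ‖cutS Φ s W σ hr a j q‖)]
      have h5 : (N1 ι q.1 ^ (k + 1))⁻¹ ≤ CR * (Na ι a 1 q.1 ^ k)⁻¹ * (N1 ι q.1)⁻¹ := by
        rw [pow_succ, mul_inv]
        gcongr
        rw [inv_le_iff_one_le_mul₀ (by positivity)]
        have h6 : Na ι a 1 q.1 ^ k ≤ CR * N1 ι q.1 ^ k := by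
          rw [hCR, ← mul_pow]
          exact pow_le_pow_left₀ h2.le (Na_le ha') k
        calc (1 : ℝ) = Na ι a 1 q.1 ^ k * (Na ι a 1 q.1 ^ k)⁻¹ :=
              (mul_inv_cancel₀ (by positivity)).symm
          _ ≤ (CR * N1 ι q.1 ^ k) * (Na ι a 1 q.1 ^ k)⁻¹ := by gcongr
          _ = _ := by ring
      have h7 : Real.exp (-wgt ι φ (j * b + 1) a 0 q) =
          Real.exp (-φ q) ^ (j * b + 1) * (Na ι a 1 q.1 ^ k)⁻¹ * (N1 ι q.1)⁻¹ := by
        rw [exp_wgt]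
        norm_num
      have h8 : ‖cutS Φ s W σ hr a j q‖ ^ 2 * (Real.exp (-φ q) ^ (j * b + 1) *
          (N1 ι q.1 ^ (k + 1))⁻¹) ≤ Q ^ j * Real.exp (-φ q) := by
        by_cases h9 : sheetFun W σ (bm hr a) (Φ q) = 0
        · unfold cutS
          rw [h9, zero_mul, norm_zero]
          have : 0 < Q ^ j * Real.exp (-φ q) := by positivity
          simpa using this.le
        · have h10 : (Φ q).1 ∈ W ∧ (Φ q).2 = σ (Φ q).1 := by
            by_contra hcon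
            exact h9 (sheetFun_not hcon)
          have h11 : (Φ q).1 ∈ closedBall a r := by
            by_contra hcon
            exact h9 (by rw [sheetFun_of h10]; exact hg _ hcon)
          have h12 := hQ q hq h11 h10.2
          have h13 : ‖cutS Φ s W σ hr a j q‖ ^ 2 ≤ (‖s q‖ ^ 2) ^ j := by
            unfold cutS
            rw [norm_mul, mul_pow, norm_pow, ← pow_mul, ← pow_mul, mul_comm j 2]
            have h14 : ‖sheetFun W σ (bm hr a) (Φ q)‖ ≤ 1 := by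
              rw [sheetFun_of h10]
              exact bm_norm_le hr _ _
            calc _ ≤ (1 : ℝ) ^ 2 * ‖s q‖ ^ (2 * j) := by gcongr
              _ = _ := by rw [one_pow, one_mul]
          have h15 : (N1 ι q.1 ^ (k + 1))⁻¹ ≤ 1 :=
            inv_le_one_of_one_le₀ (one_le_pow₀ (one_le_N1 _))
          calc _ ≤ (‖s q‖ ^ 2) ^ j * (Real.exp (-φ q) ^ (j * b + 1) * 1) := by gcongr
            _ = (‖s q‖ ^ 2 * Real.exp (-φ q) ^ b) ^ j * Real.exp (-φ q) := by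
                have e1 : Real.exp (-φ q) ^ (j * b + 1) =
                    (Real.exp (-φ q) ^ b) ^ j * Real.exp (-φ q) := by
                  rw [pow_succ, mul_comm j b, pow_mul]
                rw [e1]
                ring
            _ ≤ _ := by
                gcongr
      rw [h7]
      calc _ ≤ (2 * ‖F q - cutS Φ s W σ hr a j q‖ ^ 2 + 2 * ‖cutS Φ s W σ hr a j q‖ ^ 2) *
            (Real.exp (-φ q) ^ (j * b + 1) * (N1 ι q.1 ^ (k + 1))⁻¹) := by gcongr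
        _ = 2 * ‖F q - cutS Φ s W σ hr a j q‖ ^ 2 * (Real.exp (-φ q) ^ (j * b + 1) *
              (N1 ι q.1 ^ (k + 1))⁻¹) + 2 * (‖cutS Φ s W σ hr a j q‖ ^ 2 *
              (Real.exp (-φ q) ^ (j * b + 1) * (N1 ι q.1 ^ (k + 1))⁻¹)) := by ring
        _ ≤ 2 * ‖F q - cutS Φ s W σ hr a j q‖ ^ 2 * (Real.exp (-φ q) ^ (j * b + 1) *
              (CR * (Na ι a 1 q.1 ^ k)⁻¹ * (N1 ι q.1)⁻¹)) + 2 * (Q ^ j * Real.exp (-φ q)) := by
            gcongr
        _ = _ := by ring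
    calc _ ≤ ∫⁻ q, (ENNReal.ofReal (2 * CR) * ENNReal.ofReal
            (‖F q - cutS Φ s W σ hr a j q‖ ^ 2 * Real.exp (-wgt ι φ (j * b + 1) a 0 q)) +
            ENNReal.ofReal (2 * Q ^ j) * ENNReal.ofReal (Real.exp (-φ q))) ∂S.μ := by
          refine lintegral_mono_ae ?_
          filter_upwards [ae_mem_M (S := S)] with q hq
          rw [← ENNReal.ofReal_mul (by positivity), ← ENNReal.ofReal_mul (by positivity),
            ← ENNReal.ofReal_add (by positivity) (by positivity)]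
          exact ENNReal.ofReal_le_ofReal (hpt2 q hq)
      _ = ENNReal.ofReal (2 * CR) * ∫⁻ q, ENNReal.ofReal
            (‖F q - cutS Φ s W σ hr a j q‖ ^ 2 * Real.exp (-wgt ι φ (j * b + 1) a 0 q)) ∂S.μ +
          ENNReal.ofReal (2 * Q ^ j) * ∫⁻ q, ENNReal.ofReal (Real.exp (-φ q)) ∂S.μ := by
          rw [lintegral_add_right' _ (hexpm.const_mul _), lintegral_const_mul' _ _
            ENNReal.ofReal_ne_top, lintegral_const_mul' _ _ ENNReal.ofReal_ne_top]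
      _ ≤ ENNReal.ofReal (2 * CR) * ENNReal.ofReal (2 * (A₀ * Q ^ j * I)) +
          ENNReal.ofReal (2 * Q ^ j) * ENNReal.ofReal I := by
          gcongr
          exact hFe 0
      _ = ENNReal.ofReal ((4 * CR * A₀ + 2) * Q ^ j * I) := by
          rw [← ENNReal.ofReal_mul (by positivity), ← ENNReal.ofReal_mul (by positivity),
            ← ENNReal.ofReal_add (by positivity) (by positivity)]
          congr 1
          ring

end Vale.Agent.P299.H531
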