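import Vale.Agent.P300.H435.L2.LeviLog
import Vale.Agent.P300.H435.L2.Holo

/-! P299, step (5.2) (helper531): fibrations of étale covers `Φ : S.M → T.M` over a coordinate
projection, and the calculus of pulled back functions. -/

set_option linter.all false

open MeasureTheory Filter Topology Metric
open scoped ENNReal NNReal ComplexConjugate

namespace Vale.Agent.P299.H531

open Vale.Agent.P300.L2 Vale.Agent.P300.L2.Sheets

variable {n N k N' : ℕ} {S : Sheets n N} {T : Sheets k N'} {ι : Fin k ↪ Fin n}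
  {Φ : (Fin n → ℂ) × ℕ → (Fin k → ℂ) × ℕ}

/-- The coordinate projection. -/
def pr (ι : Fin k ↪ Fin n) (z : Fin n → ℂ) : Fin k → ℂ := fun i => z (ι i)

@[simp] theorem pr_apply (z : Fin n → ℂ) (i : Fin k) : pr ι z i = z (ι i) := rfl

/-- The coordinate projection as a continuous linear map. -/
noncomputable def prL (𝕜 : Type*) [NontriviallyNormedField 𝕜] [NormedSpace 𝕜 ℂ]
    (ι : Fin k ↪ Fin n) : (Fin n → ℂ) →L[𝕜] (Fin k → ℂ) :=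
  ContinuousLinearMap.pi fun i => ContinuousLinearMap.proj (ι i)

@[simp] theorem prL_apply (𝕜 : Type*) [NontriviallyNormedField 𝕜] [NormedSpace 𝕜 ℂ]
    (z : Fin n → ℂ) : prL 𝕜 ι z = pr ι z := rfl

theorem continuous_pr : Continuous (pr ι) := (prL ℂ ι).continuous

theorem pr_single_self (i : Fin k) (c : ℂ) :
    pr ι (Pi.single (ι i) c) = Pi.single i c := by
  funext l
  by_cases h : l = i
  · subst h; simp
  · rw [pr_apply, Pi.single_eq_of_ne h, Pi.single_eq_of_ne (fun e => h (ι.injective e))]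

theorem pr_single_ne {j : Fin n} (hj : ∀ i, ι i ≠ j) (c : ℂ) :
    pr ι (Pi.single j c) = 0 := by
  funext l
  rw [pr_apply, Pi.single_eq_of_ne (hj l)]
  rfl

theorem norm_pr_le (z : Fin n → ℂ) : ‖pr ι z‖ ≤ ‖z‖ := by
  refine (pi_norm_le_iff_of_nonneg (norm_nonneg z)).2 fun i => ?_
  exact norm_le_pi_norm z (ι i)

theorem fderiv_comp_pr {f : (Fin k → ℂ) → ℂ} {z : Fin n → ℂ} (hf : DifferentiableAt ℝ f (pr ι z))
    (v : Fin n → ℂ) : fderiv ℝ (fun z => f (pr ι z)) z v = fderiv ℝ f (pr ι z) (pr ι v) := by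
  have h1 : HasFDerivAt (fun z => f (pr ι z)) ((fderiv ℝ f (pr ι z)).comp (prL ℝ ι)) z :=
    hf.hasFDerivAt.comp z (prL ℝ ι).hasFDerivAt
  rw [h1.fderiv]
  rfl

theorem dz_comp_pr {f : (Fin k → ℂ) → ℂ} {z : Fin n → ℂ} (hf : DifferentiableAt ℝ f (pr ι z))
    (i : Fin k) : dz (ι i) (fun z => f (pr ι z)) z = dz i f (pr ι z) := by
  simp only [dz, fderiv_comp_pr hf, pr_single_self]

theorem dzb_comp_pr {f : (Fin k → ℂ) → ℂ} {z : Fin n → ℂ} (hf : DifferentiableAt ℝ f (pr ι z))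
    (i : Fin k) : dzb (ι i) (fun z => f (pr ι z)) z = dzb i f (pr ι z) := by
  simp only [dzb, fderiv_comp_pr hf, pr_single_self]

theorem dz_comp_pr_ne {f : (Fin k → ℂ) → ℂ} {z : Fin n → ℂ} (hf : DifferentiableAt ℝ f (pr ι z))
    {j : Fin n} (hj : ∀ i, ι i ≠ j) : dz j (fun z => f (pr ι z)) z = 0 := by
  simp only [dz, fderiv_comp_pr hf, pr_single_ne hj, map_zero, mul_zero, sub_zero, zero_div]

theorem dzb_comp_pr_ne {f : (Fin k → ℂ) → ℂ} {z : Fin n → ℂ} (hf : DifferentiableAt ℝ f (pr ι z))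
    {j : Fin n} (hj : ∀ i, ι i ≠ j) : dzb j (fun z => f (pr ι z)) z = 0 := by
  simp only [dzb, fderiv_comp_pr hf, pr_single_ne hj, map_zero, mul_zero, add_zero, zero_div]

/-- A fibration of covers: `Φ : S.M → T.M` is surjective, covers the coordinate projection `pr ι`
and is continuous along the sheets. -/
structure Fib (S : Sheets n N) (T : Sheets k N') (ι : Fin k ↪ Fin n)
    (Φ : (Fin n → ℂ) × ℕ → (Fin k → ℂ) × ℕ) : Prop where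
  maps : ∀ q ∈ S.M, Φ q ∈ T.M
  fst : ∀ q ∈ S.M, (Φ q).1 = pr ι q.1
  loc : ∀ W s, S.IsSection W s → ∀ z ∈ W, ∃ (W' : Set (Fin k → ℂ)) (σ : (Fin k → ℂ) → ℕ),
    T.IsSection W' σ ∧ pr ι z ∈ W' ∧ ∀ᶠ ζ in 𝓝 z, (Φ (ζ, s ζ)).2 = σ (pr ι ζ)
  surj : ∀ y ∈ T.M, ∃ q ∈ S.M, Φ q = y

namespace Fib

variable (hF : Fib S T ι Φ)
include hF

/-- Local form of `Φ`. -/
theorem local_eq {W : Set (Fin n → ℂ)} {s : (Fin n → ℂ) → ℕ} (hs : S.IsSection W s)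
    {z : Fin n → ℂ} (hz : z ∈ W) : ∃ (W' : Set (Fin k → ℂ)) (σ : (Fin k → ℂ) → ℕ),
    T.IsSection W' σ ∧ pr ι z ∈ W' ∧ Φ (z, s z) = (pr ι z, σ (pr ι z)) ∧
    ∀ᶠ ζ in 𝓝 z, ζ ∈ W ∧ pr ι ζ ∈ W' ∧ Φ (ζ, s ζ) = (pr ι ζ, σ (pr ι ζ)) := by
  obtain ⟨W', σ, hσ, hz', he⟩ := hF.loc W s hs z hz
  have h1 : ∀ᶠ ζ in 𝓝 z, ζ ∈ W ∧ pr ι ζ ∈ W' ∧ Φ (ζ, s ζ) = (pr ι ζ, σ (pr ι ζ)) := by
    have h2 : ∀ᶠ ζ in 𝓝 z, pr ι ζ ∈ W' :=
      continuous_pr.continuousAt.preimage_mem_nhds (hσ.isOpen.mem_nhds hz')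
    filter_upwards [he, hs.isOpen.mem_nhds hz, h2] with ζ h3 h4 h5
    exact ⟨h4, h5, Prod.ext (hF.fst _ (hs.mem_M h4)) h3⟩
  exact ⟨W', σ, hσ, hz', h1.self_of_nhds.2.2, h1⟩

/-- Local form of `Φ` with a prescribed section of the base. -/
theorem local_eq' {W : Set (Fin n → ℂ)} {s : (Fin n → ℂ) → ℕ} (hs : S.IsSection W s)
    {z : Fin n → ℂ} (hz : z ∈ W) {W' : Set (Fin k → ℂ)} {σ : (Fin k → ℂ) → ℕ}
    (hσ : T.IsSection W' σ) (hz' : pr ι z ∈ W') (he : (Φ (z, s z)).2 = σ (pr ι z)) :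
    ∀ᶠ ζ in 𝓝 z, ζ ∈ W ∧ pr ι ζ ∈ W' ∧ Φ (ζ, s ζ) = (pr ι ζ, σ (pr ι ζ)) := by
  obtain ⟨W'', σ'', hσ'', hz'', h1, h2⟩ := hF.local_eq hs hz
  have h3 : σ'' (pr ι z) = σ (pr ι z) := by
    rw [← he, h1]
  have h4 := hσ''.germ hσ hz'' hz' h3
  have h5 : ∀ᶠ ζ in 𝓝 z, σ'' (pr ι ζ) = σ (pr ι ζ) :=
    continuous_pr.continuousAt.eventually h4
  have h6 : ∀ᶠ ζ in 𝓝 z, pr ι ζ ∈ W' :=
    continuous_pr.continuousAt.preimage_mem_nhds (hσ.isOpen.mem_nhds hz')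
  filter_upwards [h2, h5, h6] with ζ h7 h8 h9
  exact ⟨h7.1, h9, by rw [h7.2.2, h8]⟩

theorem comp_germ (X : (Fin k → ℂ) × ℕ → ℂ) {W : Set (Fin n → ℂ)} {s : (Fin n → ℂ) → ℕ}
    (hs : S.IsSection W s) {z : Fin n → ℂ} (hz : z ∈ W) :
    ∃ (W' : Set (Fin k → ℂ)) (σ : (Fin k → ℂ) → ℕ),
    T.IsSection W' σ ∧ pr ι z ∈ W' ∧ Φ (z, s z) = (pr ι z, σ (pr ι z)) ∧
    (fun ζ => X (Φ (ζ, s ζ))) =ᶠ[𝓝 z] fun ζ => (fun y => X (y, σ y)) (pr ι ζ) := by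
  obtain ⟨W', σ, hσ, hz', h1, h2⟩ := hF.local_eq hs hz
  refine ⟨W', σ, hσ, hz', h1, ?_⟩
  filter_upwards [h2] with ζ h3
  rw [h3.2.2]

theorem CD {m : ℕ} {X : (Fin k → ℂ) × ℕ → ℂ} (hX : T.CD m X) : S.CD m (fun q => X (Φ q)) := by
  intro W s hs z hz
  obtain ⟨W', σ, hσ, hz', h1, h2⟩ := hF.comp_germ X hs hz
  have h3 : ContDiffAt ℝ m (fun y => X (y, σ y)) (pr ι z) :=
    (hX W' σ hσ).contDiffAt (hσ.isOpen.mem_nhds hz')
  have h4 : ContDiffAt ℝ m (fun ζ => (fun y => X (y, σ y)) (pr ι ζ)) z :=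
    h3.comp z (prL ℝ ι).contDiff.contDiffAt
  exact (h4.congr_of_eventuallyEq h2).contDiffWithinAt

theorem Holo {X : (Fin k → ℂ) × ℕ → ℂ} (hX : T.Holo X) : S.Holo (fun q => X (Φ q)) := by
  intro W s hs z hz
  obtain ⟨W', σ, hσ, hz', h1, h2⟩ := hF.comp_germ X hs hz
  have h3 : DifferentiableAt ℂ (fun y => X (y, σ y)) (pr ι z) :=
    (hX W' σ hσ).differentiableAt (hσ.isOpen.mem_nhds hz')
  have h4 : DifferentiableAt ℂ (fun ζ => (fun y => X (y, σ y)) (pr ι ζ)) z :=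
    h3.comp z (prL ℂ ι).differentiableAt
  exact (h4.congr_of_eventuallyEq h2).differentiableWithinAt

theorem Db_comp {X : (Fin k → ℂ) × ℕ → ℂ} (hX : T.CD 1 X) {q : (Fin n → ℂ) × ℕ} (hq : q ∈ S.M)
    (i : Fin k) : S.Db (ι i) (fun q => X (Φ q)) q = T.Db i X (Φ q) := by
  obtain ⟨s, W, hs, z, hz, rfl⟩ := exists_section' hq
  obtain ⟨W', σ, hσ, hz', h1, h2⟩ := hF.comp_germ X hs hz
  rw [Db_apply hs hz, dzb_congr h2, dzb_comp_pr (hX.diffAt hσ hz'), h1, Db_apply hσ hz']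

theorem D_comp {X : (Fin k → ℂ) × ℕ → ℂ} (hX : T.CD 1 X) {q : (Fin n → ℂ) × ℕ} (hq : q ∈ S.M)
    (i : Fin k) : S.D (ι i) (fun q => X (Φ q)) q = T.D i X (Φ q) := by
  obtain ⟨s, W, hs, z, hz, rfl⟩ := exists_section' hq
  obtain ⟨W', σ, hσ, hz', h1, h2⟩ := hF.comp_germ X hs hz
  rw [D_apply hs hz, dz_congr h2, dz_comp_pr (hX.diffAt hσ hz'), h1, D_apply hσ hz']

theorem Db_comp_ne {X : (Fin k → ℂ) × ℕ → ℂ} (hX : T.CD 1 X) {q : (Fin n → ℂ) × ℕ} (hq : q ∈ S.M)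
    {j : Fin n} (hj : ∀ i, ι i ≠ j) : S.Db j (fun q => X (Φ q)) q = 0 := by
  obtain ⟨s, W, hs, z, hz, rfl⟩ := exists_section' hq
  obtain ⟨W', σ, hσ, hz', h1, h2⟩ := hF.comp_germ X hs hz
  rw [Db_apply hs hz, dzb_congr h2, dzb_comp_pr_ne (hX.diffAt hσ hz') hj]

theorem D_comp_ne {X : (Fin k → ℂ) × ℕ → ℂ} (hX : T.CD 1 X) {q : (Fin n → ℂ) × ℕ} (hq : q ∈ S.M)
    {j : Fin n} (hj : ∀ i, ι i ≠ j) : S.D j (fun q => X (Φ q)) q = 0 := by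
  obtain ⟨s, W, hs, z, hz, rfl⟩ := exists_section' hq
  obtain ⟨W', σ, hσ, hz', h1, h2⟩ := hF.comp_germ X hs hz
  rw [D_apply hs hz, dz_congr h2, dz_comp_pr_ne (hX.diffAt hσ hz') hj]

/-- Sums over the coordinates reduce to the coordinates of the base. -/
theorem sum_Db {X : (Fin k → ℂ) × ℕ → ℂ} (hX : T.CD 1 X) {q : (Fin n → ℂ) × ℕ} (hq : q ∈ S.M)
    (b : Fin n → ℂ) :
    ∑ j, S.Db j (fun q => X (Φ q)) q * b j = ∑ i, T.Db i X (Φ q) * b (ι i) := by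
  symm
  refine Fintype.sum_of_injective ι ι.injective _ _ (fun j hj => ?_) (fun i => ?_)
  · rw [hF.Db_comp_ne hX hq (fun i h => hj ⟨i, h⟩), zero_mul]
  · rw [hF.Db_comp hX hq]

theorem levi_comp {u : (Fin k → ℂ) × ℕ → ℝ} (hu : T.CD 2 (fun y => (u y : ℂ)))
    {q : (Fin n → ℂ) × ℕ} (hq : q ∈ S.M) (β : Fin n → ℂ) :
    S.levi (fun q => u (Φ q)) β q = T.levi u (pr ι β) (Φ q) := by
  have hu1 : T.CD 1 (fun y => (u y : ℂ)) := hu.mono (by norm_num)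
  have hDb : ∀ i, T.CD 1 (T.Db i (fun y => (u y : ℂ))) := fun i => CD.Db (m := 1) hu
  have h1 : ∀ j k', S.D j (S.Db k' (fun q => (u (Φ q) : ℂ))) q * β j * conj (β k') =
      S.D j (S.Db k' (fun q => (u (Φ q) : ℂ))) q * β j * conj (β k') := fun _ _ => rfl
  have h2 : ∀ j, ∀ i : Fin k, S.D j (S.Db (ι i) (fun q => (u (Φ q) : ℂ))) q =
      S.D j (fun q => T.Db i (fun y => (u y : ℂ)) (Φ q)) q := fun j i =>
    D_congr (fun q hq => hF.Db_comp hu1 hq i) hq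
  have h3 : ∀ j, ∀ k', (∀ i, ι i ≠ k') → S.D j (S.Db k' (fun q => (u (Φ q) : ℂ))) q = 0 := by
    intro j k' hk'
    rw [D_congr (X := fun _ => (0 : ℂ)) (fun q hq => hF.Db_comp_ne hu1 hq hk') hq]
    exact levi_aux_D_const 0 hq j
  unfold levi
  congr 1
  have h4 : ∀ j, ∑ k', S.D j (S.Db k' (fun q => (u (Φ q) : ℂ))) q * β j * conj (β k') =
      ∑ i : Fin k, S.D j (fun q => T.Db i (fun y => (u y : ℂ)) (Φ q)) q * β j *
        conj (β (ι i)) := by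
    intro j
    symm
    refine Fintype.sum_of_injective ι ι.injective _ _ (fun j' hj' => ?_) (fun i => ?_)
    · rw [h3 j j' (fun i h => hj' ⟨i, h⟩), zero_mul, zero_mul]
    · rw [h2 j i]
  rw [Finset.sum_congr rfl fun j _ => h4 j]
  symm
  refine Fintype.sum_of_injective ι ι.injective _ _ (fun j' hj' => ?_) (fun i => ?_)
  · refine Finset.sum_eq_zero fun i _ => ?_
    rw [hF.D_comp_ne (hDb i) hq (fun i' h => hj' ⟨i', h⟩), zero_mul, zero_mul]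
  · refine Finset.sum_congr rfl fun i' _ => ?_
    rw [hF.D_comp (hDb i') hq i]
    rfl

end Fib

end Vale.Agent.P299.H531
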