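import Mathlib

/-! P299, step (5.2) (helper531): weak limits of uniformly bounded functions along an
ultrafilter. -/

set_option linter.all false

open MeasureTheory Filter Topology Metric Set
open scoped ENNReal NNReal InnerProductSpace

namespace Vale.Agent.P299.H531

variable {X : Type*} [MeasurableSpace X]

/-- Weak limits for finite measures, tested against bounded functions. -/
theorem exists_weak_finite {ν : Measure X} [IsFiniteMeasure ν] (U : Ultrafilter ℕ)
    {w : ℕ → X → ℝ} (hw : ∀ j, AEMeasurable (w j) ν) {C : ℝ} (hC0 : 0 ≤ C)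
    (hC : ∀ j x, |w j x| ≤ C) :
    ∃ w' : X → ℝ, Measurable w' ∧ (∀ᵐ x ∂ν, |w' x| ≤ C) ∧ Integrable w' ν ∧ ∀ f : X → ℝ,
      AEMeasurable f ν → (∃ B : ℝ, ∀ x, |f x| ≤ B) →
      Tendsto (fun j => ∫ x, w j x * f x ∂ν) U (𝓝 (∫ x, w' x * f x ∂ν)) := by
  have hmem : ∀ {f : X → ℝ}, AEMeasurable f ν → (∃ B : ℝ, ∀ x, |f x| ≤ B) → MemLp f 2 ν := by
    rintro f hf ⟨B, hB⟩
    exact MemLp.of_bound hf.aestronglyMeasurable B (Eventually.of_forall fun x => hB x)
  have hwm : ∀ j, MemLp (w j) 2 ν := fun j => hmem (hw j) ⟨C, hC j⟩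
  set W : ℕ → Lp ℝ 2 ν := fun j => (hwm j).toLp (w j) with hW
  obtain ⟨R, hR⟩ : ∃ R : ℝ, ∀ j, ‖W j‖ ≤ R := by
    refine ⟨(measureUnivNNReal ν : ℝ) ^ ((2 : ℝ≥0∞).toReal⁻¹) * C, fun j => ?_⟩
    refine Lp.norm_le_of_ae_bound hC0 ?_
    filter_upwards [(hwm j).coeFn_toLp] with x hx
    rw [hx]; exact hC j x
  -- Banach and Alaoglu
  have hcomp := WeakDual.isCompact_closedBall (𝕜 := ℝ) (E := Lp ℝ 2 ν)
    (0 : StrongDual ℝ (Lp ℝ 2 ν)) R
  set F : ℕ → WeakDual ℝ (Lp ℝ 2 ν) := fun j =>
    StrongDual.toWeakDual (InnerProductSpace.toDual ℝ (Lp ℝ 2 ν) (W j)) with hF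
  have hFm : ∀ j, F j ∈ (WeakDual.toStrongDual ⁻¹' closedBall (0 : StrongDual ℝ (Lp ℝ 2 ν)) R :
      Set (WeakDual ℝ (Lp ℝ 2 ν))) := by
    intro j
    have h1 : WeakDual.toStrongDual (F j) = InnerProductSpace.toDual ℝ (Lp ℝ 2 ν) (W j) := rfl
    rw [mem_preimage, h1, mem_closedBall_zero_iff, LinearIsometryEquiv.norm_map]
    exact hR j
  obtain ⟨ℓ, hℓ, hlim⟩ := hcomp.ultrafilter_le_nhds (U.map F) (by
    rw [le_principal_iff]
    exact Filter.mem_map.2 (Filter.univ_mem' hFm))
  have hlim' : Tendsto F U (𝓝 ℓ) := hlim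
  set V : Lp ℝ 2 ν := (InnerProductSpace.toDual ℝ (Lp ℝ 2 ν)).symm (WeakDual.toStrongDual ℓ)
    with hV
  have hVℓ : ∀ f : Lp ℝ 2 ν, ⟪V, f⟫_ℝ = ℓ f := by
    intro f
    rw [← InnerProductSpace.toDual_apply_apply (𝕜 := ℝ), hV, LinearIsometryEquiv.apply_symm_apply]
    rfl
  have hconv : ∀ f : Lp ℝ 2 ν, Tendsto (fun j => ⟪W j, f⟫_ℝ) U (𝓝 ⟪V, f⟫_ℝ) := by
    intro f
    rw [hVℓ f]
    have h1 := ((WeakDual.eval_continuous f).tendsto ℓ).comp hlim'
    exact h1
  have hVm : MemLp V 2 ν := Lp.memLp V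
  have hVi : Integrable V ν := hVm.integrable (by norm_num)
  have hconv' : ∀ f : X → ℝ, AEMeasurable f ν → (∃ B : ℝ, ∀ x, |f x| ≤ B) →
      Tendsto (fun j => ∫ x, w j x * f x ∂ν) U (𝓝 (∫ x, V x * f x ∂ν)) := by
    intro f hf hB
    have h1 := hconv ((hmem hf hB).toLp f)
    have h2 : ∀ g : Lp ℝ 2 ν, ⟪g, (hmem hf hB).toLp f⟫_ℝ = ∫ x, g x * f x ∂ν := by
      intro g
      rw [L2.inner_def]
      refine integral_congr_ae ?_
      filter_upwards [(hmem hf hB).coeFn_toLp] with x hx
      rw [hx]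
      simp [mul_comm]
    have h3 : ∀ j, ⟪W j, (hmem hf hB).toLp f⟫_ℝ = ∫ x, w j x * f x ∂ν := by
      intro j
      rw [h2]
      refine integral_congr_ae ?_
      filter_upwards [(hwm j).coeFn_toLp] with x hx
      rw [hx]
    simpa only [h3, h2] using h1
  have hVsm : AEStronglyMeasurable V ν := hVm.1
  refine ⟨hVsm.mk V, hVsm.stronglyMeasurable_mk.measurable, ?_, hVi.congr hVsm.ae_eq_mk, ?_⟩
  · have hint : ∀ j, Integrable (w j) ν := fun j => (hwm j).integrable (by norm_num)
    have hset : ∀ s : Set X, MeasurableSet s →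
        Tendsto (fun j => ∫ x in s, w j x ∂ν) U (𝓝 (∫ x in s, V x ∂ν)) := by
      intro s hs
      have h1 := hconv' (s.indicator fun _ => (1 : ℝ)) (measurable_const.indicator hs).aemeasurable
        ⟨1, fun x => by by_cases hx : x ∈ s <;> simp [hx]⟩
      have h2 : ∀ g : X → ℝ, ∫ x, g x * s.indicator (fun _ => (1 : ℝ)) x ∂ν = ∫ x in s, g x ∂ν := by
        intro g
        rw [← integral_indicator hs]
        refine integral_congr_ae (Eventually.of_forall fun x => ?_)
        by_cases hx : x ∈ s <;> simp [hx]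
      simpa only [h2] using h1
    have hle1 : ∀ᵐ x ∂ν, V x ≤ C := by
      refine ae_le_of_forall_setIntegral_le hVi (integrable_const C) fun s hs _ => ?_
      refine le_of_tendsto (hset s hs) (Eventually.of_forall fun j => ?_)
      exact setIntegral_mono (hint j).integrableOn (integrable_const C).integrableOn
        fun x => (abs_le.1 (hC j x)).2
    have hle2 : ∀ᵐ x ∂ν, -C ≤ V x := by
      refine ae_le_of_forall_setIntegral_le (integrable_const (-C)) hVi fun s hs _ => ?_
      refine ge_of_tendsto (hset s hs) (Eventually.of_forall fun j => ?_)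
      exact setIntegral_mono (integrable_const (-C)).integrableOn (hint j).integrableOn
        fun x => (abs_le.1 (hC j x)).1
    filter_upwards [hle1, hle2, hVsm.ae_eq_mk] with x h1 h2 h3
    rw [← h3]
    exact abs_le.2 ⟨h2, h1⟩
  · intro f hf hB
    have h1 := hconv' f hf hB
    have h2 : ∫ x, V x * f x ∂ν = ∫ x, hVsm.mk V x * f x ∂ν := by
      refine integral_congr_ae ?_
      filter_upwards [hVsm.ae_eq_mk] with x hx
      rw [← hx]
    rwa [h2] at h1

/-- Weak limits, tested against integrable functions. -/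
theorem exists_weak {μ : Measure X} [SigmaFinite μ] (U : Ultrafilter ℕ)
    {w : ℕ → X → ℝ} (hw : ∀ j, AEMeasurable (w j) μ) {C : ℝ} (hC0 : 0 ≤ C)
    (hC : ∀ j x, |w j x| ≤ C) :
    ∃ w' : X → ℝ, Measurable w' ∧ (∀ x, |w' x| ≤ C) ∧ ∀ f : X → ℝ, Integrable f μ →
      Tendsto (fun j => ∫ x, w j x * f x ∂μ) U (𝓝 (∫ x, w' x * f x ∂μ)) := by
  obtain ⟨h, hpos, hmeas, hlt⟩ := exists_pos_lintegral_lt_of_sigmaFinite μ (ε := 1) one_ne_zero
  set ν : Measure X := μ.withDensity (fun x => (h x : ℝ≥0∞)) with hν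
  haveI : IsFiniteMeasure ν := isFiniteMeasure_withDensity (hlt.trans ENNReal.one_lt_top).ne
  have hνμ : ν ≪ μ := withDensity_absolutelyContinuous _ _
  have hμν : μ ≪ ν := withDensity_absolutelyContinuous' hmeas.coe_nnreal_ennreal.aemeasurable
    (Eventually.of_forall fun x => by simpa using (hpos x).ne')
  obtain ⟨w₀, hw₀, hw₀C, hw₀i, hlim⟩ := exists_weak_finite (ν := ν) U
    (fun j => (hw j).mono_ac hνμ) hC0 hC
  -- clip
  set w' : X → ℝ := fun x => max (-C) (min C (w₀ x)) with hw'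
  have hw'm : Measurable w' := measurable_const.max (measurable_const.min hw₀)
  have hw'C : ∀ x, |w' x| ≤ C := fun x =>
    abs_le.2 ⟨le_max_left _ _, max_le (by linarith) (min_le_left _ _)⟩
  have hww : ∀ᵐ x ∂μ, w₀ x = w' x := by
    filter_upwards [hμν.ae_le hw₀C] with x hx
    have := abs_le.1 hx
    rw [hw']
    simp only
    rw [min_eq_right this.2, max_eq_right this.1]
  -- integrals
  have hint : ∀ (g f : X → ℝ), ∫ x, g x * (f x / h x) ∂ν = ∫ x, g x * f x ∂μ := by
    intro g f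
    rw [hν, integral_withDensity_eq_integral_smul hmeas]
    refine integral_congr_ae (Eventually.of_forall fun x => ?_)
    have : (h x : ℝ) ≠ 0 := NNReal.coe_ne_zero.2 (hpos x).ne'
    show (h x : ℝ≥0) • (g x * (f x / h x)) = g x * f x
    rw [NNReal.smul_def, smul_eq_mul]
    field_simp
  refine ⟨w', hw'm, hw'C, fun f hf => ?_⟩
  -- truncation
  set F : ℕ → X → ℝ := fun t x => if |f x| ≤ t * h x then f x else 0 with hF
  have hfm := hf.1.aemeasurable
  have hFm : ∀ t, AEMeasurable (F t) μ := by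
    intro t
    have h1 : NullMeasurableSet {x | |f x| ≤ t * h x} μ :=
      nullMeasurableSet_le (by fun_prop) (by fun_prop)
    have h2 : F t = {x | |f x| ≤ t * h x}.indicator f := by
      funext x
      by_cases hx : |f x| ≤ t * h x
      · simp only [hF]
        rw [if_pos hx, indicator_of_mem (s := {x | |f x| ≤ t * h x}) hx]
      · simp only [hF]
        rw [if_neg hx, indicator_of_notMem (s := {x | |f x| ≤ t * h x}) hx]
    rw [h2]
    exact hfm.indicator₀ h1
  have hFle : ∀ t x, |F t x| ≤ |f x| := by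
    intro t x
    simp only [hF]
    split_ifs
    · exact le_rfl
    · simp
  have hFint : ∀ t, Integrable (F t) μ := fun t =>
    hf.abs.mono' (hFm t).aestronglyMeasurable (Eventually.of_forall fun x => hFle t x)
  have hlimF : ∀ t : ℕ, Tendsto (fun j => ∫ x, w j x * F t x ∂μ) U
      (𝓝 (∫ x, w' x * F t x ∂μ)) := by
    intro t
    have h1 := hlim (fun x => F t x / h x) (by
      have := (hFm t).mono_ac hνμ
      have h2 : AEMeasurable (fun x => (h x : ℝ)) ν := hmeas.coe_nnreal_real.aemeasurable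
      exact this.div h2) ⟨t, fun x => by
        have hx : (0 : ℝ) < h x := NNReal.coe_pos.2 (hpos x)
        rw [abs_div, abs_of_pos hx, div_le_iff₀ hx]
        simp only [hF]
        split_ifs with h3
        · exact h3
        · rw [abs_zero]; positivity⟩
    simp only [hint] at h1
    have h2 : ∫ x, w₀ x * F t x ∂μ = ∫ x, w' x * F t x ∂μ := by
      refine integral_congr_ae ?_
      filter_upwards [hww] with x hx
      rw [hx]
    rwa [h2] at h1
  have hdom : Tendsto (fun t : ℕ => ∫ x, |f x - F t x| ∂μ) atTop (𝓝 0) := by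
    have h0 : (0 : ℝ) = ∫ x : X, (0 : ℝ) ∂μ := by simp
    rw [h0]
    refine tendsto_integral_of_dominated_convergence (fun x => |f x|)
      (fun t => ((hfm.sub (hFm t)).abs).aestronglyMeasurable) hf.abs (fun t => ?_) ?_
    · refine Eventually.of_forall fun x => ?_
      rw [Real.norm_eq_abs, abs_abs]
      simp only [hF]
      split_ifs
      · simp
      · simp
    · refine Eventually.of_forall fun x => ?_
      have hx : (0 : ℝ) < h x := NNReal.coe_pos.2 (hpos x)
      obtain ⟨t₀, ht₀⟩ := exists_nat_ge (|f x| / h x)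
      refine tendsto_const_nhds.congr' ?_
      filter_upwards [eventually_ge_atTop t₀] with t ht
      have h3 : |f x| ≤ t * h x := by
        rw [← div_le_iff₀ hx]
        exact ht₀.trans (Nat.cast_le.2 ht)
      simp only [hF]
      rw [if_pos h3, sub_self, abs_zero]
  have hb : ∀ (g : X → ℝ), AEMeasurable g μ → (∀ x, |g x| ≤ C) → ∀ t,
      |∫ x, g x * f x ∂μ - ∫ x, g x * F t x ∂μ| ≤ C * ∫ x, |f x - F t x| ∂μ := by
    intro g hg hgC t
    have hi : ∀ {f : X → ℝ}, Integrable f μ → Integrable (fun x => g x * f x) μ := fun {f} hf =>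
      hf.bdd_mul hg.aestronglyMeasurable (c := C) (Eventually.of_forall fun x => hgC x)
    rw [← integral_sub (hi hf) (hi (hFint t)), ← integral_const_mul]
    refine (abs_integral_le_integral_abs).trans (integral_mono ?_ ?_ fun x => ?_)
    · exact ((hi hf).sub (hi (hFint t))).abs
    · exact ((hf.sub (hFint t)).abs).const_mul C
    · show |g x * f x - g x * F t x| ≤ C * |f x - F t x|
      rw [← mul_sub, abs_mul]
      exact mul_le_mul_of_nonneg_right (hgC x) (abs_nonneg _)
  rw [Metric.tendsto_nhds]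
  intro ε hε
  obtain ⟨t, ht⟩ : ∃ t, C * ∫ x, |f x - F t x| ∂μ < ε / 3 := by
    have h1 : Tendsto (fun t : ℕ => C * ∫ x, |f x - F t x| ∂μ) atTop (𝓝 (C * 0)) :=
      hdom.const_mul C
    rw [mul_zero] at h1
    exact (h1.eventually_lt_const (by positivity)).exists
  filter_upwards [Metric.tendsto_nhds.1 (hlimF t) (ε / 3) (by positivity)] with j hj
  rw [Real.dist_eq] at hj ⊢
  have h1 := hb (w j) (hw j) (hC j) t
  have h2 := hb w' hw'm.aemeasurable hw'C t
  have h3 := abs_le.1 h1
  have h4 := abs_le.1 h2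
  have h5 := abs_lt.1 hj
  rw [abs_lt]
  constructor <;> linarith [h3.1, h3.2, h4.1, h4.2, h5.1, h5.2]

end Vale.Agent.P299.H531
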