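import Vale.Agent.P299.H531.Main
import Vale.Agent.P299.H531.Weak
import Vale.Agent.P299.H91.Reg

/-! P299, step (5.2), last part (helper531, package G-PSI): from the sequence of
plurisubharmonic functions on the base to the decreasing sequence of `C²` plurisubharmonic
functions on the total space. -/

set_option linter.all false

open MeasureTheory Filter Topology Metric Set
open scoped ENNReal NNReal ComplexConjugate ContDiff

namespace Vale.Agent.P299.H531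

open Vale.Agent.P300.L2 Vale.Agent.P300.L2.Sheets

variable {n N k N' : ℕ} {S : Sheets n N} {T : Sheets k N'} {ι : Fin k ↪ Fin n}
  {Φ : (Fin n → ℂ) × ℕ → (Fin k → ℂ) × ℕ} {p : (Fin n → ℂ) → ℝ} {pT : (Fin k → ℂ) → ℝ}
  {φ : (Fin n → ℂ) × ℕ → ℝ} {s : (Fin n → ℂ) × ℕ → ℂ}

theorem sigmaFinite_μ {C : ℝ} {k0 : ℕ} (hp : Exh S.V p C k0) : SigmaFinite S.μ := by
  refine ⟨⟨{
    set := fun m => {q | q.1 ∈ {z | z ∈ S.V ∧ p z ≤ (m : ℝ)}} ∪ {q | q.1 ∉ S.V}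
    set_mem := fun _ => trivial
    finite := fun m => ?_
    spanning := ?_ }⟩⟩
  · refine lt_of_le_of_lt (measure_union_le _ _) (ENNReal.add_lt_top.2 ⟨?_, ?_⟩)
    · exact μ_lt_top (hp.compact m) (fun z hz => hz.1)
    · have h0 : S.μ {q | q.1 ∉ S.V} = 0 := by
        have h1 : ∀ᵐ q ∂S.μ, q.1 ∈ S.V := (ae_mem_M (S := S)).mono fun q hq => hq.1
        exact h1
      rw [h0]
      exact ENNReal.zero_lt_top
  · refine eq_univ_of_forall fun q => mem_iUnion.2 ?_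
    by_cases hq : q.1 ∈ S.V
    · obtain ⟨m, hm⟩ := exists_nat_ge (p q.1)
      exact ⟨m, Or.inl ⟨hq, hm⟩⟩
    · exact ⟨0, Or.inr hq⟩

theorem levi_const_mul' {u : (Fin n → ℂ) × ℕ → ℝ} (hu : S.CD 2 (fun q => (u q : ℂ))) (c : ℝ)
    {q : (Fin n → ℂ) × ℕ} (hq : q ∈ S.M) (β : Fin n → ℂ) :
    S.levi (fun q => c * u q) β q = c * S.levi u β q := by
  obtain ⟨s, W, hs, z, hz, rfl⟩ := exists_section' hq
  rw [H91.levi_section hs hz, H91.levi_section hs hz,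
    H91.lev_const_mul ((CD.re_section hu hs).contDiffAt (hs.isOpen.mem_nhds hz))]

/-- The weight on the base. -/
theorem base_weight {CT : ℝ} {kT : ℕ} (hp : Exh S.V p CT kT) {g : (Fin n → ℂ) × ℕ → ℝ}
    (hg : S.CD 0 (fun q => (g q : ℂ))) {e C : ℝ} (he : 0 < e) {u : ℕ → (Fin n → ℂ) × ℕ → ℝ}
    (hum : ∀ j, AEMeasurable (u j) S.μ) (hu : ∀ j, DPsh S (u j))
    (hC : ∀ K : Set (Fin n → ℂ), IsCompact K → K ⊆ S.V →
      ∃ j₀ : ℕ, ∀ j ≥ j₀, ∀ q ∈ S.M, q.1 ∈ K → |e * u j q + g q| ≤ C) :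
    ∃ Ψ : ℕ → (Fin n → ℂ) × ℕ → ℝ, (∀ m, S.CD 2 (fun q => (Ψ m q : ℂ))) ∧
      (∀ m, ∀ q ∈ S.M, Ψ (m + 1) q ≤ Ψ m q) ∧ (∀ m, ∃ c : ℝ, ∀ q ∈ S.M, c ≤ Ψ m q) ∧
      (∀ m, ∀ q ∈ S.M, ∀ β : Fin n → ℂ, 0 ≤ S.levi (Ψ m) β q) ∧
      ∀ q ∈ S.M, Real.exp (-g q - |C|) ≤ limE Ψ q ∧ limE Ψ q ≤ Real.exp (-g q + |C|) := by
  haveI := sigmaFinite_μ hp
  set A : ℝ := |C| with hA
  have hA0 : 0 ≤ A := abs_nonneg _
  have hgm : AEMeasurable g S.μ := by
    have := (aestronglyMeasurable_of_CD hg).re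
    simpa using this.aemeasurable
  set w : ℕ → (Fin n → ℂ) × ℕ → ℝ := fun j q => max (-A) (min A (e * u j q + g q)) with hw
  have hwm : ∀ j, AEMeasurable (w j) S.μ := fun j =>
    aemeasurable_const.max (aemeasurable_const.min (((hum j).const_mul e).add hgm))
  have hwC : ∀ j q, |w j q| ≤ A := fun j q =>
    abs_le.2 ⟨le_max_left _ _, max_le (by linarith) (min_le_left _ _)⟩
  obtain ⟨w', hw'm, hw'C, hlim⟩ := exists_weak (hyperfilter ℕ) hwm hA0 hwC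
  set v : (Fin n → ℂ) × ℕ → ℝ := fun q => (w' q - g q) / e with hv
  have hvm : AEMeasurable v S.μ := (hw'm.aemeasurable.sub hgm).div_const e
  -- integrability of the Levi forms of test functions
  have hbdd : ∀ f : (Fin n → ℂ) × ℕ → ℝ, AEMeasurable f S.μ → ∀ K : Set (Fin n → ℂ), IsCompact K →
      K ⊆ S.V → (∃ B : ℝ, ∀ q ∈ S.M, q.1 ∈ K → |f q| ≤ B) → IntegrableOn f {q | q.1 ∈ K} S.μ := by
    intro f hf K hK hKV hB
    obtain ⟨B, hB⟩ := hB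
    refine Measure.integrableOn_of_bounded (M := B) (μ_lt_top hK hKV).ne
      hf.aestronglyMeasurable ?_
    have hm : MeasurableSet {q : (Fin n → ℂ) × ℕ | q.1 ∈ K} := measurable_fst hK.measurableSet
    filter_upwards [ae_restrict_of_ae (ae_mem_M (S := S)), ae_restrict_mem hm] with q h1 h2
    exact hB q h1 h2
  have hgb : ∀ K : Set (Fin n → ℂ), IsCompact K → K ⊆ S.V →
      ∃ B : ℝ, ∀ q ∈ S.M, q.1 ∈ K → |g q| ≤ B := fun K hK hKV => H91.exists_real_bound hg hK hKV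
  have hDP : H91.DPsh S v := by
    refine ⟨fun K hK hKV => ?_, fun κ hκ hκ0 β => ?_⟩
    · refine hbdd v hvm K hK hKV ?_
      obtain ⟨B, hB⟩ := hgb K hK hKV
      refine ⟨(A + B) / e, fun q hq hqK => ?_⟩
      rw [hv]
      simp only
      rw [abs_div, abs_of_pos he]
      refine div_le_div_of_nonneg_right ((abs_sub _ _).trans ?_) he.le
      exact add_le_add (hw'C q) (hB q hq hqK)
    · obtain ⟨hκc, K, hK, hKV, hκK⟩ := id hκ
      have hsupp : ∀ q ∈ S.M, q.1 ∉ K → S.levi κ β q = 0 := fun q hq hqK =>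
        H91.levi_supp hK.isClosed (fun q hq => Complex.ofReal_eq_zero.1 (hκK q hq)) β hqK hq
      have hmul : ∀ f : (Fin n → ℂ) × ℕ → ℝ, IntegrableOn f {q | q.1 ∈ K} S.μ →
          Integrable (fun q => f q * S.levi κ β q) S.μ := fun f hf =>
        H91.integrable_mul_of_supp (H91.levi_CD hκc β) hK hKV hsupp hf
      have hL : Integrable (fun q => S.levi κ β q) S.μ := by
        have h1 := hmul (fun _ => 1) (hbdd _ aemeasurable_const K hK hKV ⟨1, fun q _ _ => by simp⟩)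
        simpa using h1
      have hgL := hmul g (hbdd g hgm K hK hKV (hgb K hK hKV))
      have hwL : ∀ f : (Fin n → ℂ) × ℕ → ℝ, AEMeasurable f S.μ → (∀ q, |f q| ≤ A) →
          Integrable (fun q => f q * S.levi κ β q) S.μ := fun f hf hfA =>
        hmul f (hbdd f hf K hK hKV ⟨A, fun q _ _ => hfA q⟩)
      have h1 := hlim _ hL
      have h2 : ∀ᶠ j in (hyperfilter ℕ : Filter ℕ), ∫ q, g q * S.levi κ β q ∂S.μ ≤
          ∫ q, w j q * S.levi κ β q ∂S.μ := by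
        obtain ⟨j₀, hj₀⟩ := hC K hK hKV
        refine Nat.hyperfilter_le_atTop ?_
        filter_upwards [eventually_ge_atTop j₀] with j hj
        have h3 : ∫ q, w j q * S.levi κ β q ∂S.μ - ∫ q, g q * S.levi κ β q ∂S.μ =
            e * ∫ q, u j q * S.levi κ β q ∂S.μ := by
          rw [← integral_sub (hwL (w j) (hwm j) (hwC j)) hgL, ← integral_const_mul]
          refine integral_congr_ae ?_
          filter_upwards [ae_mem_M (S := S)] with q hq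
          by_cases hqK : q.1 ∈ K
          · have h4 := abs_le.1 ((hj₀ j hj q hq hqK).trans (le_abs_self C))
            have h5 : w j q = e * u j q + g q := by
              rw [hw]
              simp only
              rw [min_eq_right h4.2, max_eq_right h4.1]
            rw [h5]
            ring
          · rw [hsupp q hq hqK]
            ring
        have h4 := mul_nonneg he.le (hu j κ hκ (fun q _ => hκ0 q) β)
        linarith
      have h3 := ge_of_tendsto h1 h2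
      have h4 : ∫ q, v q * S.levi κ β q ∂S.μ =
          (∫ q, w' q * S.levi κ β q ∂S.μ - ∫ q, g q * S.levi κ β q ∂S.μ) / e := by
        rw [← integral_sub (hwL w' hw'm.aemeasurable hw'C) hgL, ← integral_div]
        refine integral_congr_ae (Eventually.of_forall fun q => ?_)
        show (w' q - g q) / e * S.levi κ β q = _
        ring
      rw [h4]
      exact div_nonneg (by linarith) he.le
  -- regularisation
  have hcd : ∀ c : ℝ, S.CD 0 (fun q => (((c - g q) / e : ℝ) : ℂ)) := by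
    intro c
    have h1 : S.CD 0 (fun q => ((c : ℂ) - (g q : ℂ)) * ((e⁻¹ : ℝ) : ℂ)) := by
      refine CD.mul ?_ (CD.const _)
      have h2 := CD.add (CD.const (m := 0) (S := S) (c : ℂ)) (CD.mul (CD.const (m := 0) (-1)) hg)
      refine h2.congr fun q _ => ?_
      ring
    refine h1.congr fun q _ => ?_
    push_cast
    ring
  obtain ⟨F, hFcd, hFanti, hFbdd, hFlevi, hFup, hFae, hFlow⟩ :=
    hDP.exists_reg hp (g := fun _ => 0) (by simpa using CD.const (m := 2) (S := S) (0 : ℂ))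
      (φ := fun q => (A - g q) / e) (hcd A) (Eventually.of_forall fun q => by
        show (w' q - g q) / e + 0 ≤ (A - g q) / e
        rw [add_zero]
        exact div_le_div_of_nonneg_right (by linarith [(abs_le.1 (hw'C q)).2]) he.le)
  have hFlow' := hFlow (fun q => (-A - g q) / e) (hcd (-A)) (Eventually.of_forall fun q => by
        show (-A - g q) / e ≤ (w' q - g q) / e + 0
        rw [add_zero]
        exact div_le_div_of_nonneg_right (by linarith [(abs_le.1 (hw'C q)).1]) he.le)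
  refine ⟨fun m q => e * F m q, fun m => ?_, fun m q hq => ?_, fun m => ?_, fun m q hq β => ?_,
    fun q hq => ?_⟩
  · have h1 := CD.mul (CD.const (m := 2) (S := S) (e : ℂ)) (hFcd m)
    refine h1.congr fun q _ => ?_
    push_cast
    ring
  · exact mul_le_mul_of_nonneg_left (hFanti m q hq) he.le
  · obtain ⟨c, hc⟩ := hFbdd m
    exact ⟨e * c, fun q hq => mul_le_mul_of_nonneg_left (hc q hq) he.le⟩
  · rw [levi_const_mul' (hFcd m) e hq]
    have h1 := hFlevi m q hq β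
    simp only [sub_zero] at h1
    exact mul_nonneg he.le h1
  · have h1 : Tendsto (fun m => Real.exp (F m q)) atTop (𝓝 (limE F q)) :=
      limE_tendsto (fun m => hFanti m q hq)
    have h2 : Tendsto (fun m => Real.exp (e * F m q)) atTop
        (𝓝 (limE (fun m q => e * F m q) q)) :=
      limE_tendsto (Φ := fun m q => e * F m q)
        (fun m => mul_le_mul_of_nonneg_left (hFanti m q hq) he.le)
    have h3 : Tendsto (fun m => Real.exp (e * F m q)) atTop (𝓝 (limE F q ^ e)) := by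
      have h4 := h1.rpow_const (p := e) (Or.inr he.le)
      refine h4.congr fun m => ?_
      rw [← Real.exp_mul, mul_comm]
    have h4 := tendsto_nhds_unique h2 h3
    rw [h4]
    have h5 := hFlow' q hq
    have h6 := hFup q hq
    have h7 : ∀ c : ℝ, Real.exp ((c - g q) / e) ^ e = Real.exp (-g q + c) := by
      intro c
      rw [← Real.exp_mul]
      congr 1
      field_simp
      ring
    constructor
    · have h8 := Real.rpow_le_rpow (Real.exp_pos _).le h5 he.le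
      rw [h7] at h8
      simpa [sub_eq_add_neg] using h8
    · have h8 := Real.rpow_le_rpow (limE_nonneg F q) h6 he.le
      rwa [h7] at h8

theorem CD_normSq_sum {r : ℕ} {f : Fin r → (Fin n → ℂ) × ℕ → ℂ} {m : ℕ}
    (hf : ∀ i, S.CD m (f i)) : S.CD m (fun q => ((∑ i, ‖f i q‖ ^ 2 : ℝ) : ℂ)) := by
  have h1 : S.CD m (fun q => ∑ i, f i q * conj (f i q)) :=
    CD.sum Finset.univ fun i _ => CD.mul (hf i) (CD.conj (hf i))
  refine h1.congr fun q _ => ?_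
  push_cast
  refine Finset.sum_congr rfl fun i _ => ?_
  rw [Complex.mul_conj, Complex.normSq_eq_norm_sq]
  push_cast
  ring

theorem normSq_sum_pos {r : ℕ} {f : Fin r → (Fin n → ℂ) × ℕ → ℂ} {q : (Fin n → ℂ) × ℕ}
    (h : ∃ i, f i q ≠ 0) : 0 < ∑ i, ‖f i q‖ ^ 2 := by
  obtain ⟨i, hi⟩ := h
  refine Finset.sum_pos' (fun i _ => by positivity) ⟨i, Finset.mem_univ i, ?_⟩
  have := norm_pos_iff.2 hi
  positivity

/-- **Step (5.2), general form.** -/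
theorem psi_of {C CT : ℝ} {k0 kT : ℕ} (hp : Exh S.V p C k0) (hpT : Exh T.V pT CT kT)
    (D : Data S T ι Φ p φ s) (hk : 0 < k) (hs0 : ∀ q ∈ S.M, s q ≠ 0)
    (hI : ∫⁻ q, ENNReal.ofReal (Real.exp (-φ q)) ∂S.μ < ⊤) {b : ℕ} (hB : BaseProp S T ι Φ φ s b)
    {ρ g : (Fin k → ℂ) × ℕ → ℝ} (hρ : FibSup S T Φ φ s b ρ) (hg : T.CD 0 (fun y => (g y : ℂ)))
    {e C₁ : ℝ} (he : 0 < e) (hcmp : ∀ y ∈ T.M, |e * Real.log (ρ y) - g y| ≤ C₁) :
    ∃ Ψ : ℕ → (Fin n → ℂ) × ℕ → ℝ, (∀ i, S.CD 2 (fun q => (Ψ i q : ℂ))) ∧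
      (∀ i, ∀ q ∈ S.M, Ψ (i + 1) q ≤ Ψ i q) ∧
      (∀ i, ∀ q ∈ S.M, ∀ β : Fin n → ℂ, 0 ≤ S.levi (Ψ i) β q) ∧
      (∀ i, ∃ c : ℝ, ∀ q ∈ S.M, c ≤ Ψ i q) ∧
      ∃ C : ℝ, 0 < C ∧ ∀ q ∈ S.M, Real.exp (-g (Φ q)) ≤ C * limE Ψ q ∧
        limE Ψ q ≤ C * Real.exp (-g (Φ q)) := by
  obtain ⟨u, C', hum, -, hu, hC'⟩ := psh_seq hp D hk hs0 hI hB hρ hg he hcmp
  obtain ⟨F, hFcd, hFanti, hFbdd, hFlevi, hFlim⟩ := base_weight hpT hg he hum hu hC'
  have hF := D.fib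
  refine ⟨fun i q => F i (Φ q), fun i => hF.CD (hFcd i), fun i q hq => hFanti i _ (hF.maps q hq),
    fun i q hq β => ?_, fun i => ?_, Real.exp |C'|, Real.exp_pos _, fun q hq => ?_⟩
  · rw [hF.levi_comp (hFcd i) hq β]
    exact hFlevi i _ (hF.maps q hq) _
  · obtain ⟨c, hc⟩ := hFbdd i
    exact ⟨c, fun q hq => hc _ (hF.maps q hq)⟩
  · obtain ⟨h1, h2⟩ := hFlim _ (hF.maps q hq)
    have h3 : limE (fun i q => F i (Φ q)) q = limE F (Φ q) := rfl
    rw [h3]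
    constructor
    · have h4 : Real.exp (-g (Φ q)) = Real.exp |C'| * Real.exp (-g (Φ q) - |C'|) := by
        rw [← Real.exp_add]; congr 1; ring
      rw [h4]
      exact mul_le_mul_of_nonneg_left h1 (Real.exp_pos _).le
    · rw [← Real.exp_add, add_comm]
      exact h2

/-- **Step (5.2): the weight `Ψ ~ log ∑ |u|² - log ∑ |v|²`** (the fields `Ψ_cd`, `Ψ_anti`,
`Ψ_levi`, `Ψ_low`, `Ψ_lim` of `H590.A.Data5`). -/
theorem psi {C CT : ℝ} {k0 kT : ℕ} (hp : Exh S.V p C k0) (hpT : Exh T.V pT CT kT)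
    (D : Data S T ι Φ p φ s) (hk : 0 < k) (hs0 : ∀ q ∈ S.M, s q ≠ 0)
    (hI : ∫⁻ q, ENNReal.ofReal (Real.exp (-φ q)) ∂S.μ < ⊤) {b : ℕ} (hB : BaseProp S T ι Φ φ s b)
    {ρ : (Fin k → ℂ) × ℕ → ℝ} (hρ : FibSup S T Φ φ s b ρ)
    {ru rv : ℕ} {u' : Fin ru → (Fin k → ℂ) × ℕ → ℂ} {v' : Fin rv → (Fin k → ℂ) × ℕ → ℂ}
    (hu' : ∀ i, T.CD 0 (u' i)) (hv' : ∀ i, T.CD 0 (v' i))
    (hu0 : ∀ y ∈ T.M, ∃ i, u' i y ≠ 0) (hv0 : ∀ y ∈ T.M, ∃ i, v' i y ≠ 0)
    {e C₁ : ℝ} (he : 0 < e) (hcmp : ∀ y ∈ T.M, |e * Real.log (ρ y) -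
      Real.log ((∑ i, ‖v' i y‖ ^ 2) / ∑ i, ‖u' i y‖ ^ 2)| ≤ C₁)
    {u : Fin ru → (Fin n → ℂ) × ℕ → ℂ} {v : Fin rv → (Fin n → ℂ) × ℕ → ℂ}
    (hu : ∀ i, ∀ q ∈ S.M, u i q = u' i (Φ q)) (hv : ∀ i, ∀ q ∈ S.M, v i q = v' i (Φ q)) :
    ∃ Ψ : ℕ → (Fin n → ℂ) × ℕ → ℝ, (∀ i, S.CD 2 (fun q => (Ψ i q : ℂ))) ∧
      (∀ i, ∀ q ∈ S.M, Ψ (i + 1) q ≤ Ψ i q) ∧
      (∀ i, ∀ q ∈ S.M, ∀ β : Fin n → ℂ, 0 ≤ S.levi (Ψ i) β q) ∧
      (∀ i, ∃ (c : ℝ) (k : ℕ), ∀ q ∈ S.M, Real.exp (-Ψ i q) ≤ c * (1 + p q.1) ^ k) ∧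
      ∃ C : ℝ, 0 < C ∧ ∀ q ∈ S.M,
        ∑ i, ‖u i q‖ ^ 2 ≤ C * ((∑ i, ‖v i q‖ ^ 2) * limE Ψ q) ∧
        (∑ i, ‖v i q‖ ^ 2) * limE Ψ q ≤ C * ∑ i, ‖u i q‖ ^ 2 := by
  set g : (Fin k → ℂ) × ℕ → ℝ := fun y =>
    Real.log (∑ i, ‖v' i y‖ ^ 2) - Real.log (∑ i, ‖u' i y‖ ^ 2) with hg
  have hup : ∀ y ∈ T.M, 0 < ∑ i, ‖u' i y‖ ^ 2 := fun y hy => normSq_sum_pos (hu0 y hy)
  have hvp : ∀ y ∈ T.M, 0 < ∑ i, ‖v' i y‖ ^ 2 := fun y hy => normSq_sum_pos (hv0 y hy)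
  have hgcd : T.CD 0 (fun y => (g y : ℂ)) := by
    have h1 := CD.log (CD_normSq_sum hv') hvp
    have h2 := CD.log (CD_normSq_sum hu') hup
    refine (h1.add (CD.mul (CD.const (-1)) h2)).congr fun y _ => ?_
    rw [hg]
    push_cast
    ring
  have hcmp' : ∀ y ∈ T.M, |e * Real.log (ρ y) - g y| ≤ C₁ := by
    intro y hy
    have h1 := hcmp y hy
    rwa [Real.log_div (hvp y hy).ne' (hup y hy).ne'] at h1
  obtain ⟨Ψ, h1, h2, h3, h4, C₂, hC₂, h5⟩ := psi_of hp hpT D hk hs0 hI hB hρ hgcd he hcmp'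
  refine ⟨Ψ, h1, h2, h3, fun i => ?_, C₂, hC₂, fun q hq => ?_⟩
  · obtain ⟨c, hc⟩ := h4 i
    refine ⟨Real.exp (-c), 0, fun q hq => ?_⟩
    rw [pow_zero, mul_one]
    exact Real.exp_le_exp.2 (neg_le_neg (hc q hq))
  · have hy := D.fib.maps q hq
    obtain ⟨h6, h7⟩ := h5 q hq
    have e1 : ∑ i, ‖u i q‖ ^ 2 = ∑ i, ‖u' i (Φ q)‖ ^ 2 :=
      Finset.sum_congr rfl fun i _ => by rw [hu i q hq]
    have e2 : ∑ i, ‖v i q‖ ^ 2 = ∑ i, ‖v' i (Φ q)‖ ^ 2 :=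
      Finset.sum_congr rfl fun i _ => by rw [hv i q hq]
    have hU := hup _ hy
    have hV := hvp _ hy
    have h8 : Real.exp (-g (Φ q)) = (∑ i, ‖u' i (Φ q)‖ ^ 2) / ∑ i, ‖v' i (Φ q)‖ ^ 2 := by
      rw [hg]
      simp only
      rw [neg_sub, Real.exp_sub, Real.exp_log hU, Real.exp_log hV]
    rw [h8] at h6 h7
    rw [e1, e2]
    constructor
    · rw [div_le_iff₀ hV] at h6
      calc _ ≤ C₂ * limE Ψ q * ∑ i, ‖v' i (Φ q)‖ ^ 2 := h6
        _ = _ := by ring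
    · calc _ ≤ (∑ i, ‖v' i (Φ q)‖ ^ 2) *
            (C₂ * ((∑ i, ‖u' i (Φ q)‖ ^ 2) / ∑ i, ‖v' i (Φ q)‖ ^ 2)) :=
            mul_le_mul_of_nonneg_left h7 hV.le
        _ = _ := by field_simp

end Vale.Agent.P299.H531
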