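import Vale.Agent.P299.H531.Psh

/-! P299, step (5.2) (helper531): suprema of countable families, and the reduction of arbitrary
families to countable ones. -/

set_option linter.all false

open MeasureTheory Filter Topology Metric
open scoped ENNReal NNReal ComplexConjugate ContDiff

namespace Vale.Agent.P299.H531

open Vale.Agent.P300.L2 Vale.Agent.P300.L2.Sheets

variable {k N' : ℕ} {T : Sheets k N'}

/-- The supremum of the squares. -/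
noncomputable def supF (f : ℕ → (Fin k → ℂ) × ℕ → ℂ) (y : (Fin k → ℂ) × ℕ) : ℝ :=
  ⨆ i, ‖f i y‖ ^ 2

theorem le_supF {f : ℕ → (Fin k → ℂ) × ℕ → ℂ} {y : (Fin k → ℂ) × ℕ} {C : ℝ}
    (hC : ∀ i, ‖f i y‖ ^ 2 ≤ C) (i : ℕ) : ‖f i y‖ ^ 2 ≤ supF f y :=
  le_ciSup (f := fun i => ‖f i y‖ ^ 2) ⟨C, by rintro _ ⟨i, rfl⟩; exact hC i⟩ i

theorem supF_le {f : ℕ → (Fin k → ℂ) × ℕ → ℂ} {y : (Fin k → ℂ) × ℕ} {C : ℝ}
    (hC : ∀ i, ‖f i y‖ ^ 2 ≤ C) : supF f y ≤ C := ciSup_le hC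

theorem tendsto_mx {f : ℕ → (Fin k → ℂ) × ℕ → ℂ} {y : (Fin k → ℂ) × ℕ} {C : ℝ}
    (hC : ∀ i, ‖f i y‖ ^ 2 ≤ C) (ε : ℝ) :
    Tendsto (fun r => mx f ε r y) atTop (𝓝 (max ε (supF f y))) := by
  have h0 : 0 ≤ supF f y := le_trans (by positivity) (le_supF hC 0)
  rw [tendsto_order]
  constructor
  · intro c hc
    rcases lt_max_iff.1 hc with h | h
    · exact Eventually.of_forall fun r => lt_of_lt_of_le h (le_max_left _ _)
    · obtain ⟨i, hi⟩ := exists_lt_of_lt_ciSup h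
      filter_upwards [eventually_gt_atTop i] with r hr
      exact hi.trans_le (le_mx f ε hr y)
  · intro c hc
    refine Eventually.of_forall fun r => lt_of_le_of_lt ?_ hc
    exact mx_le (le_max_left _ _) (h0.trans (le_max_right _ _)) fun i _ =>
      (le_supF hC i).trans (le_max_right _ _)

theorem bound_of_compact {f : ℕ → (Fin k → ℂ) × ℕ → ℂ}
    (hub : ∀ K : Set (Fin k → ℂ), IsCompact K → K ⊆ T.V →
      ∃ C : ℝ, ∀ y ∈ T.M, y.1 ∈ K → ∀ i, ‖f i y‖ ^ 2 ≤ C) {y : (Fin k → ℂ) × ℕ} (hy : y ∈ T.M) :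
    ∃ C : ℝ, ∀ i, ‖f i y‖ ^ 2 ≤ C := by
  obtain ⟨C, hC⟩ := hub {y.1} isCompact_singleton (Set.singleton_subset_iff.2 hy.1)
  exact ⟨C, hC y hy rfl⟩

theorem aemeas_supF {f : ℕ → (Fin k → ℂ) × ℕ → ℂ} (hf : ∀ i, T.Holo (f i))
    (hub : ∀ K : Set (Fin k → ℂ), IsCompact K → K ⊆ T.V →
      ∃ C : ℝ, ∀ y ∈ T.M, y.1 ∈ K → ∀ i, ‖f i y‖ ^ 2 ≤ C) : AEMeasurable (supF f) T.μ := by
  refine aemeasurable_of_tendsto_metrizable_ae atTop (f := fun r => mx f 0 r)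
    (fun r => aemeas_mx hf 0 r) ?_
  filter_upwards [ae_mem_M (S := T)] with y hy
  obtain ⟨C, hC⟩ := bound_of_compact hub hy
  have h := tendsto_mx hC 0
  have h0 : 0 ≤ supF f y := le_trans (by positivity) (le_supF hC 0)
  rwa [max_eq_right h0] at h

theorem supF_dpsh {f : ℕ → (Fin k → ℂ) × ℕ → ℂ} (hf : ∀ i, T.Holo (f i))
    (hub : ∀ K : Set (Fin k → ℂ), IsCompact K → K ⊆ T.V →
      ∃ C : ℝ, ∀ y ∈ T.M, y.1 ∈ K → ∀ i, ‖f i y‖ ^ 2 ≤ C)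
    (hlb : ∀ K : Set (Fin k → ℂ), IsCompact K → K ⊆ T.V →
      ∃ b : ℝ, 0 < b ∧ ∀ y ∈ T.M, y.1 ∈ K → b ≤ supF f y) :
    DPsh T (fun y => Real.log (supF f y)) := by
  intro κ hκ hκ0 β
  obtain ⟨K, hK, hKV, hκK⟩ := hκ.2
  have hκK' : ∀ y : (Fin k → ℂ) × ℕ, y.1 ∉ K → κ y = 0 := fun y hy =>
    Complex.ofReal_eq_zero.1 (hκK y hy)
  obtain ⟨C, hC⟩ := hub K hK hKV
  obtain ⟨b, hb, hbl⟩ := hlb K hK hKV
  refine test_limit hκ hK hKV hκK' β (v := fun r y => Real.log (mx f b r y))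
    (B := max (Real.log (max b C)) (-Real.log b)) ?_ ?_ ?_ (fun r => mx_dpsh hf hb r κ hκ hκ0 β)
  · intro r
    exact Real.measurable_log.comp_aemeasurable (aemeas_mx hf b r)
  · intro r y hy hyK
    have hm := mx_pos f hb r y
    have hC0 : 0 ≤ C := le_trans (by positivity) (hC y hy hyK 0)
    have h1 : mx f b r y ≤ max b C := mx_le (le_max_left _ _) (hC0.trans (le_max_right _ _))
      fun i _ => (hC y hy hyK i).trans (le_max_right _ _)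
    rw [abs_le]
    constructor
    · have h5 : Real.log b ≤ Real.log (mx f b r y) := Real.log_le_log hb (le_max_left _ _)
      have := le_max_right (Real.log (max b C)) (-Real.log b)
      linarith
    · exact (Real.log_le_log hm h1).trans (le_max_left _ _)
  · intro y hy hyK
    have h1 := tendsto_mx (hC y hy hyK) b
    rw [max_eq_right (hbl y hy hyK)] at h1
    exact (Real.continuousAt_log (lt_of_lt_of_le hb (hbl y hy hyK)).ne').tendsto.comp h1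

/-- A family of continuous functions contains a countable subfamily with the same supremum. -/
theorem exists_countable_sup (T : Sheets k N') (E : Set ((Fin k → ℂ) × ℕ → ℂ))
    (hE : ∀ f ∈ E, T.CD 0 f) (hne : E.Nonempty) :
    ∃ f : ℕ → (Fin k → ℂ) × ℕ → ℂ, (∀ i, f i ∈ E) ∧
      ∀ y ∈ T.M, ∀ g ∈ E, ∀ c : ℝ, c < ‖g y‖ ^ 2 → ∃ i, c < ‖f i y‖ ^ 2 := by
  obtain ⟨α, hα, W, s, hW, hU⟩ := sm_cover T
  have key : ∀ t : α × Fin N' × ℚ, ∃ E' : Set E, E'.Countable ∧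
      (⋃ g ∈ E', {z | z ∈ W t.1 ∧ ((t.2.2 : ℚ) : ℝ) < ‖(g : (Fin k → ℂ) × ℕ → ℂ) (z, s t.1 t.2.1 z)‖ ^ 2}) =
      ⋃ g : E, {z | z ∈ W t.1 ∧ ((t.2.2 : ℚ) : ℝ) < ‖(g : (Fin k → ℂ) × ℕ → ℂ) (z, s t.1 t.2.1 z)‖ ^ 2} := by
    intro t
    refine TopologicalSpace.isOpen_iUnion_countable _ fun g => ?_
    have h1 : ContinuousOn (fun z => ‖(g : (Fin k → ℂ) × ℕ → ℂ) (z, s t.1 t.2.1 z)‖ ^ 2) (W t.1) :=
      ((hE g g.2 _ _ ((hW t.1).sec t.2.1)).continuousOn.norm).pow 2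
    exact h1.isOpen_inter_preimage (hW t.1).isOpen isOpen_Ioi
  choose E' hE'c hE' using key
  have hcount : (⋃ t, E' t).Countable := Set.countable_iUnion hE'c
  obtain ⟨g₀, hg₀⟩ := hne
  have hc2 : (insert (⟨g₀, hg₀⟩ : E) (⋃ t, E' t)).Countable := hcount.insert _
  obtain ⟨f, hf⟩ := hc2.exists_eq_range (Set.insert_nonempty _ _)
  refine ⟨fun i => f i, fun i => (f i).2, ?_⟩
  intro y hy g hg c hcg
  have hyV : y.1 ∈ ⋃ l, W l := by rw [hU]; exact hy.1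
  obtain ⟨l, hl⟩ := Set.mem_iUnion.1 hyV
  have h2 := hy.2
  rw [(hW l).fib y.1 hl, Finset.mem_image] at h2
  obtain ⟨i, -, hi⟩ := h2
  have hyi : y = (y.1, s l i y.1) := Prod.ext rfl hi.symm
  obtain ⟨q, hq1, hq2⟩ := exists_rat_btwn hcg
  have h3 : y.1 ∈ ⋃ g : E, {z | z ∈ W l ∧ ((q : ℚ) : ℝ) <
      ‖(g : (Fin k → ℂ) × ℕ → ℂ) (z, s l i z)‖ ^ 2} := by
    refine Set.mem_iUnion.2 ⟨⟨g, hg⟩, hl, ?_⟩
    show _ < ‖g (y.1, s l i y.1)‖ ^ 2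
    rw [← hyi]
    exact hq2
  rw [← hE' (l, i, q)] at h3
  obtain ⟨g', hg', h4⟩ := Set.mem_iUnion₂.1 h3
  have h5 : g' ∈ insert (⟨g₀, hg₀⟩ : E) (⋃ t, E' t) :=
    Set.mem_insert_of_mem _ (Set.mem_iUnion.2 ⟨(l, i, q), hg'⟩)
  rw [hf] at h5
  obtain ⟨i', hi'⟩ := h5
  refine ⟨i', hq1.trans ?_⟩
  have h6 := h4.2
  rw [← hi'] at h6
  have h7 : ((f i' : E) : (Fin k → ℂ) × ℕ → ℂ) y = (f i' : (Fin k → ℂ) × ℕ → ℂ) (y.1, s l i y.1) := by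
    rw [← hyi]
  show _ < ‖(f i' : (Fin k → ℂ) × ℕ → ℂ) y‖ ^ 2
  rw [h7]
  exact h6

end Vale.Agent.P299.H531
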