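import Vale.Agent.P299.H531.Ext

/-! P299, step (5.2) (helper531): the local upper bound by the mean value inequality. -/

set_option linter.all false

open MeasureTheory Filter Topology Metric
open scoped ENNReal NNReal ComplexConjugate ContDiff

namespace Vale.Agent.P299.H531

open Vale.Agent.P300.L2 Vale.Agent.P300.L2.Sheets

variable {n N k N' : ℕ} {S : Sheets n N} {T : Sheets k N'} {ι : Fin k ↪ Fin n}
  {Φ : (Fin n → ℂ) × ℕ → (Fin k → ℂ) × ℕ} {p : (Fin n → ℂ) → ℝ}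
  {φ : (Fin n → ℂ) × ℕ → ℝ} {s : (Fin n → ℂ) × ℕ → ℂ}

/-- The weight of the norms `N_j`. -/
noncomputable def wj (ι : Fin k ↪ Fin n) (φ : (Fin n → ℂ) × ℕ → ℝ) (b j : ℕ)
    (q : (Fin n → ℂ) × ℕ) : ℝ := Real.exp (-φ q) ^ (j * b + 1) * (N1 ι q.1 ^ (k + 1))⁻¹

theorem wj_pos (b j : ℕ) (q : (Fin n → ℂ) × ℕ) : 0 < wj ι φ b j q := by
  unfold wj
  have := N1_pos (ι := ι) q.1
  positivity

theorem aemeas_wj (hφ : S.CD 2 (fun q => (φ q : ℂ))) (b j : ℕ) :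
    AEMeasurable (wj ι φ b j) S.μ := by
  unfold wj
  refine ((Real.measurable_exp.comp_aemeasurable (aemeas_φ hφ).neg).pow_const _).mul ?_
  have h1 : Continuous fun q : (Fin n → ℂ) × ℕ => N1 ι q.1 ^ (k + 1) := by unfold N1; fun_prop
  exact h1.measurable.inv.aemeasurable

/-- The functions of norm at most one. -/
def EJ (S : Sheets n N) (T : Sheets k N') (ι : Fin k ↪ Fin n)
    (Φ : (Fin n → ℂ) × ℕ → (Fin k → ℂ) × ℕ) (φ : (Fin n → ℂ) × ℕ → ℝ)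
    (s : (Fin n → ℂ) × ℕ → ℂ) (b j : ℕ) : Set ((Fin k → ℂ) × ℕ → ℂ) :=
  {f | T.Holo f ∧
    ∫⁻ q, ENNReal.ofReal (‖f (Φ q) * s q ^ j‖ ^ 2 * wj ι φ b j q) ∂S.μ ≤ 1}

theorem zero_mem_EJ (b j : ℕ) : (fun _ => (0 : ℂ)) ∈ EJ S T ι Φ φ s b j := by
  refine ⟨Holo.const 0, ?_⟩
  simp

open Classical in
/-- A point over `z'` near `z₁`. -/
noncomputable def lift (ι : Fin k ↪ Fin n) (z₁ : Fin n → ℂ) (z' : Fin k → ℂ) : Fin n → ℂ :=
  Function.extend ι z' z₁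

theorem pr_lift (z₁ : Fin n → ℂ) (z' : Fin k → ℂ) : pr ι (lift ι z₁ z') = z' := by
  funext i
  show Function.extend ι z' z₁ (ι i) = z' i
  exact ι.injective.extend_apply _ _ _

theorem dist_lift (z₁ : Fin n → ℂ) (z' : Fin k → ℂ) {δ : ℝ} (hδ : 0 < δ)
    (h : dist z' (pr ι z₁) < δ) : dist (lift ι z₁ z') z₁ < δ := by
  rw [dist_pi_lt_iff hδ]
  intro l
  by_cases hl : ∃ i, ι i = l
  · obtain ⟨i, rfl⟩ := hl
    have h1 : lift ι z₁ z' (ι i) = z' i := ι.injective.extend_apply _ _ _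
    rw [h1]
    exact (dist_le_pi_dist z' (pr ι z₁) i).trans_lt h
  · have h1 : lift ι z₁ z' l = z₁ l := Function.extend_apply' _ _ _ hl
    rw [h1, dist_self]
    exact hδ

theorem upper (D : Data S T ι Φ p φ s) {W : Set (Fin k → ℂ)} {σ : (Fin k → ℂ) → ℕ}
    (hσ : T.IsSection W σ) {a₁ : Fin k → ℂ} (ha₁ : a₁ ∈ W) {R₁ : ℝ} (hR₁ : 0 < R₁) (b : ℕ)
    (hex : ∃ q ∈ S.M, Φ q = (a₁, σ a₁) ∧ R₁ < ‖s q‖ ^ 2 * Real.exp (-φ q) ^ b) :
    ∃ C₁ : ℝ, 0 < C₁ ∧ ∀ᶠ z' in 𝓝 a₁, ∀ j, ∀ f ∈ EJ S T ι Φ φ s b j,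
      ‖f (z', σ z')‖ ^ 2 ≤ C₁ * (R₁⁻¹) ^ j := by
  obtain ⟨q₁, hq₁, hΦ₁, hR⟩ := hex
  have hF := D.fib
  obtain ⟨s₀, W₀, hs₀, z₁, hz₁, rfl⟩ := exists_section' hq₁
  have hpa : pr ι z₁ = a₁ := by rw [← hF.fst _ hq₁, hΦ₁]
  have hloc := hF.local_eq' hs₀ hz₁ hσ (by rw [hpa]; exact ha₁) (by rw [hΦ₁, hpa])
  have hφc : ContinuousAt (fun z => φ (z, s₀ z)) z₁ :=
    (CD.re_section D.φ_CD hs₀).continuousOn.continuousAt (hs₀.isOpen.mem_nhds hz₁)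
  have hsc : ContinuousAt (fun z => s (z, s₀ z)) z₁ :=
    (D.s_holo W₀ s₀ hs₀).continuousOn.continuousAt (hs₀.isOpen.mem_nhds hz₁)
  have hN1c : Continuous (N1 ι) := by unfold N1; fun_prop
  have e1 : ∀ᶠ z in 𝓝 z₁, R₁ < ‖s (z, s₀ z)‖ ^ 2 * Real.exp (-φ (z, s₀ z)) ^ b := by
    have hc : ContinuousAt (fun z => ‖s (z, s₀ z)‖ ^ 2 * Real.exp (-φ (z, s₀ z)) ^ b) z₁ :=
      (hsc.norm.pow 2).mul ((Real.continuous_exp.continuousAt.comp hφc.neg).pow b)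
    exact hc.eventually (lt_mem_nhds hR)
  have e2 : ∀ᶠ z in 𝓝 z₁, φ (z, s₀ z) < φ (z₁, s₀ z₁) + 1 :=
    hφc.eventually (gt_mem_nhds (by simp))
  have e3 : ∀ᶠ z in 𝓝 z₁, N1 ι z < N1 ι z₁ + 1 :=
    hN1c.continuousAt.eventually (gt_mem_nhds (by linarith))
  obtain ⟨ε, hε, hball⟩ := Metric.eventually_nhds_iff_ball.1 (hloc.and (e1.and (e2.and e3)))
  set δ : ℝ := ε / 2 with hδ
  have hδ0 : 0 < δ := by positivity
  have hN0 : 0 < N1 ι z₁ := N1_pos _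
  set c₀ : ℝ := Real.exp (-(φ (z₁, s₀ z₁) + 1)) * ((N1 ι z₁ + 1) ^ (k + 1))⁻¹ with hc₀
  have hc₀0 : 0 < c₀ := by positivity
  set v₀ : ℝ := (volume (ball (0 : Fin n → ℂ) δ)).toReal with hv₀
  have hvt : volume (ball (0 : Fin n → ℂ) δ) ≠ ⊤ := measure_ball_lt_top.ne
  have hv₀0 : 0 < v₀ := ENNReal.toReal_pos (measure_ball_pos _ _ hδ0).ne' hvt
  refine ⟨(c₀ * v₀)⁻¹, by positivity, ?_⟩
  filter_upwards [ball_mem_nhds a₁ hδ0] with z' hz' j f hf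
  obtain ⟨hfh, hfn⟩ := hf
  -- the point over `z'`
  set z := lift ι z₁ z' with hz
  have hzz : dist z z₁ < δ := dist_lift z₁ z' hδ0 (by rw [hpa]; exact hz')
  have hsub : ball z δ ⊆ ball z₁ ε := by
    intro w hw
    rw [mem_ball] at hw ⊢
    calc dist w z₁ ≤ dist w z + dist z z₁ := dist_triangle _ _ _
      _ < δ + δ := add_lt_add hw hzz
      _ = ε := by rw [hδ]; ring
  have hzε : z ∈ ball z₁ ε := hsub (mem_ball_self hδ0)
  have hfz : f (Φ (z, s₀ z)) = f (z', σ z') := by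
    rw [(hball z hzε).1.2.2, hz, pr_lift]
  have hmean := Vale.Agent.P271.H408.enorm_sq_mul_volume_le (f := fun w => f (Φ (w, s₀ w)))
    (z := z) (r := δ) ((hF.Holo hfh W₀ s₀ hs₀).mono fun w hw => (hball w (hsub hw)).1.1)
  simp only [hfz] at hmean
  -- the weighted integral over the ball
  have hm : AEMeasurable (fun q => ENNReal.ofReal (‖f (Φ q) * s q ^ j‖ ^ 2 * wj ι φ b j q)) S.μ := by
    have h1 : S.Holo (fun q => f (Φ q) * s q ^ j) := (hF.Holo hfh).mul (Holo.pow' D.s_holo j)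
    exact ((((aestronglyMeasurable_of_CD (h1.CD 0)).norm.pow 2).aemeasurable).mul
      (aemeas_wj D.φ_CD b j)).ennreal_ofReal
  have h1 := (section_le hm hs₀ (B := ball z δ) measurableSet_ball
    (fun w hw => (hball w (hsub hw)).1.1)).trans hfn
  have h2 : ENNReal.ofReal (c₀ * R₁ ^ j) * ∫⁻ w in ball z δ, ‖f (Φ (w, s₀ w))‖ₑ ^ 2 ≤ 1 := by
    rw [← lintegral_const_mul' _ _ ENNReal.ofReal_ne_top]
    refine le_trans (setLIntegral_mono' measurableSet_ball fun w hw => ?_) h1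
    obtain ⟨h3, h4, h5, h6⟩ := hball w (hsub hw)
    have hN : 0 < N1 ι w := N1_pos _
    rw [← ofReal_norm, ← ENNReal.ofReal_pow (norm_nonneg _), ← ENNReal.ofReal_mul (by positivity)]
    refine ENNReal.ofReal_le_ofReal ?_
    have e4 : ‖f (Φ (w, s₀ w)) * s (w, s₀ w) ^ j‖ ^ 2 * wj ι φ b j (w, s₀ w) =
        ((‖s (w, s₀ w)‖ ^ 2 * Real.exp (-φ (w, s₀ w)) ^ b) ^ j * (Real.exp (-φ (w, s₀ w)) *
          (N1 ι w ^ (k + 1))⁻¹)) * ‖f (Φ (w, s₀ w))‖ ^ 2 := by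
      have e5 : Real.exp (-φ (w, s₀ w)) ^ (j * b + 1) =
          (Real.exp (-φ (w, s₀ w)) ^ b) ^ j * Real.exp (-φ (w, s₀ w)) := by
        rw [pow_succ, mul_comm j b, pow_mul]
      unfold wj
      rw [e5, norm_mul, norm_pow]
      ring
    rw [e4]
    refine mul_le_mul_of_nonneg_right ?_ (sq_nonneg _)
    calc c₀ * R₁ ^ j = R₁ ^ j * (Real.exp (-(φ (z₁, s₀ z₁) + 1)) *
          ((N1 ι z₁ + 1) ^ (k + 1))⁻¹) := by rw [hc₀]; ring
      _ ≤ _ := by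
          gcongr
  -- conclusion
  have hvol : volume (ball z δ) = ENNReal.ofReal v₀ := by
    rw [hv₀, ENNReal.ofReal_toReal hvt]
    exact Measure.addHaar_ball_center _ _ _
  have h3 : ENNReal.ofReal (c₀ * R₁ ^ j) * (‖f (z', σ z')‖ₑ ^ 2 * volume (ball z δ)) ≤ 1 :=
    (mul_le_mul_right hmean _).trans h2
  rw [hvol, ← ofReal_norm, ← ENNReal.ofReal_pow (norm_nonneg _), ← ENNReal.ofReal_mul (by positivity),
    ← ENNReal.ofReal_mul (by positivity), ← ENNReal.ofReal_one,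
    ENNReal.ofReal_le_ofReal_iff zero_le_one] at h3
  rw [inv_pow, ← mul_inv, ← one_div, le_div_iff₀ (by positivity)]
  calc ‖f (z', σ z')‖ ^ 2 * (c₀ * v₀ * R₁ ^ j) = c₀ * R₁ ^ j * (‖f (z', σ z')‖ ^ 2 * v₀) := by ring
    _ ≤ 1 := h3

end Vale.Agent.P299.H531
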