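import Vale.Agent.P299.H465.Hor
import Vale.Agent.P299.H531.Upper
import Vale.Agent.P299.H531.Sup

/-! P299, step (5.2) (helper531): the sequence of plurisubharmonic functions on the base. -/

set_option linter.all false

open MeasureTheory Filter Topology Metric
open scoped ENNReal NNReal ComplexConjugate ContDiff

namespace Vale.Agent.P299.H531

open Vale.Agent.P300.L2 Vale.Agent.P300.L2.Sheets

variable {n N k N' : ℕ} {S : Sheets n N} {T : Sheets k N'} {ι : Fin k ↪ Fin n}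
  {Φ : (Fin n → ℂ) × ℕ → (Fin k → ℂ) × ℕ} {p : (Fin n → ℂ) → ℝ}
  {φ : (Fin n → ℂ) × ℕ → ℝ} {s : (Fin n → ℂ) × ℕ → ℂ}

theorem holoSing_of_exh {C : ℝ} {k0 : ℕ} (hp : Exh S.V p C k0) : HoloSing S p := by
  intro Φ hΦ hanti hgr hlevi s hs hsb a ha ham hab A hA0 hA
  obtain ⟨c, r, hc⟩ := hsb
  exact H465.holo_sing hp hΦ hanti hlevi hs
    (fun m j => H465.Fin2.of_poly hp (hgr m) ⟨c, r, fun q hq => hc q hq j⟩) a ha ham hab hA0 hA

/-- Holomorphic functions with finite weighted norm are pulled back from the base, up to the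
power of `s`. -/
def BaseProp (S : Sheets n N) (T : Sheets k N') (ι : Fin k ↪ Fin n)
    (Φ : (Fin n → ℂ) × ℕ → (Fin k → ℂ) × ℕ) (φ : (Fin n → ℂ) × ℕ → ℝ)
    (s : (Fin n → ℂ) × ℕ → ℂ) (b : ℕ) : Prop :=
  ∀ (j : ℕ) (F : (Fin n → ℂ) × ℕ → ℂ), S.Holo F →
    ∫⁻ q, ENNReal.ofReal (‖F q‖ ^ 2 * wj ι φ b j q) ∂S.μ < ⊤ →
    ∃ f : (Fin k → ℂ) × ℕ → ℂ, T.Holo f ∧ ∀ q ∈ S.M, F q = f (Φ q) * s q ^ j

/-- `ρ` is the supremum over the fibres. -/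
def FibSup (S : Sheets n N) (T : Sheets k N')
    (Φ : (Fin n → ℂ) × ℕ → (Fin k → ℂ) × ℕ) (φ : (Fin n → ℂ) × ℕ → ℝ)
    (s : (Fin n → ℂ) × ℕ → ℂ) (b : ℕ) (ρ : (Fin k → ℂ) × ℕ → ℝ) : Prop :=
  ∀ y ∈ T.M, IsLUB {x | ∃ q ∈ S.M, Φ q = y ∧ x = ‖s q‖ ^ 2 * Real.exp (-φ q) ^ b} (ρ y)

theorem FibSup.le {b : ℕ} {ρ : (Fin k → ℂ) × ℕ → ℝ} (h : FibSup S T Φ φ s b ρ)
    (hF : Fib S T ι Φ) {q : (Fin n → ℂ) × ℕ} (hq : q ∈ S.M) :
    ‖s q‖ ^ 2 * Real.exp (-φ q) ^ b ≤ ρ (Φ q) :=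
  (h _ (hF.maps q hq)).1 ⟨q, hq, rfl, rfl⟩

theorem FibSup.pos {b : ℕ} {ρ : (Fin k → ℂ) × ℕ → ℝ} (h : FibSup S T Φ φ s b ρ)
    (hF : Fib S T ι Φ) (hs0 : ∀ q ∈ S.M, s q ≠ 0) {y : (Fin k → ℂ) × ℕ} (hy : y ∈ T.M) :
    0 < ρ y := by
  obtain ⟨q, hq, rfl⟩ := hF.surj y hy
  refine lt_of_lt_of_le ?_ (h.le hF hq)
  have := norm_pos_iff.2 (hs0 q hq)
  positivity

section

variable {b : ℕ} {ρ g : (Fin k → ℂ) × ℕ → ℝ} {e C₁ : ℝ}

/-- Oscillation of `ρ` on small balls. -/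
theorem rho_osc (hρ : FibSup S T Φ φ s b ρ) (hF : Fib S T ι Φ) (hs0 : ∀ q ∈ S.M, s q ≠ 0)
    (he : 0 < e) (hcmp : ∀ y ∈ T.M, |e * Real.log (ρ y) - g y| ≤ C₁)
    {y y' : (Fin k → ℂ) × ℕ} (hy : y ∈ T.M) (hy' : y' ∈ T.M) (hgy : |g y - g y'| ≤ 1) :
    ρ y ≤ ρ y' * Real.exp ((1 + 2 * C₁) / e) := by
  have h1 := hρ.pos hF hs0 hy
  have h2 := hρ.pos hF hs0 hy'
  have h3 := abs_le.1 (hcmp y hy)
  have h4 := abs_le.1 (hcmp y' hy')
  have h5 := abs_le.1 hgy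
  have h6 : Real.log (ρ y) ≤ Real.log (ρ y') + (1 + 2 * C₁) / e := by
    have h7 : e * Real.log (ρ y) ≤ e * Real.log (ρ y') + (1 + 2 * C₁) := by
      linarith [h3.2, h4.1, h5.2]
    have h8 : Real.log (ρ y) ≤ (e * Real.log (ρ y') + (1 + 2 * C₁)) / e := by
      rw [le_div_iff₀ he]; linarith
    rw [add_div, mul_div_cancel_left₀ _ he.ne'] at h8
    exact h8
  rw [← Real.log_le_log_iff h1 (by positivity), Real.log_mul h2.ne' (Real.exp_pos _).ne',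
    Real.log_exp]
  exact h6

/-- The constant `L`. -/
noncomputable def LL (e C₁ : ℝ) : ℝ := 2 * Real.exp ((1 + 2 * C₁) / e)

theorem LL_pos : 0 < LL e C₁ := by unfold LL; positivity

theorem upper_local (D : Data S T ι Φ p φ s) (hs0 : ∀ q ∈ S.M, s q ≠ 0)
    (hρ : FibSup S T Φ φ s b ρ) (hg : T.CD 0 (fun y => (g y : ℂ)))
    (he : 0 < e) (hcmp : ∀ y ∈ T.M, |e * Real.log (ρ y) - g y| ≤ C₁) {a₀ : Fin k → ℂ}
    (ha₀ : a₀ ∈ T.V) :
    ∃ CU : ℝ, 0 < CU ∧ ∀ᶠ z in 𝓝 a₀, ∀ y ∈ T.M, y.1 = z → ∀ j, ∀ f ∈ EJ S T ι Φ φ s b j,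
      ‖f y‖ ^ 2 ≤ CU * (LL e C₁ / ρ y) ^ j := by
  obtain ⟨W, σ, hW, haW⟩ := sm_loc ha₀
  have hF := D.fib
  have key : ∀ i : Fin N', ∃ CU : ℝ, 0 < CU ∧ ∀ᶠ z in 𝓝 a₀, ∀ j, ∀ f ∈ EJ S T ι Φ φ s b j,
      ‖f (z, σ i z)‖ ^ 2 ≤ CU * (LL e C₁ / ρ (z, σ i z)) ^ j := by
    intro i
    have hσ := hW.sec i
    have hy₁ : (a₀, σ i a₀) ∈ T.M := hσ.mem_M haW
    have hρ₁ := hρ.pos hF hs0 hy₁
    have hex : ∃ q ∈ S.M, Φ q = (a₀, σ i a₀) ∧
        ρ (a₀, σ i a₀) / 2 < ‖s q‖ ^ 2 * Real.exp (-φ q) ^ b := by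
      by_contra hcon
      push Not at hcon
      have h1 : ρ (a₀, σ i a₀) ≤ ρ (a₀, σ i a₀) / 2 := by
        refine (hρ _ hy₁).2 ?_
        rintro x ⟨q, hq, hΦq, rfl⟩
        exact hcon q hq hΦq
      linarith
    obtain ⟨C, hC, hCe⟩ := upper D hσ haW (half_pos hρ₁) b hex
    refine ⟨C, hC, ?_⟩
    have hgc : ContinuousAt (fun z => g (z, σ i z)) a₀ := by
      have := (CD.re_section (m := 0) hg hσ).continuousOn
      exact this.continuousAt (hσ.isOpen.mem_nhds haW)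
    have h2 : ∀ᶠ z in 𝓝 a₀, |g (z, σ i z) - g (a₀, σ i a₀)| < 1 := by
      have h3 : ContinuousAt (fun z => |g (z, σ i z) - g (a₀, σ i a₀)|) a₀ :=
        (hgc.sub continuousAt_const).abs
      exact h3.eventually (gt_mem_nhds (by simp))
    filter_upwards [hCe, h2, hσ.isOpen.mem_nhds haW] with z h4 h5 h6 j f hf
    refine (h4 j f hf).trans ?_
    have hyz : (z, σ i z) ∈ T.M := hσ.mem_M h6
    have h7 := rho_osc hρ hF hs0 he hcmp hyz hy₁ h5.le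
    have h8 := hρ.pos hF hs0 hyz
    gcongr
    rw [inv_div, div_le_div_iff₀ hρ₁ h8]
    unfold LL
    calc 2 * ρ (z, σ i z) ≤ 2 * (ρ (a₀, σ i a₀) * Real.exp ((1 + 2 * C₁) / e)) := by gcongr
      _ = _ := by ring
  choose CU hCU hCe using key
  refine ⟨1 + ∑ i, CU i, ?_, ?_⟩
  · have : 0 ≤ ∑ i, CU i := Finset.sum_nonneg fun i _ => (hCU i).le
    linarith
  · filter_upwards [eventually_all.2 hCe, hW.isOpen.mem_nhds haW] with z h1 h2 y hy hyz j f hf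
    subst hyz
    have h3 := hy.2
    rw [hW.fib y.1 h2, Finset.mem_image] at h3
    obtain ⟨i, -, hi⟩ := h3
    have hyi : y = (y.1, σ i y.1) := Prod.ext rfl hi.symm
    have h4 := h1 i j f hf
    rw [← hyi] at h4
    refine h4.trans ?_
    have h5 : 0 < LL e C₁ / ρ y := div_pos LL_pos (hρ.pos hF hs0 hy)
    gcongr
    have h6 := Finset.single_le_sum (f := CU) (fun i _ => (hCU i).le) (Finset.mem_univ i)
    linarith

theorem lower_local (D : Data S T ι Φ p φ s) (hH : HoloSing S p) (hk : 0 < k)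
    (hs0 : ∀ q ∈ S.M, s q ≠ 0) (hI : ∫⁻ q, ENNReal.ofReal (Real.exp (-φ q)) ∂S.μ < ⊤)
    (hB : BaseProp S T ι Φ φ s b)
    (hρ : FibSup S T Φ φ s b ρ) (hg : T.CD 0 (fun y => (g y : ℂ)))
    (he : 0 < e) (hcmp : ∀ y ∈ T.M, |e * Real.log (ρ y) - g y| ≤ C₁) {a₀ : Fin k → ℂ}
    (ha₀ : a₀ ∈ T.V) :
    ∃ cU : ℝ, 0 < cU ∧ ∀ᶠ z in 𝓝 a₀, ∀ y ∈ T.M, y.1 = z → ∀ j, ∃ f ∈ EJ S T ι Φ φ s b j,
      cU * ((ρ y * LL e C₁)⁻¹) ^ j ≤ ‖f y‖ ^ 2 := by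
  obtain ⟨W, σ, hW, haW⟩ := sm_loc ha₀
  have hF := D.fib
  set I : ℝ := (∫⁻ q, ENNReal.ofReal (Real.exp (-φ q)) ∂S.μ).toReal + 1 with hIdef
  have hI0 : 0 < I := by positivity
  have hI1 : ∫⁻ q, ENNReal.ofReal (Real.exp (-φ q)) ∂S.μ ≤ ENNReal.ofReal I := by
    rw [← ENNReal.ofReal_toReal hI.ne]
    exact ENNReal.ofReal_le_ofReal (by rw [hIdef]; linarith)
  have hgc : ∀ i : Fin N', ContinuousAt (fun z => g (z, σ i z)) a₀ := by
    intro i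
    have := (CD.re_section (m := 0) hg (hW.sec i)).continuousOn
    exact this.continuousAt (hW.isOpen.mem_nhds haW)
  have h2 : ∀ᶠ z in 𝓝 a₀, z ∈ W ∧ ∀ i : Fin N', |g (z, σ i z) - g (a₀, σ i a₀)| < 1 / 2 := by
    have hWn : ∀ᶠ z in 𝓝 a₀, z ∈ W := hW.isOpen.mem_nhds haW
    refine hWn.and (eventually_all.2 fun i => ?_)
    have h3 : ContinuousAt (fun z => |g (z, σ i z) - g (a₀, σ i a₀)|) a₀ :=
      ((hgc i).sub continuousAt_const).abs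
    exact h3.eventually (gt_mem_nhds (by simp))
  obtain ⟨ε, hε, hball⟩ := Metric.eventually_nhds_iff_ball.1 h2
  set r : ℝ := ε / 3 with hr
  have hr0 : 0 < r := by positivity
  obtain ⟨C₀, hC₀, hext⟩ := extend (R := ‖a₀‖ + r) D hH hk hr0
  refine ⟨(C₀ * I)⁻¹, by positivity, ?_⟩
  filter_upwards [ball_mem_nhds a₀ hr0] with a ha y hy hya j
  subst hya
  have hsub : closedBall y.1 r ⊆ ball a₀ ε := by
    intro w hw
    rw [mem_closedBall] at hw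
    rw [mem_ball] at ha ⊢
    calc dist w a₀ ≤ dist w y.1 + dist y.1 a₀ := dist_triangle _ _ _
      _ < r + r := add_lt_add_of_le_of_lt hw ha
      _ < ε := by rw [hr]; linarith
  have hyW : y.1 ∈ W := (hball y.1 (hsub (mem_closedBall_self hr0.le))).1
  have h3 := hy.2
  rw [hW.fib y.1 hyW, Finset.mem_image] at h3
  obtain ⟨i, -, hi⟩ := h3
  have hyi : y = (y.1, σ i y.1) := Prod.ext rfl hi.symm
  have hσ := hW.sec i
  have hρy := hρ.pos hF hs0 hy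
  have hL := LL_pos (e := e) (C₁ := C₁)
  have hnorm : ‖y.1‖ ≤ ‖a₀‖ + r := by
    rw [mem_ball, dist_eq_norm] at ha
    calc ‖y.1‖ = ‖a₀ + (y.1 - a₀)‖ := by congr 1; abel
      _ ≤ ‖a₀‖ + ‖y.1 - a₀‖ := norm_add_le _ _
      _ ≤ ‖a₀‖ + r := by linarith
  obtain ⟨F, hFh, hFv, hFn⟩ := hext y.1 hnorm W (σ i) hσ
    (fun w hw => (hball w (hsub hw)).1) b (ρ y * LL e C₁) I (by positivity) hI0 (by
      intro q hq hq1 hq2
      refine (hρ.le hF hq).trans ?_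
      have hq3 : Φ q = ((Φ q).1, σ i (Φ q).1) := Prod.ext rfl hq2
      have h4 : |g (Φ q) - g y| ≤ 1 := by
        have h5 := (hball _ (hsub hq1)).2 i
        have h6 := (hball _ (hsub (mem_closedBall_self hr0.le))).2 i
        rw [← hq3] at h5
        rw [← hyi] at h6
        rw [abs_lt] at h5 h6
        rw [abs_le]
        constructor <;> linarith [h5.1, h5.2, h6.1, h6.2]
      refine (rho_osc hρ hF hs0 he hcmp (hF.maps q hq) hy h4).trans ?_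
      gcongr
      unfold LL
      have := Real.exp_pos ((1 + 2 * C₁) / e)
      linarith) hI1 j
  have hQ0 : 0 < ρ y * LL e C₁ := by positivity
  set K₀ : ℝ := C₀ * (ρ y * LL e C₁) ^ j * I with hK₀
  have hK₀0 : 0 < K₀ := by positivity
  obtain ⟨f, hfh, hfe⟩ := hB j F hFh (lt_of_le_of_lt hFn ENNReal.ofReal_lt_top)
  have hfy : f y = 1 := by
    obtain ⟨q, hq, hΦq⟩ := hF.surj y hy
    have h4 := hFv q hq (by rw [hΦq]; exact hyi)
    have h5 := hfe q hq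
    rw [h4, hΦq] at h5
    have h6 : s q ^ j ≠ 0 := pow_ne_zero _ (hs0 q hq)
    have h7 : (1 : ℂ) * s q ^ j = f y * s q ^ j := by rw [one_mul]; exact h5
    exact (mul_right_cancel₀ h6 h7).symm
  have hsq : Real.sqrt K₀ ^ 2 = K₀ := Real.sq_sqrt hK₀0.le
  have hsq0 : 0 < Real.sqrt K₀ := Real.sqrt_pos.2 hK₀0
  refine ⟨fun y => (((Real.sqrt K₀)⁻¹ : ℝ) : ℂ) * f y, ⟨(Holo.const _).mul hfh, ?_⟩, ?_⟩
  · have h4 : ∫⁻ q, ENNReal.ofReal (‖((((Real.sqrt K₀)⁻¹ : ℝ) : ℂ) * f (Φ q)) * s q ^ j‖ ^ 2 *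
        wj ι φ b j q) ∂S.μ = ENNReal.ofReal (K₀⁻¹) *
        ∫⁻ q, ENNReal.ofReal (‖F q‖ ^ 2 * (Real.exp (-φ q) ^ (j * b + 1) *
          (N1 ι q.1 ^ (k + 1))⁻¹)) ∂S.μ := by
      rw [← lintegral_const_mul' _ _ ENNReal.ofReal_ne_top]
      refine lintegral_congr_ae ?_
      filter_upwards [ae_mem_M (S := S)] with q hq
      rw [← ENNReal.ofReal_mul (by positivity), hfe q hq, mul_assoc, norm_mul, mul_pow,
        Complex.norm_real, Real.norm_eq_abs, sq_abs, inv_pow, hsq]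
      congr 1
      unfold wj
      ring
    show ∫⁻ q, ENNReal.ofReal (‖((((Real.sqrt K₀)⁻¹ : ℝ) : ℂ) * f (Φ q)) * s q ^ j‖ ^ 2 *
        wj ι φ b j q) ∂S.μ ≤ 1
    rw [h4]
    calc _ ≤ ENNReal.ofReal (K₀⁻¹) * ENNReal.ofReal K₀ := by gcongr
      _ = 1 := by
          rw [← ENNReal.ofReal_mul (by positivity), inv_mul_cancel₀ hK₀0.ne', ENNReal.ofReal_one]
  · show (C₀ * I)⁻¹ * ((ρ y * LL e C₁)⁻¹) ^ j ≤ ‖(((Real.sqrt K₀)⁻¹ : ℝ) : ℂ) * f y‖ ^ 2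
    rw [hfy, mul_one, Complex.norm_real, Real.norm_eq_abs, sq_abs, inv_pow (Real.sqrt K₀), hsq,
      hK₀, inv_pow, ← mul_inv]
    refine le_of_eq ?_
    congr 1
    ring

theorem upper_compact (D : Data S T ι Φ p φ s) (hs0 : ∀ q ∈ S.M, s q ≠ 0)
    (hρ : FibSup S T Φ φ s b ρ) (hg : T.CD 0 (fun y => (g y : ℂ)))
    (he : 0 < e) (hcmp : ∀ y ∈ T.M, |e * Real.log (ρ y) - g y| ≤ C₁) {K : Set (Fin k → ℂ)}
    (hK : IsCompact K) (hKV : K ⊆ T.V) :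
    ∃ CU : ℝ, 0 < CU ∧ ∀ y ∈ T.M, y.1 ∈ K → ∀ j, ∀ f ∈ EJ S T ι Φ φ s b j,
      ‖f y‖ ^ 2 ≤ CU * (LL e C₁ / ρ y) ^ j := by
  refine hK.induction_on (p := fun K => ∃ CU : ℝ, 0 < CU ∧ ∀ y ∈ T.M, y.1 ∈ K → ∀ j,
    ∀ f ∈ EJ S T ι Φ φ s b j, ‖f y‖ ^ 2 ≤ CU * (LL e C₁ / ρ y) ^ j) ?_ ?_ ?_ ?_
  · exact ⟨1, one_pos, fun y _ h => absurd h (Set.notMem_empty _)⟩
  · rintro s t hst ⟨B, hB0, hB⟩
    exact ⟨B, hB0, fun y hy h => hB y hy (hst h)⟩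
  · rintro s t ⟨B, hB0, hB⟩ ⟨B', hB0', hB'⟩
    refine ⟨max B B', lt_max_of_lt_left hB0, fun y hy h j f hf => ?_⟩
    have h5 : 0 < LL e C₁ / ρ y := div_pos LL_pos (hρ.pos D.fib hs0 hy)
    rcases h with h | h
    · refine (hB y hy h j f hf).trans ?_
      gcongr
      exact le_max_left _ _
    · refine (hB' y hy h j f hf).trans ?_
      gcongr
      exact le_max_right _ _
  · intro a₀ ha₀
    obtain ⟨CU, hCU, h⟩ := upper_local D hs0 hρ hg he hcmp (hKV ha₀)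
    exact ⟨_, mem_nhdsWithin_of_mem_nhds h, CU, hCU, fun y hy hyz => hyz y hy rfl⟩

theorem lower_compact (D : Data S T ι Φ p φ s) (hH : HoloSing S p) (hk : 0 < k)
    (hs0 : ∀ q ∈ S.M, s q ≠ 0) (hI : ∫⁻ q, ENNReal.ofReal (Real.exp (-φ q)) ∂S.μ < ⊤)
    (hB : BaseProp S T ι Φ φ s b)
    (hρ : FibSup S T Φ φ s b ρ) (hg : T.CD 0 (fun y => (g y : ℂ)))
    (he : 0 < e) (hcmp : ∀ y ∈ T.M, |e * Real.log (ρ y) - g y| ≤ C₁) {K : Set (Fin k → ℂ)}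
    (hK : IsCompact K) (hKV : K ⊆ T.V) :
    ∃ cU : ℝ, 0 < cU ∧ ∀ y ∈ T.M, y.1 ∈ K → ∀ j, ∃ f ∈ EJ S T ι Φ φ s b j,
      cU * ((ρ y * LL e C₁)⁻¹) ^ j ≤ ‖f y‖ ^ 2 := by
  refine hK.induction_on (p := fun K => ∃ cU : ℝ, 0 < cU ∧ ∀ y ∈ T.M, y.1 ∈ K → ∀ j,
    ∃ f ∈ EJ S T ι Φ φ s b j, cU * ((ρ y * LL e C₁)⁻¹) ^ j ≤ ‖f y‖ ^ 2) ?_ ?_ ?_ ?_
  · exact ⟨1, one_pos, fun y _ h => absurd h (Set.notMem_empty _)⟩
  · rintro s t hst ⟨B, hB0, hB⟩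
    exact ⟨B, hB0, fun y hy h => hB y hy (hst h)⟩
  · rintro s t ⟨B, hB0, hB⟩ ⟨B', hB0', hB'⟩
    refine ⟨min B B', lt_min hB0 hB0', fun y hy h j => ?_⟩
    have hρy := hρ.pos D.fib hs0 hy
    have hL := LL_pos (e := e) (C₁ := C₁)
    rcases h with h | h
    · obtain ⟨f, hf, hfl⟩ := hB y hy h j
      refine ⟨f, hf, le_trans ?_ hfl⟩
      gcongr
      exact min_le_left _ _
    · obtain ⟨f, hf, hfl⟩ := hB' y hy h j
      refine ⟨f, hf, le_trans ?_ hfl⟩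
      gcongr
      exact min_le_right _ _
  · intro a₀ ha₀
    obtain ⟨CU, hCU, h⟩ := lower_local D hH hk hs0 hI hB hρ hg he hcmp (hKV ha₀)
    exact ⟨_, mem_nhdsWithin_of_mem_nhds h, CU, hCU, fun y hy hyz => hyz y hy rfl⟩

/-- **Step (5.2).** There is a sequence of plurisubharmonic functions on the base which on compact
sets is finally comparable with `-g / e`, with a uniform constant. -/
theorem psh_seq {C : ℝ} {k0 : ℕ} (hp : Exh S.V p C k0) (D : Data S T ι Φ p φ s) (hk : 0 < k)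
    (hs0 : ∀ q ∈ S.M, s q ≠ 0) (hI : ∫⁻ q, ENNReal.ofReal (Real.exp (-φ q)) ∂S.μ < ⊤)
    (hB : BaseProp S T ι Φ φ s b)
    (hρ : FibSup S T Φ φ s b ρ) (hg : T.CD 0 (fun y => (g y : ℂ)))
    (he : 0 < e) (hcmp : ∀ y ∈ T.M, |e * Real.log (ρ y) - g y| ≤ C₁) :
    ∃ (u : ℕ → (Fin k → ℂ) × ℕ → ℝ) (C' : ℝ), (∀ j, AEMeasurable (u j) T.μ) ∧
      (∀ j, ∀ K : Set (Fin k → ℂ), IsCompact K → K ⊆ T.V →
        ∃ B : ℝ, ∀ y ∈ T.M, y.1 ∈ K → |u j y| ≤ B) ∧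
      (∀ j, DPsh T (u j)) ∧
      (∀ K : Set (Fin k → ℂ), IsCompact K → K ⊆ T.V →
        ∃ j₀ : ℕ, ∀ j ≥ j₀, ∀ y ∈ T.M, y.1 ∈ K → |e * u j y + g y| ≤ C') := by
  have hF := D.fib
  have hH : HoloSing S p := holoSing_of_exh hp
  have hL := LL_pos (e := e) (C₁ := C₁)
  have hfam : ∀ j : ℕ, ∃ f : ℕ → (Fin k → ℂ) × ℕ → ℂ, (∀ i, f i ∈ EJ S T ι Φ φ s b (j + 1)) ∧
      ∀ y ∈ T.M, ∀ g ∈ EJ S T ι Φ φ s b (j + 1), ∀ c : ℝ, c < ‖g y‖ ^ 2 → ∃ i, c < ‖f i y‖ ^ 2 :=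
    fun j => exists_countable_sup T _ (fun f hf => hf.1.CD 0) ⟨_, zero_mem_EJ b (j + 1)⟩
  choose f hf hfs using hfam
  -- bounds over compact sets
  have hub : ∀ K : Set (Fin k → ℂ), IsCompact K → K ⊆ T.V → ∃ CU : ℝ, 0 < CU ∧
      ∀ y ∈ T.M, y.1 ∈ K → ∀ j i, ‖f j i y‖ ^ 2 ≤ CU * (LL e C₁ / ρ y) ^ (j + 1) := by
    intro K hK hKV
    obtain ⟨CU, hCU, h⟩ := upper_compact D hs0 hρ hg he hcmp hK hKV
    exact ⟨CU, hCU, fun y hy hyK j i => h y hy hyK (j + 1) _ (hf j i)⟩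
  have hρb : ∀ K : Set (Fin k → ℂ), IsCompact K → K ⊆ T.V → ∃ B : ℝ, 0 < B ∧
      ∀ y ∈ T.M, y.1 ∈ K → B⁻¹ ≤ ρ y ∧ ρ y ≤ B := by
    intro K hK hKV
    obtain ⟨G, hG⟩ := exists_bound hg hK hKV
    refine ⟨Real.exp ((G + C₁) / e), Real.exp_pos _, fun y hy hyK => ?_⟩
    have h1 := hG y hy hyK
    rw [Complex.norm_real, Real.norm_eq_abs] at h1
    have h2 := abs_le.1 h1
    have h3 := abs_le.1 (hcmp y hy)
    have h4 := hρ.pos hF hs0 hy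
    have h5 : -((G + C₁) / e) ≤ Real.log (ρ y) := by
      rw [← neg_div, div_le_iff₀ he]; linarith [h3.1, h2.1]
    have h6 : Real.log (ρ y) ≤ (G + C₁) / e := by
      rw [le_div_iff₀ he]; linarith [h3.2, h2.2]
    rw [← Real.exp_neg]
    constructor
    · calc Real.exp (-((G + C₁) / e)) ≤ Real.exp (Real.log (ρ y)) := Real.exp_le_exp.2 h5
        _ = ρ y := Real.exp_log h4
    · calc ρ y = Real.exp (Real.log (ρ y)) := (Real.exp_log h4).symm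
        _ ≤ _ := Real.exp_le_exp.2 h6
  have hub' : ∀ j, ∀ K : Set (Fin k → ℂ), IsCompact K → K ⊆ T.V →
      ∃ C : ℝ, ∀ y ∈ T.M, y.1 ∈ K → ∀ i, ‖f j i y‖ ^ 2 ≤ C := by
    intro j K hK hKV
    obtain ⟨CU, hCU, h⟩ := hub K hK hKV
    obtain ⟨B, hB0, hB'⟩ := hρb K hK hKV
    refine ⟨CU * (LL e C₁ * B) ^ (j + 1), fun y hy hyK i => (h y hy hyK j i).trans ?_⟩
    have h4 := hρ.pos hF hs0 hy
    gcongr
    rw [div_le_iff₀ h4, mul_assoc]
    have h5 := (hB' y hy hyK).1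
    calc LL e C₁ = LL e C₁ * (B * B⁻¹) := by rw [mul_inv_cancel₀ hB0.ne', mul_one]
      _ ≤ LL e C₁ * (B * ρ y) := by gcongr
  have hsup_le : ∀ K : Set (Fin k → ℂ), IsCompact K → K ⊆ T.V → ∃ CU : ℝ, 0 < CU ∧
      ∀ y ∈ T.M, y.1 ∈ K → ∀ j, supF (f j) y ≤ CU * (LL e C₁ / ρ y) ^ (j + 1) := by
    intro K hK hKV
    obtain ⟨CU, hCU, h⟩ := hub K hK hKV
    exact ⟨CU, hCU, fun y hy hyK j => supF_le (h y hy hyK j)⟩
  have hsup_ge : ∀ K : Set (Fin k → ℂ), IsCompact K → K ⊆ T.V → ∃ cU : ℝ, 0 < cU ∧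
      ∀ y ∈ T.M, y.1 ∈ K → ∀ j, cU * ((ρ y * LL e C₁)⁻¹) ^ (j + 1) ≤ supF (f j) y := by
    intro K hK hKV
    obtain ⟨cU, hcU, h⟩ := lower_compact D hH hk hs0 hI hB hρ hg he hcmp hK hKV
    refine ⟨cU, hcU, fun y hy hyK j => ?_⟩
    obtain ⟨f₀, hf₀, hfl⟩ := h y hy hyK (j + 1)
    refine hfl.trans (le_of_forall_lt fun c hc => ?_)
    obtain ⟨i, hi⟩ := hfs j y hy f₀ hf₀ c hc
    obtain ⟨C', hC'⟩ := bound_of_compact (hub' j) hy
    exact hi.trans_le (le_supF hC' i)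
  have hlb' : ∀ j, ∀ K : Set (Fin k → ℂ), IsCompact K → K ⊆ T.V →
      ∃ c : ℝ, 0 < c ∧ ∀ y ∈ T.M, y.1 ∈ K → c ≤ supF (f j) y := by
    intro j K hK hKV
    obtain ⟨cU, hcU, h⟩ := hsup_ge K hK hKV
    obtain ⟨B, hB0, hB'⟩ := hρb K hK hKV
    refine ⟨cU * ((B * LL e C₁)⁻¹) ^ (j + 1), by positivity, fun y hy hyK =>
      le_trans ?_ (h y hy hyK j)⟩
    have h4 := hρ.pos hF hs0 hy
    have h5 := (hB' y hy hyK).2
    gcongr
  refine ⟨fun j y => (1 / ((j : ℝ) + 1)) * Real.log (supF (f j) y),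
    1 + e * |Real.log (LL e C₁)| + C₁, ?_, ?_, ?_, ?_⟩
  · intro j
    exact (Real.measurable_log.comp_aemeasurable
      (aemeas_supF (fun i => (hf j i).1) (hub' j))).const_mul _
  · intro j K hK hKV
    obtain ⟨c, hc, hcl⟩ := hlb' j K hK hKV
    obtain ⟨C', hC'⟩ := hub' j K hK hKV
    refine ⟨(1 / ((j : ℝ) + 1)) * max (Real.log C') (-Real.log c), fun y hy hyK => ?_⟩
    rw [abs_mul, abs_of_pos (show (0 : ℝ) < 1 / ((j : ℝ) + 1) by positivity)]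
    have h1 := hcl y hy hyK
    have h2 : supF (f j) y ≤ C' := supF_le (hC' y hy hyK)
    have h3 : 0 < supF (f j) y := hc.trans_le h1
    gcongr
    rw [abs_le]
    constructor
    · have h5 : Real.log c ≤ Real.log (supF (f j) y) := Real.log_le_log hc h1
      have := le_max_right (Real.log C') (-Real.log c)
      linarith
    · exact (Real.log_le_log h3 h2).trans (le_max_left _ _)
  · intro j
    exact DPsh.smul (supF_dpsh (fun i => (hf j i).1) (hub' j) (hlb' j)) (by positivity)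
  · intro K hK hKV
    obtain ⟨CU, hCU, hU⟩ := hsup_le K hK hKV
    obtain ⟨cU, hcU, hl⟩ := hsup_ge K hK hKV
    obtain ⟨j₀, hj₀⟩ := exists_nat_ge (e * (|Real.log CU| + |Real.log cU|))
    refine ⟨j₀, fun j hj y hy hyK => ?_⟩
    have hρy := hρ.pos hF hs0 hy
    have hJ : (0 : ℝ) < (j : ℝ) + 1 := by positivity
    have h3 := abs_le.1 (hcmp y hy)
    have hjj : e * (|Real.log CU| + |Real.log cU|) ≤ (j : ℝ) + 1 := by
      have : (j₀ : ℝ) ≤ j := by exact_mod_cast hj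
      linarith
    have h1 := hU y hy hyK j
    have h2 := hl y hy hyK j
    have h0 : 0 < cU * ((ρ y * LL e C₁)⁻¹) ^ (j + 1) := by positivity
    have hs : 0 < supF (f j) y := h0.trans_le h2
    have h5 : Real.log (supF (f j) y) ≤
        Real.log CU + ((j : ℝ) + 1) * (Real.log (LL e C₁) - Real.log (ρ y)) := by
      refine (Real.log_le_log hs h1).trans (le_of_eq ?_)
      rw [Real.log_mul hCU.ne' (by positivity), Real.log_pow, Real.log_div hL.ne' hρy.ne']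
      push_cast
      ring
    have h6 : Real.log cU - ((j : ℝ) + 1) * (Real.log (LL e C₁) + Real.log (ρ y)) ≤
        Real.log (supF (f j) y) := by
      refine le_trans (le_of_eq ?_) (Real.log_le_log h0 h2)
      rw [Real.log_mul hcU.ne' (by positivity), Real.log_pow, Real.log_inv,
        Real.log_mul hρy.ne' hL.ne']
      push_cast
      ring
    have hL1 := le_abs_self (Real.log (LL e C₁))
    have hc1 := le_abs_self (Real.log CU)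
    have hc2 := neg_abs_le (Real.log cU)
    have hca := abs_nonneg (Real.log CU)
    have hcb := abs_nonneg (Real.log cU)
    have h7 : e * ((1 / ((j : ℝ) + 1)) * Real.log (supF (f j) y)) ≤
        1 + e * (|Real.log (LL e C₁)| - Real.log (ρ y)) := by
      have h8 : (1 / ((j : ℝ) + 1)) * Real.log (supF (f j) y) ≤
          (1 / ((j : ℝ) + 1)) * |Real.log CU| + (|Real.log (LL e C₁)| - Real.log (ρ y)) := by
        calc _ ≤ (1 / ((j : ℝ) + 1)) * (|Real.log CU| + ((j : ℝ) + 1) *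
              (|Real.log (LL e C₁)| - Real.log (ρ y))) := by
              gcongr
              refine h5.trans ?_
              gcongr
          _ = _ := by field_simp
      have h9 : e * ((1 / ((j : ℝ) + 1)) * |Real.log CU|) ≤ 1 := by
        rw [← mul_assoc, mul_comm e, mul_assoc, one_div, inv_mul_le_iff₀ hJ]
        nlinarith
      nlinarith
    have h10 : -1 - e * (|Real.log (LL e C₁)| + Real.log (ρ y)) ≤
        e * ((1 / ((j : ℝ) + 1)) * Real.log (supF (f j) y)) := by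
      have h8 : -((1 / ((j : ℝ) + 1)) * |Real.log cU|) - (|Real.log (LL e C₁)| + Real.log (ρ y)) ≤
          (1 / ((j : ℝ) + 1)) * Real.log (supF (f j) y) := by
        calc _ = (1 / ((j : ℝ) + 1)) * (-|Real.log cU| - ((j : ℝ) + 1) *
              (|Real.log (LL e C₁)| + Real.log (ρ y))) := by field_simp
          _ ≤ _ := by
              gcongr
              refine le_trans ?_ h6
              have : ((j : ℝ) + 1) * (Real.log (LL e C₁) + Real.log (ρ y)) ≤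
                  ((j : ℝ) + 1) * (|Real.log (LL e C₁)| + Real.log (ρ y)) := by gcongr
              linarith
      have h9 : e * ((1 / ((j : ℝ) + 1)) * |Real.log cU|) ≤ 1 := by
        rw [← mul_assoc, mul_comm e, mul_assoc, one_div, inv_mul_le_iff₀ hJ]
        nlinarith
      nlinarith
    rw [abs_le]
    constructor
    · show -(1 + e * |Real.log (LL e C₁)| + C₁) ≤
        e * ((1 / ((j : ℝ) + 1)) * Real.log (supF (f j) y)) + g y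
      nlinarith [h3.1, h3.2]
    · show e * ((1 / ((j : ℝ) + 1)) * Real.log (supF (f j) y)) + g y ≤
        1 + e * |Real.log (LL e C₁)| + C₁
      nlinarith [h3.1, h3.2]

end

end Vale.Agent.P299.H531
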