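import Vale.Agent.P299.H531.Fib

/-! P299, step (5.2) (helper531): functions on a cover which are plurisubharmonic in the sense of
distributions; logarithms of suprema of holomorphic functions. -/

set_option linter.all false

open MeasureTheory Filter Topology Metric
open scoped ENNReal NNReal ComplexConjugate ContDiff

namespace Vale.Agent.P299.H531

open Vale.Agent.P300.L2 Vale.Agent.P300.L2.Sheets

variable {k N' : ℕ} {T : Sheets k N'}

/-- The complex Levi form. -/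
noncomputable def leviC (T : Sheets k N') (κ : (Fin k → ℂ) × ℕ → ℂ) (β : Fin k → ℂ)
    (y : (Fin k → ℂ) × ℕ) : ℂ := ∑ j, ∑ l, T.D j (T.Db l κ) y * β j * conj (β l)

theorem levi_eq (κ : (Fin k → ℂ) × ℕ → ℝ) (β : Fin k → ℂ) (y : (Fin k → ℂ) × ℕ) :
    T.levi κ β y = (leviC T (fun y => (κ y : ℂ)) β y).re := rfl

theorem leviC_CD {κ : (Fin k → ℂ) × ℕ → ℂ} (hκ : T.CD 2 κ) (β : Fin k → ℂ) :
    T.CD 0 (leviC T κ β) := by
  unfold leviC
  refine CD.sum _ fun j _ => CD.sum _ fun l _ => ?_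
  exact ((CD.D (m := 0) (CD.Db (m := 1) hκ)).mul (CD.const _)).mul (CD.const _)

theorem Db_zero_off' {κ : (Fin k → ℂ) × ℕ → ℂ} {K : Set (Fin k → ℂ)} (hK : IsClosed K)
    (hκ : ∀ y : (Fin k → ℂ) × ℕ, y.1 ∉ K → κ y = 0) (l : Fin k) :
    ∀ y : (Fin k → ℂ) × ℕ, y.1 ∉ K → T.Db l κ y = 0 := by
  intro y hy
  have h1 : (fun z => κ (z, T.sec y z)) =ᶠ[𝓝 y.1] fun _ => 0 := by
    filter_upwards [hK.isOpen_compl.mem_nhds hy] with z hz
    exact hκ _ hz
  show dzb l (fun z => κ (z, T.sec y z)) y.1 = 0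
  rw [dzb_congr h1, dzb_const]

theorem D_zero_off' {κ : (Fin k → ℂ) × ℕ → ℂ} {K : Set (Fin k → ℂ)} (hK : IsClosed K)
    (hκ : ∀ y : (Fin k → ℂ) × ℕ, y.1 ∉ K → κ y = 0) (l : Fin k) :
    ∀ y : (Fin k → ℂ) × ℕ, y.1 ∉ K → T.D l κ y = 0 := by
  intro y hy
  have h1 : (fun z => κ (z, T.sec y z)) =ᶠ[𝓝 y.1] fun _ => 0 := by
    filter_upwards [hK.isOpen_compl.mem_nhds hy] with z hz
    exact hκ _ hz
  show dz l (fun z => κ (z, T.sec y z)) y.1 = 0
  rw [dz_congr h1, dz_const]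

theorem leviC_zero_off {κ : (Fin k → ℂ) × ℕ → ℂ} {K : Set (Fin k → ℂ)} (hK : IsClosed K)
    (hκ : ∀ y : (Fin k → ℂ) × ℕ, y.1 ∉ K → κ y = 0) (β : Fin k → ℂ) :
    ∀ y : (Fin k → ℂ) × ℕ, y.1 ∉ K → leviC T κ β y = 0 := by
  intro y hy
  unfold leviC
  refine Finset.sum_eq_zero fun j _ => Finset.sum_eq_zero fun l _ => ?_
  rw [D_zero_off' hK (Db_zero_off' hK hκ l) j y hy, zero_mul, zero_mul]

theorem leviC_supp {κ : (Fin k → ℂ) × ℕ → ℂ} (hκ : T.Supp κ) (β : Fin k → ℂ) :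
    T.Supp (leviC T κ β) := by
  obtain ⟨K, hK, hKV, h0⟩ := hκ
  exact ⟨K, hK, hKV, leviC_zero_off hK.isClosed h0 β⟩

/-- Integration by parts, twice. -/
theorem integral_leviC {v κ : (Fin k → ℂ) × ℕ → ℂ} (hv : T.CD 2 v) (hκ : T.IsTest κ)
    (β : Fin k → ℂ) :
    ∫ y, v y * leviC T κ β y ∂T.μ = ∫ y, leviC T v β y * κ y ∂T.μ := by
  have hκ2 := hκ.1
  have hκs := hκ.2
  have hterm : ∀ j l, ∫ y, v y * T.D j (T.Db l κ) y ∂T.μ =
      ∫ y, T.D j (T.Db l v) y * κ y ∂T.μ := by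
    intro j l
    rw [integral_mul_D (hv.mono one_le_two) (CD.Db (m := 1) hκ2) (sm_supp_Db hκs),
      integral_mul_Db (CD.D (m := 1) hv) (hκ2.mono one_le_two) hκs, neg_neg]
    refine integral_congr_ae ?_
    filter_upwards [ae_mem_M (S := T)] with y hy
    rw [D_Db_comm hv hy]
  have i1 : ∀ j l, Integrable (fun y => v y * T.D j (T.Db l κ) y) T.μ := fun j l =>
    integrable_of_supp ((hv.mono (Nat.zero_le 2)).mul (CD.D (m := 0) (CD.Db (m := 1) hκ2)))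
      (sm_supp_mul (sm_supp_D (sm_supp_Db hκs)))
  have i2 : ∀ j l, Integrable (fun y => T.D j (T.Db l v) y * κ y) T.μ := fun j l =>
    integrable_of_supp ((CD.D (m := 0) (CD.Db (m := 1) hv)).mul (hκ2.mono (Nat.zero_le 2)))
      (sm_supp_mul hκs)
  have e1 : ∫ y, v y * leviC T κ β y ∂T.μ =
      ∑ j, ∑ l, (∫ y, v y * T.D j (T.Db l κ) y ∂T.μ) * (β j * conj (β l)) := by
    have h1 : ∀ y, v y * leviC T κ β y =
        ∑ j, ∑ l, (v y * T.D j (T.Db l κ) y) * (β j * conj (β l)) := by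
      intro y
      unfold leviC
      rw [Finset.mul_sum]
      refine Finset.sum_congr rfl fun j _ => ?_
      rw [Finset.mul_sum]
      refine Finset.sum_congr rfl fun l _ => ?_
      ring
    simp_rw [h1]
    rw [integral_finsetSum _ fun j _ => integrable_finsetSum _ fun l _ => (i1 j l).mul_const _]
    refine Finset.sum_congr rfl fun j _ => ?_
    rw [integral_finsetSum _ fun l _ => (i1 j l).mul_const _]
    refine Finset.sum_congr rfl fun l _ => ?_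
    rw [integral_mul_const]
  have e2 : ∫ y, leviC T v β y * κ y ∂T.μ =
      ∑ j, ∑ l, (∫ y, T.D j (T.Db l v) y * κ y ∂T.μ) * (β j * conj (β l)) := by
    have h1 : ∀ y, leviC T v β y * κ y =
        ∑ j, ∑ l, (T.D j (T.Db l v) y * κ y) * (β j * conj (β l)) := by
      intro y
      unfold leviC
      rw [Finset.sum_mul]
      refine Finset.sum_congr rfl fun j _ => ?_
      rw [Finset.sum_mul]
      refine Finset.sum_congr rfl fun l _ => ?_
      ring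
    simp_rw [h1]
    rw [integral_finsetSum _ fun j _ => integrable_finsetSum _ fun l _ => (i2 j l).mul_const _]
    refine Finset.sum_congr rfl fun j _ => ?_
    rw [integral_finsetSum _ fun l _ => (i2 j l).mul_const _]
    refine Finset.sum_congr rfl fun l _ => ?_
    rw [integral_mul_const]
  rw [e1, e2]
  refine Finset.sum_congr rfl fun j _ => Finset.sum_congr rfl fun l _ => ?_
  rw [hterm j l]

/-- Real form of the integration by parts. -/
theorem integral_levi {v κ : (Fin k → ℂ) × ℕ → ℝ} (hv : T.CD 2 (fun y => (v y : ℂ)))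
    (hκ : T.IsTest (fun y => (κ y : ℂ))) (β : Fin k → ℂ) :
    ∫ y, v y * T.levi κ β y ∂T.μ = ∫ y, T.levi v β y * κ y ∂T.μ := by
  have h := integral_leviC hv hκ β
  have i1 : Integrable (fun y => (v y : ℂ) * leviC T (fun y => (κ y : ℂ)) β y) T.μ :=
    integrable_of_supp ((hv.mono (Nat.zero_le 2)).mul (leviC_CD hκ.1 β))
      (sm_supp_mul (leviC_supp hκ.2 β))
  have i2 : Integrable (fun y => leviC T (fun y => (v y : ℂ)) β y * (κ y : ℂ)) T.μ :=
    integrable_of_supp ((leviC_CD hv β).mul (hκ.1.mono (Nat.zero_le 2))) (sm_supp_mul hκ.2)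
  have e1 : ∫ y, v y * T.levi κ β y ∂T.μ =
      (∫ y, (v y : ℂ) * leviC T (fun y => (κ y : ℂ)) β y ∂T.μ).re := by
    have := integral_re i1
    rw [RCLike.re_eq_complex_re] at this
    rw [← this]
    refine integral_congr_ae (Eventually.of_forall fun y => ?_)
    simp only [levi_eq, RCLike.re_eq_complex_re, Complex.re_ofReal_mul]
  have e2 : ∫ y, T.levi v β y * κ y ∂T.μ =
      (∫ y, leviC T (fun y => (v y : ℂ)) β y * (κ y : ℂ) ∂T.μ).re := by
    have := integral_re i2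
    rw [RCLike.re_eq_complex_re] at this
    rw [← this]
    refine integral_congr_ae (Eventually.of_forall fun y => ?_)
    simp only [levi_eq, RCLike.re_eq_complex_re, Complex.re_mul_ofReal]
  rw [e1, e2, h]

/-- Plurisubharmonic in the sense of distributions. -/
def DPsh (T : Sheets k N') (u : (Fin k → ℂ) × ℕ → ℝ) : Prop :=
  ∀ κ : (Fin k → ℂ) × ℕ → ℝ, T.IsTest (fun y => (κ y : ℂ)) → (∀ y ∈ T.M, 0 ≤ κ y) →
    ∀ β : Fin k → ℂ, 0 ≤ ∫ y, u y * T.levi κ β y ∂T.μ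

theorem dpsh_of_levi {v : (Fin k → ℂ) × ℕ → ℝ} (hv : T.CD 2 (fun y => (v y : ℂ)))
    (hl : ∀ y ∈ T.M, ∀ β : Fin k → ℂ, 0 ≤ T.levi v β y) : DPsh T v := by
  intro κ hκ hκ0 β
  rw [integral_levi hv hκ β]
  refine integral_nonneg_of_ae ?_
  filter_upwards [ae_mem_M (S := T)] with y hy
  exact mul_nonneg (hl y hy β) (hκ0 y hy)

theorem DPsh.smul {u : (Fin k → ℂ) × ℕ → ℝ} (hu : DPsh T u) {c : ℝ} (hc : 0 ≤ c) :
    DPsh T (fun y => c * u y) := by
  intro κ hκ hκ0 β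
  simp_rw [mul_assoc]
  rw [integral_const_mul]
  exact mul_nonneg hc (hu κ hκ hκ0 β)

/-- Limits. -/
theorem test_limit {κ : (Fin k → ℂ) × ℕ → ℝ} (hκ : T.IsTest (fun y => (κ y : ℂ)))
    {K : Set (Fin k → ℂ)} (hK : IsCompact K) (hKV : K ⊆ T.V)
    (hκK : ∀ y : (Fin k → ℂ) × ℕ, y.1 ∉ K → κ y = 0) (β : Fin k → ℂ)
    {v : ℕ → (Fin k → ℂ) × ℕ → ℝ} {u : (Fin k → ℂ) × ℕ → ℝ}
    (hm : ∀ m, AEMeasurable (v m) T.μ) {B : ℝ}
    (hB : ∀ m, ∀ y ∈ T.M, y.1 ∈ K → |v m y| ≤ B)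
    (hlim : ∀ y ∈ T.M, y.1 ∈ K → Tendsto (fun m => v m y) atTop (𝓝 (u y)))
    (hpos : ∀ m, 0 ≤ ∫ y, v m y * T.levi κ β y ∂T.μ) :
    0 ≤ ∫ y, u y * T.levi κ β y ∂T.μ := by
  have hκ0 : ∀ y : (Fin k → ℂ) × ℕ, y.1 ∉ K → T.levi κ β y = 0 := by
    intro y hy
    rw [levi_eq, leviC_zero_off hK.isClosed (fun y hy => by simp [hκK y hy]) β y hy,
      Complex.zero_re]
  have hLi : Integrable (leviC T (fun y => (κ y : ℂ)) β) T.μ :=
    integrable_of_supp (leviC_CD hκ.1 β) (leviC_supp hκ.2 β)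
  have hLr : Integrable (T.levi κ β) T.μ := hLi.re
  have hlimI : Tendsto (fun m => ∫ y, v m y * T.levi κ β y ∂T.μ) atTop
      (𝓝 (∫ y, u y * T.levi κ β y ∂T.μ)) := by
    refine tendsto_integral_of_dominated_convergence (fun y => B * |T.levi κ β y|) ?_ ?_ ?_ ?_
    · intro m
      exact (hm m).aestronglyMeasurable.mul hLr.aestronglyMeasurable
    · exact hLr.abs.const_mul B
    · intro m
      filter_upwards [ae_mem_M (S := T)] with y hy
      rw [norm_mul, Real.norm_eq_abs, Real.norm_eq_abs]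
      by_cases h : y.1 ∈ K
      · gcongr
        exact hB m y hy h
      · rw [hκ0 y h]; simp
    · filter_upwards [ae_mem_M (S := T)] with y hy
      by_cases h : y.1 ∈ K
      · exact (hlim y hy h).mul_const _
      · rw [hκ0 y h]; simp
  exact ge_of_tendsto' hlimI hpos

/-! ### Finite families -/

/-- `max ε (max_{i < r} ‖f i‖²)`. -/
noncomputable def mx (f : ℕ → (Fin k → ℂ) × ℕ → ℂ) (ε : ℝ) (r : ℕ) (y : (Fin k → ℂ) × ℕ) : ℝ :=
  max ε ((Finset.univ.sup fun i : Fin r => ‖f i y‖₊ ^ 2 : ℝ≥0) : ℝ)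

theorem mx_pos (f : ℕ → (Fin k → ℂ) × ℕ → ℂ) {ε : ℝ} (hε : 0 < ε) (r : ℕ)
    (y : (Fin k → ℂ) × ℕ) : 0 < mx f ε r y := lt_of_lt_of_le hε (le_max_left _ _)

theorem le_mx (f : ℕ → (Fin k → ℂ) × ℕ → ℂ) (ε : ℝ) {r i : ℕ} (hi : i < r)
    (y : (Fin k → ℂ) × ℕ) : ‖f i y‖ ^ 2 ≤ mx f ε r y := by
  refine le_trans ?_ (le_max_right _ _)
  have h := Finset.le_sup (f := fun i : Fin r => ‖f i y‖₊ ^ 2) (Finset.mem_univ (⟨i, hi⟩ : Fin r))
  exact_mod_cast h

theorem mx_le {f : ℕ → (Fin k → ℂ) × ℕ → ℂ} {ε : ℝ} {r : ℕ} {y : (Fin k → ℂ) × ℕ} {B : ℝ}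
    (hε : ε ≤ B) (hB0 : 0 ≤ B) (hB : ∀ i < r, ‖f i y‖ ^ 2 ≤ B) : mx f ε r y ≤ B := by
  refine max_le hε ?_
  have h : (Finset.univ.sup fun i : Fin r => ‖f i y‖₊ ^ 2 : ℝ≥0) ≤ ⟨B, hB0⟩ := by
    refine Finset.sup_le fun i _ => ?_
    have := hB i i.2
    exact_mod_cast this
  exact_mod_cast h

theorem mx_eq_or (f : ℕ → (Fin k → ℂ) × ℕ → ℂ) (ε : ℝ) (r : ℕ) (y : (Fin k → ℂ) × ℕ) :
    mx f ε r y = ε ∨ mx f ε r y = 0 ∨ ∃ i : Fin r, mx f ε r y = ‖f i y‖ ^ 2 := by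
  unfold mx
  rcases max_choice ε ((Finset.univ.sup fun i : Fin r => ‖f i y‖₊ ^ 2 : ℝ≥0) : ℝ) with h | h
  · exact Or.inl h
  · right
    rcases Nat.eq_zero_or_pos r with h0 | h0
    · left
      subst h0
      rw [h]
      simp
    · right
      obtain ⟨i, -, hi⟩ := Finset.exists_mem_eq_sup (Finset.univ : Finset (Fin r))
        ⟨⟨0, h0⟩, Finset.mem_univ _⟩ (fun i : Fin r => ‖f i y‖₊ ^ 2)
      refine ⟨i, ?_⟩
      rw [h, hi]
      simp

theorem aemeas_sq {f : (Fin k → ℂ) × ℕ → ℂ} (hf : T.Holo f) :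
    AEMeasurable (fun y => ‖f y‖₊ ^ 2) T.μ :=
  ((aestronglyMeasurable_of_CD (hf.CD 0)).aemeasurable.nnnorm).pow_const 2

theorem aemeas_mx {f : ℕ → (Fin k → ℂ) × ℕ → ℂ} (hf : ∀ i, T.Holo (f i)) (ε : ℝ) (r : ℕ) :
    AEMeasurable (mx f ε r) T.μ := by
  unfold mx
  refine aemeasurable_const.max ?_
  have h : AEMeasurable (fun y => (Finset.univ.sup fun i : Fin r => ‖f i y‖₊ ^ 2 : ℝ≥0)) T.μ := by
    have : ∀ s : Finset (Fin r), AEMeasurable (fun y => (s.sup fun i : Fin r => ‖f i y‖₊ ^ 2 : ℝ≥0)) T.μ := by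
      classical
      intro s
      induction s using Finset.induction_on with
      | empty => simp only [Finset.sup_empty]; exact aemeasurable_const
      | insert a s ha ih =>
        simp only [Finset.sup_insert]
        exact (aemeas_sq (hf a)).sup ih
    exact this _
  exact h.coe_nnreal_real

/-- The smooth approximations. -/
noncomputable def lse (f : ℕ → (Fin k → ℂ) × ℕ → ℂ) (ε : ℝ) (r p : ℕ) (y : (Fin k → ℂ) × ℕ) : ℝ :=
  (1 / (p + 1 : ℝ)) * Real.log (ε ^ (p + 1) + ∑ i : Fin r, ‖f i y ^ (p + 1)‖ ^ 2)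

theorem holo_pow {X : (Fin k → ℂ) × ℕ → ℂ} (hX : T.Holo X) (j : ℕ) :
    T.Holo (fun q => X q ^ j) := fun W s hs => (hX W s hs).pow j

theorem lse_dpsh {f : ℕ → (Fin k → ℂ) × ℕ → ℂ} (hf : ∀ i, T.Holo (f i)) {ε : ℝ} (hε : 0 < ε)
    (r p : ℕ) : DPsh T (lse f ε r p) := by
  unfold lse
  refine DPsh.smul (u := fun y => Real.log (ε ^ (p + 1) + ∑ i : Fin r, ‖f i y ^ (p + 1)‖ ^ 2))
    ?_ (by positivity)
  have hF : ∀ i : Fin r, T.Holo (fun y => f i y ^ (p + 1)) := fun i => holo_pow (hf i) _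
  have hε' : 0 < ε ^ (p + 1) := by positivity
  refine dpsh_of_levi (CD.log_normSq_sum hF 2 hε') fun y hy β => ?_
  refine le_trans ?_ (levi_log_ge hF hε' hy β)
  positivity

theorem lse_ge (f : ℕ → (Fin k → ℂ) × ℕ → ℂ) {ε : ℝ} (hε : 0 < ε) (r p : ℕ)
    (y : (Fin k → ℂ) × ℕ) : Real.log (mx f ε r y) ≤ lse f ε r p y := by
  have hm := mx_pos f hε r y
  have hp : (0 : ℝ) < (p : ℝ) + 1 := by positivity
  have h1 : mx f ε r y ^ (p + 1) ≤ ε ^ (p + 1) + ∑ i : Fin r, ‖f i y ^ (p + 1)‖ ^ 2 := by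
    have h0 : 0 ≤ ∑ i : Fin r, ‖f i y ^ (p + 1)‖ ^ 2 := by positivity
    rcases mx_eq_or f ε r y with h | h | ⟨i, h⟩
    · rw [h]; linarith
    · rw [h] at hm; exact absurd hm (lt_irrefl _)
    · rw [h]
      have h2 : (‖f i y‖ ^ 2) ^ (p + 1) = ‖f i y ^ (p + 1)‖ ^ 2 := by
        rw [norm_pow, ← pow_mul, ← pow_mul, mul_comm]
      rw [h2]
      have h3 := Finset.single_le_sum (f := fun i : Fin r => ‖f i y ^ (p + 1)‖ ^ 2)
        (fun _ _ => by positivity) (Finset.mem_univ i)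
      have h4 : 0 < ε ^ (p + 1) := by positivity
      linarith
  unfold lse
  have h2 : Real.log (mx f ε r y ^ (p + 1)) ≤
      Real.log (ε ^ (p + 1) + ∑ i : Fin r, ‖f i y ^ (p + 1)‖ ^ 2) :=
    Real.log_le_log (by positivity) h1
  rw [Real.log_pow] at h2
  push_cast at h2
  calc Real.log (mx f ε r y) = (1 / ((p : ℝ) + 1)) * (((p : ℝ) + 1) * Real.log (mx f ε r y)) := by
        field_simp
    _ ≤ _ := by gcongr

theorem lse_le (f : ℕ → (Fin k → ℂ) × ℕ → ℂ) {ε : ℝ} (hε : 0 < ε) (r p : ℕ)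
    (y : (Fin k → ℂ) × ℕ) :
    lse f ε r p y ≤ Real.log (mx f ε r y) + (1 / ((p : ℝ) + 1)) * Real.log (r + 1) := by
  have hm := mx_pos f hε r y
  have hp : (0 : ℝ) < (p : ℝ) + 1 := by positivity
  have h1 : ε ^ (p + 1) + ∑ i : Fin r, ‖f i y ^ (p + 1)‖ ^ 2 ≤
      ((r : ℝ) + 1) * mx f ε r y ^ (p + 1) := by
    have h2 : ε ^ (p + 1) ≤ mx f ε r y ^ (p + 1) := by
      gcongr
      exact le_max_left _ _
    have h3 : ∑ i : Fin r, ‖f i y ^ (p + 1)‖ ^ 2 ≤ ∑ i : Fin r, mx f ε r y ^ (p + 1) := by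
      refine Finset.sum_le_sum fun i _ => ?_
      have h4 : (‖f i y‖ ^ 2) ^ (p + 1) = ‖f i y ^ (p + 1)‖ ^ 2 := by
        rw [norm_pow, ← pow_mul, ← pow_mul, mul_comm]
      rw [← h4]
      exact pow_le_pow_left₀ (by positivity) (le_mx f ε i.2 y) _
    simp only [Finset.sum_const, Finset.card_univ, Fintype.card_fin, nsmul_eq_mul] at h3
    linarith
  unfold lse
  have h2 : Real.log (ε ^ (p + 1) + ∑ i : Fin r, ‖f i y ^ (p + 1)‖ ^ 2) ≤
      Real.log (((r : ℝ) + 1) * mx f ε r y ^ (p + 1)) :=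
    Real.log_le_log (by positivity) h1
  rw [Real.log_mul (by positivity) (by positivity), Real.log_pow] at h2
  push_cast at h2
  calc _ ≤ (1 / ((p : ℝ) + 1)) * (Real.log (r + 1) + ((p : ℝ) + 1) * Real.log (mx f ε r y)) := by
        gcongr
    _ = _ := by field_simp; ring

/-- `log (max ε (max_i ‖f i‖²))` is plurisubharmonic. -/
theorem mx_dpsh {f : ℕ → (Fin k → ℂ) × ℕ → ℂ} (hf : ∀ i, T.Holo (f i)) {ε : ℝ} (hε : 0 < ε)
    (r : ℕ) : DPsh T (fun y => Real.log (mx f ε r y)) := by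
  intro κ hκ hκ0 β
  obtain ⟨K, hK, hKV, hκK⟩ := hκ.2
  have hκK' : ∀ y : (Fin k → ℂ) × ℕ, y.1 ∉ K → κ y = 0 := fun y hy =>
    Complex.ofReal_eq_zero.1 (hκK y hy)
  -- bounds of the functions
  have hbd : ∃ B : ℝ, ∀ y ∈ T.M, y.1 ∈ K → |Real.log (mx f ε r y)| ≤ B := by
    have h1 : ∀ i, ∃ B : ℝ, ∀ q ∈ T.M, q.1 ∈ K → ‖f i q‖ ≤ B := fun i =>
      exists_bound ((hf i).CD 0) hK hKV
    choose b hb using h1
    set B₁ : ℝ := ε + ∑ i ∈ Finset.range r, b i ^ 2 with hB₁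
    have hB₁ε : ε ≤ B₁ := by
      have : 0 ≤ ∑ i ∈ Finset.range r, b i ^ 2 := by positivity
      linarith
    refine ⟨max (Real.log B₁) (-Real.log ε), fun y hy hyK => ?_⟩
    have hm := mx_pos f hε r y
    have h2 : mx f ε r y ≤ B₁ := by
      refine mx_le hB₁ε (by linarith) fun i hi => ?_
      have h3 : ‖f i y‖ ^ 2 ≤ b i ^ 2 := by
        have := hb i y hy hyK
        gcongr
      have h4 : b i ^ 2 ≤ ∑ i ∈ Finset.range r, b i ^ 2 :=
        Finset.single_le_sum (f := fun i => b i ^ 2) (fun _ _ => sq_nonneg _)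
          (Finset.mem_range.2 hi)
      linarith
    rw [abs_le]
    constructor
    · have h5 : Real.log ε ≤ Real.log (mx f ε r y) := Real.log_le_log hε (le_max_left _ _)
      have := le_max_right (Real.log B₁) (-Real.log ε)
      linarith
    · exact (Real.log_le_log hm h2).trans (le_max_left _ _)
  obtain ⟨B, hB⟩ := hbd
  refine test_limit hκ hK hKV hκK' β (v := fun p => lse f ε r p) (B := B + Real.log (r + 1)) ?_ ?_
    ?_ (fun p => lse_dpsh hf hε r p κ hκ hκ0 β)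
  · intro p
    have hF : ∀ i : Fin r, T.Holo (fun y => f i y ^ (p + 1)) := fun i => holo_pow (hf i) _
    have hε' : 0 < ε ^ (p + 1) := by positivity
    have h1 := (aestronglyMeasurable_of_CD (CD.log_normSq_sum hF 0 hε')).aemeasurable
    have h2 := (Complex.measurable_re.comp_aemeasurable h1).const_mul (1 / ((p : ℝ) + 1))
    refine h2.congr (Eventually.of_forall fun y => ?_)
    simp [lse]
  · intro p y hy hyK
    have h1 := lse_ge f hε r p y
    have h2 := lse_le f hε r p y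
    have h3 := abs_le.1 (hB y hy hyK)
    have h4 : 0 ≤ Real.log ((r : ℝ) + 1) := Real.log_nonneg (by
      have := Nat.cast_nonneg (α := ℝ) r; linarith)
    have h5 : (1 / ((p : ℝ) + 1)) * Real.log (r + 1) ≤ Real.log (r + 1) := by
      have h6 : 1 / ((p : ℝ) + 1) ≤ 1 := by
        rw [div_le_one (by positivity)]
        have := Nat.cast_nonneg (α := ℝ) p; linarith
      nlinarith
    rw [abs_le]
    constructor <;> linarith
  · intro y hy hyK
    have h1 : Tendsto (fun p : ℕ => Real.log (mx f ε r y) + (1 / ((p : ℝ) + 1)) *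
        Real.log (r + 1)) atTop (𝓝 (Real.log (mx f ε r y) + 0 * Real.log (r + 1))) :=
      ((tendsto_one_div_add_atTop_nhds_zero_nat (𝕜 := ℝ)).mul_const _).const_add _
    rw [zero_mul, add_zero] at h1
    exact tendsto_of_tendsto_of_tendsto_of_le_of_le tendsto_const_nhds h1
      (fun p => lse_ge f hε r p y) (fun p => lse_le f hε r p y)

end Vale.Agent.P299.H531
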